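import Vale.Agent.P126.Weights

/-! From surprisal weights to large packings of faces. -/

namespace Vale.Agent.P126

open Finset

variable {α : Type*} [DecidableEq α]

/-- The exponential moment summed over intersections with a fixed face. -/
lemma moment_sum {Δ : Finset (Finset α)} {h : Finset α → α → ℝ} {N : ℝ}
    (hm : ∀ C : Finset α, ∑ F ∈ Δ, (if C ⊆ F then Real.exp (∑ v ∈ C, h F v) else 0) ≤ N)
    (F' : Finset α) {x : ℝ} (hx : 0 ≤ x) :
    ∑ F ∈ Δ, Real.exp (∑ v ∈ F ∩ F', h F v) * x ^ (F' \ F).card ≤ N * (1 + x) ^ F'.card := by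
  classical
  have hmaps : ∀ F ∈ Δ, F ∩ F' ∈ F'.powerset := fun F _ =>
    Finset.mem_powerset.mpr Finset.inter_subset_right
  rw [← Finset.sum_fiberwise_of_maps_to hmaps]
  have hC : ∀ C ∈ F'.powerset, ∑ F ∈ Δ with F ∩ F' = C,
      Real.exp (∑ v ∈ F ∩ F', h F v) * x ^ (F' \ F).card ≤ x ^ (F'.card - C.card) * N := by
    intro C hC
    have hCF' : C ⊆ F' := Finset.mem_powerset.mp hC
    have h1 : ∀ F ∈ Δ.filter (fun F => F ∩ F' = C),
        Real.exp (∑ v ∈ F ∩ F', h F v) * x ^ (F' \ F).card =
          x ^ (F'.card - C.card) * Real.exp (∑ v ∈ C, h F v) := by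
      intro F hF
      have hFC := (Finset.mem_filter.mp hF).2
      have hsd : F' \ F = F' \ C := by
        ext v
        simp only [Finset.mem_sdiff, ← hFC, Finset.mem_inter]
        tauto
      rw [hFC, hsd, Finset.card_sdiff_of_subset hCF', mul_comm]
    rw [Finset.sum_congr rfl h1, ← Finset.mul_sum]
    apply mul_le_mul_of_nonneg_left _ (pow_nonneg hx _)
    refine le_trans ?_ (hm C)
    rw [Finset.sum_filter]
    apply Finset.sum_le_sum
    intro F _
    by_cases hFC : F ∩ F' = C
    · have : C ⊆ F := hFC ▸ Finset.inter_subset_left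
      rw [if_pos hFC, if_pos this]
    · rw [if_neg hFC]
      split_ifs
      · exact (Real.exp_pos _).le
      · exact le_refl _
  calc ∑ C ∈ F'.powerset, ∑ F ∈ Δ with F ∩ F' = C,
        Real.exp (∑ v ∈ F ∩ F', h F v) * x ^ (F' \ F).card
      ≤ ∑ C ∈ F'.powerset, x ^ (F'.card - C.card) * N := Finset.sum_le_sum hC
    _ = N * ∑ C ∈ F'.powerset, (1:ℝ) ^ C.card * x ^ (F'.card - C.card) := by
        rw [Finset.mul_sum]
        apply Finset.sum_congr rfl
        intro C _
        rw [one_pow]
        ring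
    _ = N * (1 + x) ^ F'.card := by
        rw [Finset.sum_pow_mul_eq_add_pow]

/-- Total weight of a face. -/
def faceSum (h : Finset α → α → ℝ) (F : Finset α) : ℝ := ∑ v ∈ F, h F v

/-- Two faces are close if each of them puts little weight outside the other. -/
def faceRel (h : Finset α → α → ℝ) (F F' : Finset α) : Prop :=
  ∑ v ∈ F \ F', h F v ≤ (1/100) * faceSum h F ∧ ∑ v ∈ F' \ F, h F' v ≤ (1/100) * faceSum h F'

lemma faceSum_split (h : Finset α → α → ℝ) (F F' : Finset α) :
    faceSum h F = ∑ v ∈ F ∩ F', h F v + ∑ v ∈ F \ F', h F v := by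
  unfold faceSum
  have h1 : F \ (F ∩ F') = F \ F' := by
    ext v
    simp only [Finset.mem_sdiff, Finset.mem_inter]
    tauto
  rw [← h1, add_comm]
  exact (Finset.sum_sdiff Finset.inter_subset_left).symm

/-- Degree bound for the closeness relation. -/
lemma degree_bound {Δ : Finset (Finset α)} {h : Finset α → α → ℝ} {L : ℝ} (hL : 0 ≤ L)
    (h1 : ∀ F ∈ Δ, ∀ v ∈ F, Real.log 2 ≤ h F v)
    (h3 : ∀ F ∈ Δ, faceSum h F ≤ L)
    (hm : ∀ C : Finset α, ∑ F ∈ Δ, (if C ⊆ F then Real.exp (∑ v ∈ C, h F v) else 0) ≤ Real.exp L)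
    {F' : Finset α} (hF' : F' ∈ Δ) {G : Finset (Finset α)} (hG : G ⊆ Δ)
    (hG' : ∀ F ∈ G, L / 5 ≤ faceSum h F ∧ faceRel h F F') :
    (G.card : ℝ) ≤ Real.exp ((893/1000) * L) := by
  have hlog2 : (2/3 : ℝ) ≤ Real.log 2 := by
    have := Real.log_two_gt_d9
    linarith
  set x : ℝ := Real.exp (-4) with hxdef
  have hx0 : 0 ≤ x := (Real.exp_pos _).le
  have hx1 : x ≤ 1/50 := by
    have h2 : Real.exp 4 = (Real.exp 1) ^ 4 := by
      rw [← Real.exp_nat_mul]; norm_num
    have he : (2.7182818283 : ℝ) < Real.exp 1 := Real.exp_one_gt_d9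
    have h3 : (50:ℝ) ≤ Real.exp 4 := by
      rw [h2]
      have : (2.7182818283:ℝ)^4 ≤ (Real.exp 1)^4 := pow_le_pow_left₀ (by norm_num) he.le 4
      norm_num at this ⊢
      linarith
    rw [hxdef, Real.exp_neg, inv_eq_one_div]
    apply one_div_le_one_div_of_le (by norm_num) h3
  -- size of `F'`
  have hcard : (2/3 : ℝ) * F'.card ≤ L := by
    have : ∑ _v ∈ F', (2/3 : ℝ) ≤ faceSum h F' :=
      Finset.sum_le_sum (fun v hv => hlog2.trans (h1 F' hF' v hv))
    rw [Finset.sum_const, nsmul_eq_mul, mul_comm] at this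
    exact this.trans (h3 F' hF')
  -- the moment bound
  have hmom := moment_sum hm F' hx0
  have hpow : (1 + x) ^ F'.card ≤ Real.exp ((F'.card : ℝ) * (1/50)) := by
    have h2 : 1 + x ≤ Real.exp (1/50) := by
      have := Real.add_one_le_exp (1/50 : ℝ)
      linarith
    calc (1 + x) ^ F'.card ≤ (Real.exp (1/50)) ^ F'.card :=
          pow_le_pow_left₀ (by linarith) h2 _
      _ = Real.exp ((F'.card : ℝ) * (1/50)) := by
          rw [← Real.exp_nat_mul]
  -- lower bound for the terms
  have hterm : ∀ F ∈ G, Real.exp ((138/1000) * L) ≤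
      Real.exp (∑ v ∈ F ∩ F', h F v) * x ^ (F' \ F).card := by
    intro F hF
    obtain ⟨hF1, hF2, hF3⟩ := hG' F hF
    have hA : (99/100 : ℝ) * (L / 5) ≤ ∑ v ∈ F ∩ F', h F v := by
      have := faceSum_split h F F'
      nlinarith
    have hB : (2/3 : ℝ) * (F' \ F).card ≤ L / 100 := by
      have h4 : ∑ _v ∈ F' \ F, (2/3 : ℝ) ≤ ∑ v ∈ F' \ F, h F' v :=
        Finset.sum_le_sum (fun v hv =>
          hlog2.trans (h1 F' hF' v (Finset.mem_sdiff.mp hv).1))
      rw [Finset.sum_const, nsmul_eq_mul, mul_comm] at h4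
      have h5 := h3 F' hF'
      linarith
    rw [hxdef, ← Real.exp_nat_mul, ← Real.exp_add]
    apply Real.exp_le_exp.mpr
    linarith
  have hsum : (G.card : ℝ) * Real.exp ((138/1000) * L) ≤
      ∑ F ∈ Δ, Real.exp (∑ v ∈ F ∩ F', h F v) * x ^ (F' \ F).card := by
    calc (G.card : ℝ) * Real.exp ((138/1000) * L) = ∑ _F ∈ G, Real.exp ((138/1000) * L) := by
          rw [Finset.sum_const, nsmul_eq_mul]
      _ ≤ ∑ F ∈ G, Real.exp (∑ v ∈ F ∩ F', h F v) * x ^ (F' \ F).card :=
          Finset.sum_le_sum hterm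
      _ ≤ ∑ F ∈ Δ, Real.exp (∑ v ∈ F ∩ F', h F v) * x ^ (F' \ F).card := by
          apply Finset.sum_le_sum_of_subset_of_nonneg hG
          intro F _ _
          exact mul_nonneg (Real.exp_pos _).le (pow_nonneg hx0 _)
  have hfinal : (G.card : ℝ) * Real.exp ((138/1000) * L) ≤
      Real.exp L * Real.exp ((F'.card : ℝ) * (1/50)) :=
    hsum.trans (hmom.trans (mul_le_mul_of_nonneg_left hpow (Real.exp_pos _).le))
  have h6 : Real.exp L * Real.exp ((F'.card : ℝ) * (1/50)) ≤
      Real.exp ((893/1000) * L) * Real.exp ((138/1000) * L) := by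
    rw [← Real.exp_add, ← Real.exp_add]
    apply Real.exp_le_exp.mpr
    nlinarith
  exact le_of_mul_le_mul_right (hfinal.trans h6) (Real.exp_pos _)

/-- A maximal independent set in a graph with bounded degree. -/
lemma exists_independent {β : Type*} [DecidableEq β] (G : Finset β) (rel : β → β → Prop)
    (hrefl : ∀ x ∈ G, rel x x) (hsymm : ∀ x y, rel x y → rel y x) {D : ℝ}
    (hdeg : ∀ y ∈ G, ∀ T : Finset β, T ⊆ G → (∀ x ∈ T, rel x y) → (T.card : ℝ) ≤ D) :
    ∃ I : Finset β, I ⊆ G ∧ (∀ x ∈ I, ∀ y ∈ I, x ≠ y → ¬ rel x y) ∧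
      (G.card : ℝ) ≤ I.card * D := by
  classical
  let P : Finset (Finset β) :=
    G.powerset.filter (fun I => ∀ x ∈ I, ∀ y ∈ I, x ≠ y → ¬ rel x y)
  have hP : (∅ : Finset β) ∈ P := by
    simp [P]
  obtain ⟨I, hI, hmax⟩ := Finset.exists_max_image P Finset.card ⟨∅, hP⟩
  have hI' := Finset.mem_filter.mp hI
  have hIG : I ⊆ G := Finset.mem_powerset.mp hI'.1
  refine ⟨I, hIG, hI'.2, ?_⟩
  have hcov : G ⊆ I.biUnion (fun y => G.filter (fun x => rel x y)) := by
    intro x hx
    by_contra hne
    have hnr : ∀ y ∈ I, ¬ rel x y := by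
      intro y hy hr
      exact hne (Finset.mem_biUnion.mpr ⟨y, hy, Finset.mem_filter.mpr ⟨hx, hr⟩⟩)
    have hxI : x ∉ I := fun h => hnr x h (hrefl x hx)
    have hins : insert x I ∈ P := by
      refine Finset.mem_filter.mpr ⟨Finset.mem_powerset.mpr (Finset.insert_subset hx hIG), ?_⟩
      intro u hu v hv huv
      rcases Finset.mem_insert.mp hu with rfl | hu'
      · rcases Finset.mem_insert.mp hv with rfl | hv'
        · exact absurd rfl huv
        · exact hnr v hv'
      · rcases Finset.mem_insert.mp hv with rfl | hv'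
        · exact fun h => hnr u hu' (hsymm _ _ h)
        · exact hI'.2 u hu' v hv' huv
    have := hmax _ hins
    rw [Finset.card_insert_of_notMem hxI] at this
    omega
  have h1 : (G.card : ℝ) ≤ (I.biUnion (fun y => G.filter (fun x => rel x y))).card := by
    exact_mod_cast Finset.card_le_card hcov
  have h2 : ((I.biUnion (fun y => G.filter (fun x => rel x y))).card : ℝ) ≤
      ∑ y ∈ I, ((G.filter (fun x => rel x y)).card : ℝ) := by
    exact_mod_cast Finset.card_biUnion_le
  have h3 : ∑ y ∈ I, ((G.filter (fun x => rel x y)).card : ℝ) ≤ ∑ _y ∈ I, D := by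
    apply Finset.sum_le_sum
    intro y hy
    exact hdeg y (hIG hy) _ (Finset.filter_subset _ _) (fun x hx => (Finset.mem_filter.mp hx).2)
  rw [Finset.sum_const, nsmul_eq_mul] at h3
  linarith

/-- Packing of a down-closed family: many faces carry nonnegative weights of total mass at
most one, such that two different faces are separated by their weights. -/
theorem exists_face_packing (S : Finset α) {Δ : Finset (Finset α)} (hS : ∀ F ∈ Δ, F ⊆ S)
    (hne : Δ.Nonempty) (hdown : ∀ F ∈ Δ, ∀ G, G ⊆ F → G ∈ Δ) :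
    ∃ I : Finset (Finset α), ∃ W : Finset α → α → ℝ, I ⊆ Δ ∧ I.Nonempty ∧
      (∀ F ∈ I, ∀ v ∈ F, 0 ≤ W F v) ∧ (∀ F ∈ I, ∑ v ∈ F, W F v ≤ 1) ∧
      (∀ F ∈ I, ∀ F' ∈ I, F ≠ F' →
        (1/100 : ℝ) ≤ ∑ v ∈ F \ F', W F v + ∑ v ∈ F' \ F, W F' v) ∧
      Real.log Δ.card ≤ 30 * Real.log I.card := by
  classical
  have hemp : (∅ : Finset α) ∈ Δ := by
    obtain ⟨F, hF⟩ := hne
    exact hdown F hF ∅ (Finset.empty_subset _)
  have hcardpos : (0 : ℝ) < Δ.card := by exact_mod_cast Finset.card_pos.mpr hne
  set L : ℝ := Real.log Δ.card with hLdef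
  have hL0 : 0 ≤ L := Real.log_natCast_nonneg _
  have hexpL : Real.exp L = Δ.card := Real.exp_log hcardpos
  have hlog2 : (2/3 : ℝ) ≤ Real.log 2 := by
    have := Real.log_two_gt_d9
    linarith
  by_cases hsmall : L < 30 * Real.log 2
  · -- small families
    by_cases hnon : ∃ F ∈ Δ, F.Nonempty
    · obtain ⟨F, hF, v, hv⟩ := hnon
      have hsing : ({v} : Finset α) ∈ Δ := hdown F hF _ (Finset.singleton_subset_iff.mpr hv)
      refine ⟨{∅, {v}}, fun _ _ => 1, ?_, ⟨∅, by simp⟩, ?_, ?_, ?_, ?_⟩
      · intro G hG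
        rcases Finset.mem_insert.mp hG with rfl | hG'
        · exact hemp
        · rw [Finset.mem_singleton.mp hG']; exact hsing
      · intro _ _ _ _; norm_num
      · intro G hG
        rcases Finset.mem_insert.mp hG with rfl | hG'
        · simp
        · rw [Finset.mem_singleton.mp hG']; simp
      · intro G hG G' hG' hne
        have hpos : ∀ A B : Finset α, (0:ℝ) ≤ ∑ _v ∈ A \ B, (1:ℝ) := fun A B =>
          Finset.sum_nonneg (fun _ _ => zero_le_one)
        rcases Finset.mem_insert.mp hG with rfl | hG1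
        · rcases Finset.mem_insert.mp hG' with rfl | hG2
          · exact absurd rfl hne
          · rw [Finset.mem_singleton.mp hG2]
            simp
            norm_num
        · rcases Finset.mem_insert.mp hG' with rfl | hG2
          · rw [Finset.mem_singleton.mp hG1]
            simp
            norm_num
          · rw [Finset.mem_singleton.mp hG1, Finset.mem_singleton.mp hG2] at hne
            exact absurd rfl hne
      · have hc : (({∅, {v}} : Finset (Finset α)).card : ℝ) = 2 := by
          rw [Finset.card_pair]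
          · norm_num
          · exact (Finset.singleton_nonempty v).ne_empty.symm
        rw [hc]
        exact hsmall.le
    · -- only the empty face
      push Not at hnon
      have hΔ : Δ = {∅} := by
        ext G
        simp only [Finset.mem_singleton]
        constructor
        · intro hG
          exact hnon G hG
        · rintro rfl
          exact hemp
      refine ⟨Δ, fun _ _ => 0, subset_rfl, hne, ?_, ?_, ?_, ?_⟩
      · intro _ _ _ _; exact le_refl _
      · intro _ _; simp
      · intro G hG G' hG' hne'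
        rw [hΔ] at hG hG'
        rw [Finset.mem_singleton.mp hG, Finset.mem_singleton.mp hG'] at hne'
        exact absurd rfl hne'
      · have : L = 0 := by rw [hLdef, hΔ]; simp
        rw [this, ← hLdef, this]
        norm_num
  · -- large families
    push Not at hsmall
    have hLpos : 0 < L := by
      have := Real.log_two_gt_d9
      linarith
    obtain ⟨h, h1, h2, h3, h4⟩ := exists_surprisal_weights S Δ hS hne hdown
    rw [← hLdef] at h2 h3
    rw [← hexpL] at h4
    let G : Finset (Finset α) := Δ.filter (fun F => L / 5 ≤ faceSum h F)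
    have hGsub : G ⊆ Δ := Finset.filter_subset _ _
    -- the good faces are many
    have hGcard : (Δ.card : ℝ) ≤ 4 * G.card := by
      have hs : ∑ F ∈ Δ, faceSum h F ≤ G.card * L + (Δ.card - G.card) * (L / 5) := by
        rw [← Finset.sum_filter_add_sum_filter_not Δ (fun F => L / 5 ≤ faceSum h F)]
        have hc : ((Δ.filter (fun F => ¬ L / 5 ≤ faceSum h F)).card : ℝ) = Δ.card - G.card := by
          have := Finset.card_filter_add_card_filter_not (s := Δ) (fun F => L / 5 ≤ faceSum h F)
          rw [← this]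
          push_cast
          ring
        have h5 : ∑ F ∈ G, faceSum h F ≤ ∑ _F ∈ G, L :=
          Finset.sum_le_sum (fun F hF => h3 F (hGsub hF))
        have h6 : ∑ F ∈ Δ.filter (fun F => ¬ L / 5 ≤ faceSum h F), faceSum h F ≤
            ∑ _F ∈ Δ.filter (fun F => ¬ L / 5 ≤ faceSum h F), (L / 5) := by
          apply Finset.sum_le_sum
          intro F hF
          exact (not_le.mp (Finset.mem_filter.mp hF).2).le
        rw [Finset.sum_const, nsmul_eq_mul] at h5 h6
        rw [hc] at h6
        exact add_le_add h5 h6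
      have h7 : (2/5 : ℝ) * Δ.card * L ≤ ∑ F ∈ Δ, faceSum h F := h2
      have h8 : ((1/5 : ℝ) * Δ.card) * L ≤ ((4/5 : ℝ) * G.card) * L := by
        nlinarith
      have h9 := le_of_mul_le_mul_right h8 hLpos
      linarith
    -- independent set
    have hrefl : ∀ F ∈ G, faceRel h F F := by
      intro F hF
      have hF0 : 0 ≤ faceSum h F := by
        have := (Finset.mem_filter.mp hF).2
        linarith
      constructor <;> simpa using hF0
    obtain ⟨I, hIG, hIind, hIcard⟩ := exists_independent G (faceRel h) hrefl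
      (fun x y hxy => ⟨hxy.2, hxy.1⟩) (D := Real.exp ((893/1000) * L)) (by
        intro F' hF' T hT hTrel
        exact degree_bound hL0 h1 h3 h4 (hGsub hF') (hT.trans hGsub)
          (fun F hF => ⟨(Finset.mem_filter.mp (hT hF)).2, hTrel F hF⟩))
    have hIsub : I ⊆ Δ := hIG.trans hGsub
    have hIne : I.Nonempty := by
      by_contra hc
      rw [Finset.not_nonempty_iff_eq_empty] at hc
      rw [hc] at hIcard
      simp only [Finset.card_empty, Nat.cast_zero, zero_mul] at hIcard
      linarith
    have hIpos : (0:ℝ) < I.card := by exact_mod_cast Finset.card_pos.mpr hIne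
    have hfacepos : ∀ F ∈ I, 0 < faceSum h F := by
      intro F hF
      have := (Finset.mem_filter.mp (hIG hF)).2
      linarith
    refine ⟨I, fun F v => h F v / faceSum h F, hIsub, hIne, ?_, ?_, ?_, ?_⟩
    · intro F hF v hv
      have := h1 F (hIsub hF) v hv
      exact div_nonneg (by linarith) (hfacepos F hF).le
    · intro F hF
      rw [← Finset.sum_div]
      change faceSum h F / faceSum h F ≤ 1
      rw [div_self (hfacepos F hF).ne']
    · intro F hF F' hF' hFF'
      have hnr := hIind F hF F' hF' hFF'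
      have hn1 : 0 ≤ ∑ v ∈ F \ F', h F v / faceSum h F := by
        apply Finset.sum_nonneg
        intro v hv
        have := h1 F (hIsub hF) v (Finset.mem_sdiff.mp hv).1
        exact div_nonneg (by linarith) (hfacepos F hF).le
      have hn2 : 0 ≤ ∑ v ∈ F' \ F, h F' v / faceSum h F' := by
        apply Finset.sum_nonneg
        intro v hv
        have := h1 F' (hIsub hF') v (Finset.mem_sdiff.mp hv).1
        exact div_nonneg (by linarith) (hfacepos F' hF').le
      by_cases hc : ∑ v ∈ F \ F', h F v ≤ (1/100) * faceSum h F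
      · have hc2 : ¬ ∑ v ∈ F' \ F, h F' v ≤ (1/100) * faceSum h F' := fun hc2 => hnr ⟨hc, hc2⟩
        push Not at hc2
        have : (1/100 : ℝ) ≤ ∑ v ∈ F' \ F, h F' v / faceSum h F' := by
          rw [← Finset.sum_div, le_div_iff₀ (hfacepos F' hF')]
          exact hc2.le
        linarith
      · push Not at hc
        have : (1/100 : ℝ) ≤ ∑ v ∈ F \ F', h F v / faceSum h F := by
          rw [← Finset.sum_div, le_div_iff₀ (hfacepos F hF)]
          exact hc.le
        linarith
    · -- the size
      have hk : Real.exp L ≤ 4 * (I.card * Real.exp ((893/1000) * L)) := by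
        rw [hexpL]
        nlinarith
      have hlog4 : Real.log 4 = 2 * Real.log 2 := by
        rw [show (4:ℝ) = 2^2 by norm_num, Real.log_pow]
        norm_num
      have hk2 : L ≤ Real.log 4 + (Real.log I.card + (893/1000) * L) := by
        have := Real.log_le_log (Real.exp_pos L) hk
        rw [Real.log_exp, Real.log_mul (by norm_num) (by positivity),
          Real.log_mul hIpos.ne' (Real.exp_pos _).ne', Real.log_exp] at this
        exact this
      rw [hlog4] at hk2
      linarith

end Vale.Agent.P126
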