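import Vale.Agent.P126.Polar
import Vale.Agent.P126.Packing

/-! Coordinates: the cube, solid sets, and the multi-scale product of packings. -/

namespace Vale.Agent.P126

open scoped Pointwise
open Finset

set_option linter.unusedSectionVars false

variable {ι : Type*} [Fintype ι] [DecidableEq ι]

/-- The unit cube of `ℝ^ι`. -/
def cube (ι : Type*) [Fintype ι] : Set (EuclideanSpace ℝ ι) := {x | ∀ i, |x i| ≤ 1}

/-- Solid set: a vector dominated coordinatewise by a member is a member. -/
def Solid (K : Set (EuclideanSpace ℝ ι)) : Prop :=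
  ∀ x ∈ K, ∀ u : EuclideanSpace ℝ ι, (∀ i, |u i| ≤ |x i|) → u ∈ K

lemma inner_eq_sum (x y : EuclideanSpace ℝ ι) : inner ℝ x y = ∑ i, x i * y i := by
  simp [PiLp.inner_apply]
  apply Finset.sum_congr rfl
  intro i _
  ring

lemma solid_aux {K : Set (EuclideanSpace ℝ ι)} (hconv : Convex ℝ K)
    (hsign : ∀ x ∈ K, ∀ u : EuclideanSpace ℝ ι, (∀ i, |u i| = |x i|) → u ∈ K) (S : Finset ι) :
    ∀ x ∈ K, ∀ u : EuclideanSpace ℝ ι, (∀ i ∈ S, |u i| ≤ |x i|) → (∀ i, i ∉ S → u i = x i) →
      u ∈ K := by
  induction S using Finset.induction_on with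
  | empty =>
    intro x hx u _ h2
    have : u = x := by
      ext i
      exact h2 i (by simp)
    rwa [this]
  | insert a S ha ih =>
    intro x hx u h1 h2
    let x' : EuclideanSpace ℝ ι := WithLp.toLp 2 (fun i => if i = a then u a else x i)
    have hx'a : x' a = u a := by simp [x']
    have hx'o : ∀ i, i ≠ a → x' i = x i := by
      intro i hi
      simp [x', hi]
    have hx' : x' ∈ K := by
      by_cases hxa : x a = 0
      · have hua : u a = 0 := by
          have := h1 a (Finset.mem_insert_self a S)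
          rw [hxa, abs_zero] at this
          exact abs_nonpos_iff.mp this
        have : x' = x := by
          ext i
          by_cases hi : i = a
          · rw [hi, hx'a, hua, hxa]
          · exact hx'o i hi
        rwa [this]
      · let f : EuclideanSpace ℝ ι := WithLp.toLp 2 (fun i => if i = a then - x a else x i)
        have hf : f ∈ K := by
          apply hsign x hx
          intro i
          by_cases hi : i = a
          · simp [f, hi]
          · simp [f, hi]
        set t : ℝ := u a / x a with ht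
        have htx : t * x a = u a := by
          rw [ht]; field_simp
        have ht1 : |t| ≤ 1 := by
          rw [ht, abs_div, div_le_one (abs_pos.mpr hxa)]
          exact h1 a (Finset.mem_insert_self a S)
        have ht2 := abs_le.mp ht1
        have hcomb := hconv hx hf (by linarith : 0 ≤ (1 + t) / 2) (by linarith : 0 ≤ (1 - t) / 2)
          (by ring)
        have : x' = ((1 + t) / 2) • x + ((1 - t) / 2) • f := by
          ext i
          by_cases hi : i = a
          · subst hi
            simp only [PiLp.add_apply, PiLp.smul_apply, smul_eq_mul, hx'a]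
            simp only [f, PiLp.toLp_apply, if_true]
            rw [← htx]
            ring
          · simp only [PiLp.add_apply, PiLp.smul_apply, smul_eq_mul, hx'o i hi]
            simp only [f, PiLp.toLp_apply, if_neg hi]
            ring
        rwa [this]
    apply ih x' hx' u
    · intro i hi
      have hia : i ≠ a := fun e => ha (e ▸ hi)
      rw [hx'o i hia]
      exact h1 i (Finset.mem_insert_of_mem hi)
    · intro i hi
      by_cases hia : i = a
      · rw [hia, hx'a]
      · rw [hx'o i hia]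
        apply h2 i
        intro h
        rcases Finset.mem_insert.mp h with h | h
        · exact hia h
        · exact hi h

/-- A convex set invariant under sign changes of coordinates is solid. -/
lemma solid_of_signs {K : Set (EuclideanSpace ℝ ι)} (hconv : Convex ℝ K)
    (hsign : ∀ x ∈ K, ∀ u : EuclideanSpace ℝ ι, (∀ i, |u i| = |x i|) → u ∈ K) : Solid K := by
  intro x hx u hu
  exact solid_aux hconv hsign Finset.univ x hx u (fun i _ => hu i) (fun i hi => absurd (mem_univ i) hi)

/-- Indicator vector. -/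
noncomputable def ind (σ : Finset ι) : EuclideanSpace ℝ ι :=
  WithLp.toLp 2 (fun i => if i ∈ σ then (1:ℝ) else 0)

@[simp] lemma ind_apply (σ : Finset ι) (i : ι) : ind σ i = if i ∈ σ then (1:ℝ) else 0 := by
  simp [ind]

/-- The weighted `ℓ¹` norm dual to the cube. -/
noncomputable def nw (Z : EuclideanSpace ℝ ι) : ℝ := ∑ i, |Z i|

lemma nw_nonneg (Z : EuclideanSpace ℝ ι) : 0 ≤ nw Z :=
  Finset.sum_nonneg (fun _ _ => abs_nonneg _)

lemma nw_add_le (Y Z : EuclideanSpace ℝ ι) : nw (Y + Z) ≤ nw Y + nw Z := by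
  unfold nw
  rw [← Finset.sum_add_distrib]
  apply Finset.sum_le_sum
  intro i _
  simpa using abs_add_le (Y i) (Z i)

lemma nw_sub_le (Y Z : EuclideanSpace ℝ ι) : nw (Y - Z) ≤ nw Y + nw Z := by
  unfold nw
  rw [← Finset.sum_add_distrib]
  apply Finset.sum_le_sum
  intro i _
  simpa using abs_sub (Y i) (Z i)

lemma nw_smul (a : ℝ) (Z : EuclideanSpace ℝ ι) : nw (a • Z) = |a| * nw Z := by
  unfold nw
  rw [Finset.mul_sum]
  apply Finset.sum_congr rfl
  intro i _
  simp [abs_mul]

lemma abs_inner_le_nw {x Z : EuclideanSpace ℝ ι} {B : ℝ} (hx : ∀ i, |x i| ≤ B) :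
    |inner ℝ x Z| ≤ B * nw Z := by
  rw [inner_eq_sum]
  calc |∑ i, x i * Z i| ≤ ∑ i, |x i * Z i| := Finset.abs_sum_le_sum_abs _ _
    _ ≤ ∑ i, B * |Z i| := by
        apply Finset.sum_le_sum
        intro i _
        rw [abs_mul]
        exact mul_le_mul_of_nonneg_right (hx i) (abs_nonneg _)
    _ = B * nw Z := by
        rw [nw, Finset.mul_sum]

lemma mem_polar_cube_of_nw_le {y : EuclideanSpace ℝ ι} (hy : nw y ≤ 1) :
    y ∈ polarBody (cube ι) := by
  intro x hx
  have h1 := abs_inner_le_nw (Z := y) (B := 1) hx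
  rw [one_mul] at h1
  exact (le_abs_self _).trans (h1.trans hy)

lemma nw_le_of_mem_polar_cube {y : EuclideanSpace ℝ ι} (hy : y ∈ polarBody (cube ι)) :
    nw y ≤ 1 := by
  classical
  let x : EuclideanSpace ℝ ι := WithLp.toLp 2 (fun i => if 0 ≤ y i then (1:ℝ) else -1)
  have hx : x ∈ cube ι := by
    intro i
    by_cases hi : 0 ≤ y i <;> simp [x, hi]
  have := hy x hx
  rw [inner_eq_sum] at this
  have heq : ∑ i, x i * y i = nw y := by
    unfold nw
    apply Finset.sum_congr rfl
    intro i _
    by_cases hi : 0 ≤ y i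
    · simp [x, hi, abs_of_nonneg hi]
    · have hi' : y i < 0 := not_le.mp hi
      simp [x, hi, abs_of_neg hi']
  linarith

lemma mem_polar_cube_iff {y : EuclideanSpace ℝ ι} : y ∈ polarBody (cube ι) ↔ nw y ≤ 1 :=
  ⟨nw_le_of_mem_polar_cube, mem_polar_cube_of_nw_le⟩

/-- The multi-scale product of packings. -/
theorem product_pack {K : Set (EuclideanSpace ℝ ι)} {Y : ℕ → Finset (EuclideanSpace ℝ ι)}
    (h1 : ∀ j, ∀ y ∈ Y j, nw y ≤ 1)
    (h2 : ∀ j, ∀ y ∈ Y j, ∀ y' ∈ Y j, y ≠ y' → ∃ x ∈ K, (∀ i, |x i| ≤ 2 ^ j / 2) ∧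
      2 ^ j / 2 * (1/100 : ℝ) ≤ inner ℝ x (y - y')) :
    ∀ (k r : ℕ), ∃ P : Finset (EuclideanSpace ℝ ι),
      P.card = ∏ l ∈ Finset.range k, (Y (r + 10 * l)).card ∧ (∀ Z ∈ P, nw Z ≤ 2) ∧
      (∀ Z ∈ P, ∀ Z' ∈ P, Z ≠ Z' → ∃ x ∈ K,
        2 ^ r / 2 * (1/100 - 1/256 : ℝ) ≤ inner ℝ x (Z - Z')) := by
  intro k
  induction k with
  | zero =>
    intro r
    refine ⟨{0}, by simp, ?_, ?_⟩
    · intro Z hZ
      rw [Finset.mem_singleton.mp hZ]
      simp [nw]
    · intro Z hZ Z' hZ' hne
      rw [Finset.mem_singleton.mp hZ, Finset.mem_singleton.mp hZ'] at hne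
      exact absurd rfl hne
  | succ k ih =>
    intro r
    obtain ⟨P₀, hc, hn, hs⟩ := ih (r + 10)
    let f : EuclideanSpace ℝ ι × EuclideanSpace ℝ ι → EuclideanSpace ℝ ι :=
      fun p => p.1 + (1/1024 : ℝ) • p.2
    have hpos : (0:ℝ) < 2 ^ r / 2 * (1/100 - 1/256 : ℝ) := by positivity
    have hkey : ∀ p ∈ Y r ×ˢ P₀, ∀ p' ∈ Y r ×ˢ P₀, p ≠ p' → ∃ x ∈ K,
        2 ^ r / 2 * (1/100 - 1/256 : ℝ) ≤ inner ℝ x (f p - f p') := by
      rintro ⟨y, Z⟩ hp ⟨y', Z'⟩ hp' hne
      obtain ⟨hy, hZ⟩ := Finset.mem_product.mp hp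
      obtain ⟨hy', hZ'⟩ := Finset.mem_product.mp hp'
      simp only at hy hZ hy' hZ'
      have hdiff : f (y, Z) - f (y', Z') = (y - y') + (1/1024 : ℝ) • (Z - Z') := by
        simp only [f]
        module
      by_cases hyy : y = y'
      · -- same first component
        have hZZ : Z ≠ Z' := by
          intro h
          exact hne (by rw [hyy, h])
        obtain ⟨x, hx, hxs⟩ := hs Z hZ Z' hZ' hZZ
        refine ⟨x, hx, ?_⟩
        rw [hdiff, hyy, sub_self, zero_add, inner_smul_right]
        have h2r : (2:ℝ) ^ (r + 10) = 2 ^ r * 1024 := by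
          rw [pow_add]; norm_num
        rw [h2r] at hxs
        nlinarith
      · obtain ⟨x, hx, hxb, hxs⟩ := h2 r y hy y' hy' hyy
        refine ⟨x, hx, ?_⟩
        rw [hdiff, inner_add_right, inner_smul_right]
        have hb := abs_inner_le_nw (Z := Z - Z') hxb
        have hb2 : nw (Z - Z') ≤ 4 := by
          have := nw_sub_le Z Z'
          have h3 := hn Z hZ
          have h4 := hn Z' hZ'
          linarith
        have hb3 : |inner ℝ x (Z - Z')| ≤ 2 ^ r / 2 * 4 :=
          hb.trans (mul_le_mul_of_nonneg_left hb2 (by positivity))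
        have hb4 := (abs_le.mp hb3).1
        have hr : (0:ℝ) < 2 ^ r / 2 := by positivity
        nlinarith
    have hinj : Set.InjOn f (Y r ×ˢ P₀ : Finset _) := by
      intro p hp p' hp' heq
      by_contra hne
      obtain ⟨x, _, hxs⟩ := hkey p hp p' hp' hne
      have : f p - f p' = 0 := sub_eq_zero.mpr heq
      rw [this, inner_zero_right] at hxs
      linarith
    refine ⟨(Y r ×ˢ P₀).image f, ?_, ?_, ?_⟩
    · rw [Finset.card_image_of_injOn hinj, Finset.card_product, hc, Finset.prod_range_succ',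
        mul_zero, add_zero, mul_comm]
      congr 1
      apply Finset.prod_congr rfl
      intro l _
      congr 2
      ring
    · intro W hW
      obtain ⟨⟨y, Z⟩, hp, rfl⟩ := Finset.mem_image.mp hW
      obtain ⟨hy, hZ⟩ := Finset.mem_product.mp hp
      simp only at hy hZ
      have h3 := nw_add_le y ((1/1024 : ℝ) • Z)
      rw [nw_smul] at h3
      have h4 := h1 r y hy
      have h5 := hn Z hZ
      simp only [f]
      have h6 : |(1/1024 : ℝ)| = 1/1024 := abs_of_pos (by norm_num)
      rw [h6] at h3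
      linarith
    · intro W hW W' hW' hne
      obtain ⟨p, hp, rfl⟩ := Finset.mem_image.mp hW
      obtain ⟨p', hp', rfl⟩ := Finset.mem_image.mp hW'
      exact hkey p hp p' hp' (fun h => hne (by rw [h]))

end Vale.Agent.P126
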