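import Vale.Agent.P126.Restr

/-! A weighted Gilbert-Varshamov bound. -/

namespace Vale.Agent.P126

open Finset

set_option linter.unusedSectionVars false

variable {ι : Type*} [Fintype ι] [DecidableEq ι]

lemma one_add_exp_neg_le (a : ℝ) : 1 + Real.exp (-a) ≤ 2 * Real.exp (-a / 2 + a ^ 2 / 8) := by
  have h1 := Real.cosh_le_exp_half_sq (a / 2)
  rw [Real.cosh_eq] at h1
  have h2 : 1 + Real.exp (-a) = Real.exp (-a / 2) * (Real.exp (a / 2) + Real.exp (-(a / 2))) := by
    rw [mul_add, ← Real.exp_add, ← Real.exp_add]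
    have e1 : -a / 2 + a / 2 = 0 := by ring
    have e2 : -a / 2 + -(a / 2) = -a := by ring
    rw [e1, e2, Real.exp_zero]
  rw [h2, Real.exp_add, mul_comm (Real.exp (-a / 2))]
  have h3 : Real.exp (a / 2) + Real.exp (-(a / 2)) ≤ 2 * Real.exp (a ^ 2 / 8) := by
    have e : (a / 2) ^ 2 / 2 = a ^ 2 / 8 := by ring
    rw [e] at h1
    linarith
  have h4 : 0 < Real.exp (-a / 2) := Real.exp_pos _
  calc (Real.exp (a / 2) + Real.exp (-(a / 2))) * Real.exp (-a / 2)
      ≤ (2 * Real.exp (a ^ 2 / 8)) * Real.exp (-a / 2) := mul_le_mul_of_nonneg_right h3 h4.le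
    _ = _ := by ring

/-- The number of small sets for a weight with small atoms. -/
lemma card_small_sets (q : ι → ℝ) (hq0 : ∀ i, 0 ≤ q i) (hq8 : ∑ i, q i = 8) {e : ℝ} (he : 0 < e)
    (hatom : ∀ i, q i ≤ 8 / e) :
    (((univ : Finset (Finset ι)).filter (fun E => ∑ v ∈ E, q v < 2)).card : ℝ) ≤
      2 ^ Fintype.card ι * Real.exp (-(e / 8)) := by
  set s : ℝ := e / 8 with hs
  have hs0 : 0 < s := by positivity
  have hsum : ∑ E ∈ (univ : Finset ι).powerset, ∏ v ∈ E, Real.exp (-(s * q v)) =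
      ∏ v, (1 + Real.exp (-(s * q v))) := by
    rw [Finset.prod_one_add]
  have hprod : ∏ v, (1 + Real.exp (-(s * q v))) ≤
      ∏ v : ι, (2 * Real.exp (-(s * q v) / 2 + (s * q v) ^ 2 / 8)) := by
    apply Finset.prod_le_prod
    · intro v _
      have := Real.exp_pos (-(s * q v))
      linarith
    · intro v _
      have := one_add_exp_neg_le (s * q v)
      simpa using this
  have hprod2 : ∏ v : ι, (2 * Real.exp (-(s * q v) / 2 + (s * q v) ^ 2 / 8)) =
      2 ^ Fintype.card ι * Real.exp (∑ v, (-(s * q v) / 2 + (s * q v) ^ 2 / 8)) := by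
    rw [Finset.prod_mul_distrib, Finset.prod_const, Real.exp_sum]
    simp
  have hsq : ∑ v, q v ^ 2 ≤ 64 / e := by
    calc ∑ v, q v ^ 2 ≤ ∑ v, (8 / e) * q v := by
          apply Finset.sum_le_sum
          intro v _
          have := hatom v
          have h0 := hq0 v
          nlinarith
      _ = 64 / e := by
          rw [← Finset.mul_sum, hq8]
          ring
  have hexp : ∑ v, (-(s * q v) / 2 + (s * q v) ^ 2 / 8) ≤ -(3 * e / 8) := by
    have h1 : ∑ v, (-(s * q v) / 2 + (s * q v) ^ 2 / 8) =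
        -(s / 2) * ∑ v, q v + (s ^ 2 / 8) * ∑ v, q v ^ 2 := by
      rw [Finset.mul_sum, Finset.mul_sum, ← Finset.sum_add_distrib]
      apply Finset.sum_congr rfl
      intro v _
      ring
    rw [h1, hq8]
    have h2 : (s ^ 2 / 8) * ∑ v, q v ^ 2 ≤ (s ^ 2 / 8) * (64 / e) :=
      mul_le_mul_of_nonneg_left hsq (by positivity)
    have h3 : (s ^ 2 / 8) * (64 / e) = e / 8 := by
      rw [hs]
      field_simp
      norm_num
    have h4 : -(s / 2) * 8 = -(e / 2) := by
      rw [hs]; ring
    linarith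
  set A : Finset (Finset ι) := (univ : Finset (Finset ι)).filter (fun E => ∑ v ∈ E, q v < 2)
    with hA
  have hterm : ∀ E ∈ A, Real.exp (-(e / 4)) ≤ ∏ v ∈ E, Real.exp (-(s * q v)) := by
    intro E hE
    have hE2 : ∑ v ∈ E, q v < 2 := (Finset.mem_filter.mp hE).2
    rw [← Real.exp_sum]
    apply Real.exp_le_exp.mpr
    rw [Finset.sum_neg_distrib, ← Finset.mul_sum]
    have : s * ∑ v ∈ E, q v ≤ s * 2 := mul_le_mul_of_nonneg_left hE2.le hs0.le
    have h2 : s * 2 = e / 4 := by rw [hs]; ring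
    linarith
  have hsum2 : (A.card : ℝ) * Real.exp (-(e / 4)) ≤
      ∑ E ∈ (univ : Finset ι).powerset, ∏ v ∈ E, Real.exp (-(s * q v)) := by
    calc (A.card : ℝ) * Real.exp (-(e / 4)) = ∑ _E ∈ A, Real.exp (-(e / 4)) := by
          rw [Finset.sum_const, nsmul_eq_mul]
      _ ≤ ∑ E ∈ A, ∏ v ∈ E, Real.exp (-(s * q v)) := Finset.sum_le_sum hterm
      _ ≤ _ := by
          apply Finset.sum_le_sum_of_subset_of_nonneg
          · intro E _
            exact Finset.mem_powerset.mpr (Finset.subset_univ E)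
          · intro E _ _
            exact Finset.prod_nonneg (fun v _ => (Real.exp_pos _).le)
  have hfinal : (A.card : ℝ) * Real.exp (-(e / 4)) ≤
      2 ^ Fintype.card ι * Real.exp (-(3 * e / 8)) := by
    rw [hsum] at hsum2
    refine hsum2.trans (hprod.trans ?_)
    rw [hprod2]
    apply mul_le_mul_of_nonneg_left _ (by positivity)
    exact Real.exp_le_exp.mpr hexp
  have h5 : 2 ^ Fintype.card ι * Real.exp (-(3 * e / 8)) =
      (2 ^ Fintype.card ι * Real.exp (-(e / 8))) * Real.exp (-(e / 4)) := by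
    rw [mul_assoc, ← Real.exp_add]
    congr 2
    ring
  rw [h5] at hfinal
  exact le_of_mul_le_mul_right hfinal (Real.exp_pos _)

/-- A weighted Gilbert-Varshamov bound: many sets pairwise differing by weight at least two. -/
theorem exists_code (q : ι → ℝ) (hq0 : ∀ i, 0 ≤ q i) (hq8 : ∑ i, q i = 8) {e : ℝ} (he : 0 < e)
    (hatom : ∀ i, q i ≤ 8 / e) :
    ∃ D : Finset (Finset ι), Real.exp (e / 8) ≤ D.card ∧
      ∀ E ∈ D, ∀ E' ∈ D, E ≠ E' → 2 ≤ ∑ v ∈ E \ E', q v + ∑ v ∈ E' \ E, q v := by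
  classical
  let rel : Finset ι → Finset ι → Prop := fun E E' => ∑ v ∈ E \ E', q v + ∑ v ∈ E' \ E, q v < 2
  have hsplit : ∀ E E' : Finset ι, ∑ v ∈ symmDiff E E', q v =
      ∑ v ∈ E \ E', q v + ∑ v ∈ E' \ E, q v := by
    intro E E'
    rw [symmDiff_def, Finset.sup_eq_union, Finset.sum_union]
    rw [Finset.disjoint_left]
    intro v hv hv'
    exact (Finset.mem_sdiff.mp hv).2 (Finset.mem_sdiff.mp hv').1
  obtain ⟨I, _, hI, hIc⟩ := exists_independent (univ : Finset (Finset ι)) rel
    (by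
      intro E _
      simp [rel])
    (by
      intro E E' h
      simp only [rel] at h ⊢
      linarith)
    (D := 2 ^ Fintype.card ι * Real.exp (-(e / 8)))
    (by
      intro E' _ T _ hT
      refine le_trans ?_ (card_small_sets q hq0 hq8 he hatom)
      have : T.card ≤ ((univ : Finset (Finset ι)).filter (fun E => ∑ v ∈ E, q v < 2)).card := by
        apply Finset.card_le_card_of_injOn (fun E => symmDiff E E')
        · intro E hE
          apply Finset.mem_coe.mpr
          refine Finset.mem_filter.mpr ⟨Finset.mem_univ _, ?_⟩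
          rw [hsplit]
          exact hT E hE
        · intro E _ E₁ _ h
          exact symmDiff_left_injective E' h
      exact_mod_cast this)
  refine ⟨I, ?_, ?_⟩
  · have hc : ((univ : Finset (Finset ι)).card : ℝ) = 2 ^ Fintype.card ι := by
      simp
    rw [hc] at hIc
    have h2 : (0:ℝ) < 2 ^ Fintype.card ι := by positivity
    have h3 : (1:ℝ) ≤ I.card * Real.exp (-(e / 8)) := by
      have : (2:ℝ) ^ Fintype.card ι * 1 ≤ (2:ℝ) ^ Fintype.card ι * (I.card * Real.exp (-(e / 8))) := by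
        nlinarith
      exact le_of_mul_le_mul_left this h2
    have h4 : Real.exp (e / 8) * Real.exp (-(e / 8)) = 1 := by
      rw [← Real.exp_add]
      simp
    have h5 : 0 < Real.exp (-(e / 8)) := Real.exp_pos _
    have h6 : Real.exp (e / 8) * Real.exp (-(e / 8)) ≤ I.card * Real.exp (-(e / 8)) := by
      rw [h4]; exact h3
    exact le_of_mul_le_mul_right h6 h5
  · intro E hE E' hE' hne
    have := hI E hE E' hE' hne
    simp only [rel, not_lt] at this
    exact this

end Vale.Agent.P126
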