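import Mathlib

/-!
Combinatorics of strong shattering (after Alon, Ben-David, Cesa-Bianchi and Haussler):
a large pairwise 2-separated family of integer-valued functions strongly shatters many graphs.
-/

namespace Vale.Agent.P126

open Finset

variable {ι : Type*} [DecidableEq ι]

/-- A finite graph `G ⊆ ι × ℤ` is strongly shattered by `F` if for each `E ⊆ G` a member of `F`
lies strictly above `G` on `E` and strictly below `G` on `G \ E` (by at least one). -/
def StrongShatters (F : Finset (ι → ℤ)) (G : Finset (ι × ℤ)) : Prop :=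
  ∀ E ⊆ G, ∃ f ∈ F, (∀ g ∈ E, g.2 + 1 ≤ f g.1) ∧ (∀ g ∈ G \ E, f g.1 + 1 ≤ g.2)

/-- `F` is pairwise 2-separated on `D`. -/
def Sep2 (F : Finset (ι → ℤ)) (D : Finset ι) : Prop :=
  ∀ f ∈ F, ∀ g ∈ F, f ≠ g → ∃ x ∈ D, 2 ≤ |f x - g x|

open Classical in
/-- The graphs inside `D × V` that are strongly shattered by `F`. -/
noncomputable def shattered (F : Finset (ι → ℤ)) (D : Finset ι) (V : Finset ℤ) :
    Finset (Finset (ι × ℤ)) :=
  ((D ×ˢ V).powerset).filter (fun G => StrongShatters F G)

lemma StrongShatters.mono {F F' : Finset (ι → ℤ)} (h : F ⊆ F') {G : Finset (ι × ℤ)}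
    (hG : StrongShatters F G) : StrongShatters F' G := by
  intro E hE
  obtain ⟨f, hf, h1, h2⟩ := hG E hE
  exact ⟨f, h hf, h1, h2⟩

lemma strongShatters_empty {F : Finset (ι → ℤ)} (hF : F.Nonempty) :
    StrongShatters F (∅ : Finset (ι × ℤ)) := by
  intro E hE
  obtain ⟨f, hf⟩ := hF
  refine ⟨f, hf, ?_, ?_⟩
  · intro g hg
    exact absurd (hE hg) (by simp)
  · intro g hg
    simp at hg

lemma mem_shattered {F : Finset (ι → ℤ)} {D : Finset ι} {V : Finset ℤ} {G : Finset (ι × ℤ)} :
    G ∈ shattered F D V ↔ G ⊆ D ×ˢ V ∧ StrongShatters F G := by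
  classical
  simp [shattered, Finset.mem_filter, Finset.mem_powerset]

lemma one_le_card_shattered {F : Finset (ι → ℤ)} (hF : F.Nonempty) (D : Finset ι) (V : Finset ℤ) :
    1 ≤ (shattered F D V).card := by
  apply Finset.card_pos.mpr
  exact ⟨∅, mem_shattered.mpr ⟨by simp, strongShatters_empty hF⟩⟩

/-- The doubling step. -/
lemma card_add_card_le_card_shattered {F Fl Fh : Finset (ι → ℤ)} {D : Finset ι} {lo hi : ℤ}
    {x : ι} {i j : ℤ} (hx : x ∈ D) (hi' : i ∈ Finset.Icc lo hi) (hj : j ∈ Finset.Icc lo hi)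
    (hij : i + 2 ≤ j) (hFl : Fl ⊆ F) (hFh : Fh ⊆ F)
    (hl : ∀ f ∈ Fl, f x = i) (hh : ∀ f ∈ Fh, f x = j) :
    (shattered Fl (D.erase x) (Finset.Icc lo hi)).card
      + (shattered Fh (D.erase x) (Finset.Icc lo hi)).card
      ≤ (shattered F D (Finset.Icc lo hi)).card := by
  classical
  set V := Finset.Icc lo hi with hV
  set A := shattered Fl (D.erase x) V with hA
  set B := shattered Fh (D.erase x) V with hB
  set v : ℤ := (i + j) / 2 with hv
  have hv1 : i + 1 ≤ v := by omega
  have hv2 : v + 1 ≤ j := by omega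
  have hvV : v ∈ V := by
    rw [hV, Finset.mem_Icc] at *
    constructor <;> omega
  -- elements of `A ∪ B` avoid the first coordinate `x`
  have havoid : ∀ G ∈ A ∪ B, ∀ g ∈ G, g.1 ≠ x := by
    intro G hG g hg
    have hsub : G ⊆ (D.erase x) ×ˢ V := by
      rcases Finset.mem_union.mp hG with h | h
      · exact (mem_shattered.mp h).1
      · exact (mem_shattered.mp h).1
    have := hsub hg
    rw [Finset.mem_product, Finset.mem_erase] at this
    exact this.1.1
  have hsubD : (D.erase x) ×ˢ V ⊆ D ×ˢ V :=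
    Finset.product_subset_product (Finset.erase_subset _ _) (Finset.Subset.refl _)
  have hU : A ∪ B ⊆ shattered F D V := by
    intro G hG
    rcases Finset.mem_union.mp hG with h | h
    · have h' := mem_shattered.mp h
      exact mem_shattered.mpr ⟨h'.1.trans hsubD, h'.2.mono hFl⟩
    · have h' := mem_shattered.mp h
      exact mem_shattered.mpr ⟨h'.1.trans hsubD, h'.2.mono hFh⟩
  let ins : Finset (ι × ℤ) → Finset (ι × ℤ) := fun G => insert (x, v) G
  have hI : (A ∩ B).image ins ⊆ shattered F D V := by
    intro G' hG'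
    obtain ⟨G, hG, rfl⟩ := Finset.mem_image.mp hG'
    obtain ⟨hGA, hGB⟩ := Finset.mem_inter.mp hG
    have hGA' := mem_shattered.mp hGA
    have hGB' := mem_shattered.mp hGB
    have hnot : (x, v) ∉ G := by
      intro hc
      exact havoid G (Finset.mem_union_left _ hGA) _ hc rfl
    refine mem_shattered.mpr ⟨?_, ?_⟩
    · intro g hg
      rcases Finset.mem_insert.mp hg with rfl | hg
      · exact Finset.mem_product.mpr ⟨hx, hvV⟩
      · exact hsubD (hGA'.1 hg)
    · intro E hE
      by_cases hxE : (x, v) ∈ E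
      · -- use a member of `Fh`
        have hE' : E.erase (x, v) ⊆ G := by
          intro g hg
          obtain ⟨hg1, hg2⟩ := Finset.mem_erase.mp hg
          rcases Finset.mem_insert.mp (hE hg2) with h | h
          · exact absurd h hg1
          · exact h
        obtain ⟨f, hf, h1, h2⟩ := hGB'.2 _ hE'
        refine ⟨f, hFh hf, ?_, ?_⟩
        · intro g hg
          by_cases hgx : g = (x, v)
          · subst hgx
            simp only [hh f hf]
            exact hv2
          · exact h1 g (Finset.mem_erase.mpr ⟨hgx, hg⟩)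
        · intro g hg
          obtain ⟨hg1, hg2⟩ := Finset.mem_sdiff.mp hg
          have hgx : g ≠ (x, v) := by
            rintro rfl
            exact hg2 hxE
          rcases Finset.mem_insert.mp hg1 with h | h
          · exact absurd h hgx
          · apply h2
            refine Finset.mem_sdiff.mpr ⟨h, ?_⟩
            intro hc
            exact hg2 (Finset.mem_of_mem_erase hc)
      · -- use a member of `Fl`
        have hE' : E ⊆ G := by
          intro g hg
          rcases Finset.mem_insert.mp (hE hg) with h | h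
          · subst h
            exact absurd hg hxE
          · exact h
        obtain ⟨f, hf, h1, h2⟩ := hGA'.2 _ hE'
        refine ⟨f, hFl hf, h1, ?_⟩
        intro g hg
        obtain ⟨hg1, hg2⟩ := Finset.mem_sdiff.mp hg
        rcases Finset.mem_insert.mp hg1 with h | h
        · subst h
          simp only [hl f hf]
          exact hv1
        · exact h2 g (Finset.mem_sdiff.mpr ⟨h, hg2⟩)
  have hdisj : Disjoint (A ∪ B) ((A ∩ B).image ins) := by
    rw [Finset.disjoint_left]
    intro G hG hG'
    obtain ⟨G0, _, rfl⟩ := Finset.mem_image.mp hG'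
    exact havoid _ hG (x, v) (Finset.mem_insert_self _ _) rfl
  have hinj : Set.InjOn ins (A ∩ B : Finset (Finset (ι × ℤ))) := by
    intro G₁ h₁ G₂ h₂ heq
    have h₁' := (Finset.mem_inter.mp (Finset.mem_coe.mp h₁)).1
    have h₂' := (Finset.mem_inter.mp (Finset.mem_coe.mp h₂)).1
    have n₁ : (x, v) ∉ G₁ := fun hc =>
      havoid G₁ (Finset.mem_union_left _ h₁') _ hc rfl
    have n₂ : (x, v) ∉ G₂ := fun hc =>
      havoid G₂ (Finset.mem_union_left _ h₂') _ hc rfl
    have := congrArg (fun S => Finset.erase S (x, v)) heq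
    simpa [ins, Finset.erase_insert n₁, Finset.erase_insert n₂] using this
  have hcard : ((A ∪ B) ∪ (A ∩ B).image ins).card = (A ∪ B).card + (A ∩ B).card := by
    rw [Finset.card_union_of_disjoint hdisj, Finset.card_image_of_injOn hinj]
  have hle : ((A ∪ B) ∪ (A ∩ B).image ins).card ≤ (shattered F D V).card :=
    Finset.card_le_card (Finset.union_subset hU hI)
  have := Finset.card_union_add_card_inter A B
  omega

/-- Two distinct 2-separated functions already shatter two graphs. -/
lemma two_le_card_shattered {F : Finset (ι → ℤ)} {D : Finset ι} {lo hi : ℤ}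
    (hval : ∀ f ∈ F, ∀ x ∈ D, f x ∈ Finset.Icc lo hi) (hsep : Sep2 F D)
    (hF : 2 ≤ F.card) : 2 ≤ (shattered F D (Finset.Icc lo hi)).card := by
  classical
  obtain ⟨f, hf, g, hg, hfg⟩ := Finset.one_lt_card.mp hF
  obtain ⟨x, hx, hxs⟩ := hsep f hf g hg hfg
  rcases le_abs'.mp hxs with h | h
  · -- `f x + 2 ≤ g x`
    have := card_add_card_le_card_shattered (F := F) (Fl := {f}) (Fh := {g}) (D := D)
      (lo := lo) (hi := hi) (x := x) (i := f x) (j := g x) hx (hval f hf x hx) (hval g hg x hx)
      (by omega) (by simpa using hf) (by simpa using hg) (by simp) (by simp)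
    have h1 := one_le_card_shattered (F := ({f} : Finset (ι → ℤ))) (by simp) (D.erase x)
      (Finset.Icc lo hi)
    have h2 := one_le_card_shattered (F := ({g} : Finset (ι → ℤ))) (by simp) (D.erase x)
      (Finset.Icc lo hi)
    omega
  · have := card_add_card_le_card_shattered (F := F) (Fl := {g}) (Fh := {f}) (D := D)
      (lo := lo) (hi := hi) (x := x) (i := g x) (j := f x) hx (hval g hg x hx) (hval f hf x hx)
      (by omega) (by simpa using hg) (by simpa using hf) (by simp) (by simp)
    have h1 := one_le_card_shattered (F := ({g} : Finset (ι → ℤ))) (by simp) (D.erase x)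
      (Finset.Icc lo hi)
    have h2 := one_le_card_shattered (F := ({f} : Finset (ι → ℤ))) (by simp) (D.erase x)
      (Finset.Icc lo hi)
    omega

/-- Restricting to functions with a common value at `x` keeps separation on `D.erase x`. -/
lemma Sep2.erase {F : Finset (ι → ℤ)} {D : Finset ι} (h : Sep2 F D) {x : ι} {F' : Finset (ι → ℤ)}
    {i : ℤ} (hsub : F' ⊆ F) (hval : ∀ f ∈ F', f x = i) : Sep2 F' (D.erase x) := by
  intro f hf g hg hfg
  obtain ⟨y, hy, hsep⟩ := h f (hsub hf) g (hsub hg) hfg
  refine ⟨y, Finset.mem_erase.mpr ⟨?_, hy⟩, hsep⟩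
  rintro rfl
  rw [hval f hf, hval g hg] at hsep
  simp at hsep

/-- The recursion: a 2-separated family of size at least `2 * q ^ r` shatters at least `2 ^ (r+1)`
graphs, where `q = n * b ^ 2 + 1`, `n` bounds the domain and `b` the number of values. -/
theorem pow_le_card_shattered (lo hi : ℤ) (n : ℕ) (r : ℕ) :
    ∀ (F : Finset (ι → ℤ)) (D : Finset ι), D.card ≤ n →
      (∀ f ∈ F, ∀ x ∈ D, f x ∈ Finset.Icc lo hi) → Sep2 F D →
      2 * (n * (Finset.Icc lo hi).card ^ 2 + 1) ^ r ≤ F.card →
      2 ^ (r + 1) ≤ (shattered F D (Finset.Icc lo hi)).card := by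
  classical
  induction r with
  | zero =>
    intro F D _ hval hsep hF
    simpa using two_le_card_shattered hval hsep (by simpa using hF)
  | succ r ih =>
    intro F D hD hval hsep hF
    set V := Finset.Icc lo hi with hV
    set w : ℕ := n * V.card ^ 2 with hw
    set h : ℕ := 2 * (w + 1) ^ r with hh
    have hpos : 2 ≤ h := by
      rw [hh]
      have : 0 < (w + 1) ^ r := by positivity
      omega
    have hFbig : h * (w + 1) ≤ F.card := by
      calc h * (w + 1) = 2 * (w + 1) ^ (r + 1) := by rw [hh, pow_succ]; ring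
        _ ≤ F.card := hF
    have hF2 : 2 ≤ F.card := by
      calc 2 ≤ h := hpos
        _ = h * 1 := (Nat.mul_one h).symm
        _ ≤ h * (w + 1) := Nat.mul_le_mul_left _ (by omega)
        _ ≤ F.card := hFbig
    have : Nonempty ι := by
      obtain ⟨f, hf, g, hg, hfg⟩ := Finset.one_lt_card.mp hF2
      obtain ⟨x, _, _⟩ := hsep f hf g hg hfg
      exact ⟨x⟩
    -- choose separating coordinates
    have hsep' : ∀ p ∈ F.offDiag, ∃ x ∈ D, 2 ≤ |p.1 x - p.2 x| := by
      intro p hp
      obtain ⟨h1, h2, h3⟩ := Finset.mem_offDiag.mp hp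
      exact hsep p.1 h1 p.2 h2 h3
    choose! c hc1 hc2 using hsep'
    let lab : (ι → ℤ) × (ι → ℤ) → ι × ℤ × ℤ := fun p => (c p, p.1 (c p), p.2 (c p))
    let T : Finset (ι × ℤ × ℤ) := D ×ˢ (V ×ˢ V)
    have hmaps : ∀ p ∈ F.offDiag, lab p ∈ T := by
      intro p hp
      obtain ⟨h1, h2, _⟩ := Finset.mem_offDiag.mp hp
      simp only [lab, T, Finset.mem_product]
      exact ⟨hc1 p hp, hval _ h1 _ (hc1 p hp), hval _ h2 _ (hc1 p hp)⟩
    have hTne : T.Nonempty := by
      obtain ⟨p, hp⟩ : F.offDiag.Nonempty := by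
        obtain ⟨f, hf, g, hg, hfg⟩ := Finset.one_lt_card.mp hF2
        exact ⟨(f, g), Finset.mem_offDiag.mpr ⟨hf, hg, hfg⟩⟩
      exact ⟨_, hmaps p hp⟩
    have hTcard : T.card ≤ w := by
      simp only [T, Finset.card_product, hw]
      calc D.card * (V.card * V.card) ≤ n * (V.card * V.card) := Nat.mul_le_mul_right _ hD
        _ = n * V.card ^ 2 := by ring
    have hoff : F.offDiag.card = F.card * F.card - F.card := Finset.offDiag_card F
    have hcount : T.card * (h * F.card) ≤ F.offDiag.card := by
      rw [hoff]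
      have h1 : w * h + 1 ≤ F.card := by
        have : w * h + 1 ≤ h * (w + 1) := by
          have : h * (w + 1) = w * h + h := by ring
          omega
        omega
      have h2 : T.card * (h * F.card) + F.card ≤ F.card * F.card := by
        calc T.card * (h * F.card) + F.card ≤ w * (h * F.card) + F.card := by
              apply Nat.add_le_add_right
              exact Nat.mul_le_mul_right _ hTcard
          _ = (w * h + 1) * F.card := by ring
          _ ≤ F.card * F.card := Nat.mul_le_mul_right _ h1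
      omega
    obtain ⟨⟨x, i, j⟩, hlab, hfib⟩ :=
      Finset.exists_le_card_fiber_of_mul_le_card_of_maps_to hmaps hTne hcount
    let F1 : Finset (ι → ℤ) := F.filter (fun f => f x = i)
    let F2 : Finset (ι → ℤ) := F.filter (fun f => f x = j)
    have hfibsub : F.offDiag.filter (fun p => lab p = (x, i, j)) ⊆ F1 ×ˢ F2 := by
      intro p hp
      obtain ⟨hp1, hp2⟩ := Finset.mem_filter.mp hp
      obtain ⟨h1, h2, _⟩ := Finset.mem_offDiag.mp hp1
      simp only [lab, Prod.mk.injEq] at hp2
      obtain ⟨hpx, hpi, hpj⟩ := hp2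
      simp only [F1, F2, Finset.mem_product, Finset.mem_filter]
      exact ⟨⟨h1, by rw [← hpx]; exact hpi⟩, ⟨h2, by rw [← hpx]; exact hpj⟩⟩
    have hprod : h * F.card ≤ F1.card * F2.card := by
      calc h * F.card ≤ _ := hfib
        _ ≤ (F1 ×ˢ F2).card := Finset.card_le_card hfibsub
        _ = F1.card * F2.card := Finset.card_product _ _
    have hF1le : F1.card ≤ F.card := Finset.card_filter_le _ _
    have hF2le : F2.card ≤ F.card := Finset.card_filter_le _ _
    have hFpos : 0 < F.card := by omega
    have hF1big : h ≤ F1.card := by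
      by_contra hc
      push Not at hc
      have : F1.card * F2.card < h * F.card := by
        calc F1.card * F2.card ≤ F1.card * F.card := Nat.mul_le_mul_left _ hF2le
          _ < h * F.card := Nat.mul_lt_mul_of_pos_right hc hFpos
      omega
    have hF2big : h ≤ F2.card := by
      by_contra hc
      push Not at hc
      have : F1.card * F2.card < h * F.card := by
        calc F1.card * F2.card ≤ F.card * F2.card := Nat.mul_le_mul_right _ hF1le
          _ < F.card * h := Nat.mul_lt_mul_of_pos_left hc hFpos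
          _ = h * F.card := Nat.mul_comm _ _
      omega
    -- the separating label has `i`, `j` at distance at least two
    have hij : 2 ≤ |i - j| := by
      have hF1ne : 0 < (F.offDiag.filter (fun p => lab p = (x, i, j))).card := by
        have : 0 < h * F.card := by positivity
        omega
      obtain ⟨p, hp⟩ := Finset.card_pos.mp hF1ne
      obtain ⟨hp1, hp2⟩ := Finset.mem_filter.mp hp
      have hs := hc2 p hp1
      simp only [lab, Prod.mk.injEq] at hp2
      obtain ⟨hpx, hpi, hpj⟩ := hp2
      rw [hpi, hpj] at hs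
      exact hs
    have hx : x ∈ D := (Finset.mem_product.mp hlab).1
    have hiV : i ∈ V := (Finset.mem_product.mp (Finset.mem_product.mp hlab).2).1
    have hjV : j ∈ V := (Finset.mem_product.mp (Finset.mem_product.mp hlab).2).2
    have hF1sub : F1 ⊆ F := Finset.filter_subset _ _
    have hF2sub : F2 ⊆ F := Finset.filter_subset _ _
    have hF1val : ∀ f ∈ F1, f x = i := fun f hf => (Finset.mem_filter.mp hf).2
    have hF2val : ∀ f ∈ F2, f x = j := fun f hf => (Finset.mem_filter.mp hf).2
    have hDe : (D.erase x).card ≤ n := (Finset.card_erase_le).trans hD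
    have ih1 := ih F1 (D.erase x) hDe
      (fun f hf y hy => hval f (hF1sub hf) y (Finset.mem_of_mem_erase hy))
      (hsep.erase hF1sub hF1val) hF1big
    have ih2 := ih F2 (D.erase x) hDe
      (fun f hf y hy => hval f (hF2sub hf) y (Finset.mem_of_mem_erase hy))
      (hsep.erase hF2sub hF2val) hF2big
    have hpow : 2 ^ (r + 1 + 1) = 2 ^ (r + 1) + 2 ^ (r + 1) := by ring
    rw [hpow]
    rcases le_abs'.mp hij with h' | h'
    · have := card_add_card_le_card_shattered (F := F) (Fl := F1) (Fh := F2) (D := D) (lo := lo)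
        (hi := hi) (x := x) (i := i) (j := j) hx hiV hjV (by omega) hF1sub hF2sub hF1val hF2val
      rw [← hV] at this
      omega
    · have := card_add_card_le_card_shattered (F := F) (Fl := F2) (Fh := F1) (D := D) (lo := lo)
        (hi := hi) (x := x) (i := j) (j := i) hx hjV hiV (by omega) hF2sub hF1sub hF2val hF1val
      rw [← hV] at this
      omega

/-- The number of subsets of size at most `d` of a finset `U` is at most `(|U| + 1) ^ d`. -/
lemma card_filter_card_le_le {α : Type*} [DecidableEq α] (U : Finset α) (d : ℕ) :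
    ((U.powerset).filter (fun G => G.card ≤ d)).card ≤ (U.card + 1) ^ d := by
  induction d with
  | zero =>
    have : (U.powerset).filter (fun G => G.card ≤ 0) ⊆ {∅} := by
      intro G hG
      have := (Finset.mem_filter.mp hG).2
      simp only [Nat.le_zero, Finset.card_eq_zero] at this
      simp [this]
    simpa using Finset.card_le_card this
  | succ d ih =>
    have hsub : (U.powerset).filter (fun G => G.card ≤ d + 1) ⊆
        Finset.image₂ (fun (o : Option α) (G : Finset α) =>
          match o with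
          | none => G
          | some e => insert e G)
          (U.insertNone) ((U.powerset).filter (fun G => G.card ≤ d)) := by
      intro G hG
      obtain ⟨hG1, hG2⟩ := Finset.mem_filter.mp hG
      have hGU := Finset.mem_powerset.mp hG1
      rcases G.eq_empty_or_nonempty with rfl | ⟨e, he⟩
      · refine Finset.mem_image₂.mpr ⟨none, by simp, ∅, by simp, rfl⟩
      · refine Finset.mem_image₂.mpr ⟨some e, ?_, G.erase e, ?_, ?_⟩
        · simpa using hGU he
        · refine Finset.mem_filter.mpr ⟨Finset.mem_powerset.mpr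
            ((Finset.erase_subset _ _).trans hGU), ?_⟩
          rw [Finset.card_erase_of_mem he]
          omega
        · exact Finset.insert_erase he
    calc _ ≤ _ := Finset.card_le_card hsub
      _ ≤ (U.insertNone).card * ((U.powerset).filter (fun G => G.card ≤ d)).card :=
        Finset.card_image₂_le _ _ _
      _ ≤ (U.card + 1) * (U.card + 1) ^ d := by
        rw [Finset.card_insertNone]
        exact Nat.mul_le_mul_left _ ih
      _ = (U.card + 1) ^ (d + 1) := by ring

/-- Main combinatorial bound (Alon, Ben-David, Cesa-Bianchi, Haussler type).  A pairwise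
2-separated family on a domain of size at most `n`, with values in `[lo, hi]`, and shattering only
graphs with at most `d` elements, is smaller than `2 * q ^ (ℓ * d)` if
`n * b + 1 ≤ 2 ^ ℓ`, with `b = hi - lo + 1` the number of values and `q = n * b ^ 2 + 1`. -/
theorem card_lt_of_shattered_le {lo hi : ℤ} {n d ℓ : ℕ} {F : Finset (ι → ℤ)} {D : Finset ι}
    (hD : D.card ≤ n) (hval : ∀ f ∈ F, ∀ x ∈ D, f x ∈ Finset.Icc lo hi) (hsep : Sep2 F D)
    (hd : ∀ G ∈ shattered F D (Finset.Icc lo hi), G.card ≤ d)
    (hℓ : n * (Finset.Icc lo hi).card + 1 ≤ 2 ^ ℓ) :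
    F.card < 2 * (n * (Finset.Icc lo hi).card ^ 2 + 1) ^ (ℓ * d) := by
  classical
  by_contra hc
  push Not at hc
  have h1 := pow_le_card_shattered lo hi n (ℓ * d) F D hD hval hsep hc
  set V := Finset.Icc lo hi with hV
  have hsub : shattered F D V ⊆ ((D ×ˢ V).powerset).filter (fun G => G.card ≤ d) := by
    intro G hG
    exact Finset.mem_filter.mpr ⟨Finset.mem_powerset.mpr (mem_shattered.mp hG).1, hd G hG⟩
  have h2 : (shattered F D V).card ≤ ((D ×ˢ V).card + 1) ^ d :=
    (Finset.card_le_card hsub).trans (card_filter_card_le_le _ _)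
  have h3 : (D ×ˢ V).card + 1 ≤ 2 ^ ℓ := by
    rw [Finset.card_product]
    calc D.card * V.card + 1 ≤ n * V.card + 1 := by
          apply Nat.add_le_add_right
          exact Nat.mul_le_mul_right _ hD
      _ ≤ 2 ^ ℓ := hℓ
  have h4 : ((D ×ˢ V).card + 1) ^ d ≤ 2 ^ (ℓ * d) := by
    rw [pow_mul]
    exact Nat.pow_le_pow_left h3 d
  have h5 : 2 ^ (ℓ * d + 1) = 2 * 2 ^ (ℓ * d) := by ring
  have h6 : 0 < 2 ^ (ℓ * d) := by positivity
  omega

/-- Hamming count: if a map on the subsets of `G` to a set of size at most `m` only identifies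
subsets whose symmetric difference has at most a quarter of the size of `G`, then
`27 ^ |G| ≤ m ^ 4 * 16 ^ |G|`. -/
theorem hamming_bound {α β : Type*} [DecidableEq α] [DecidableEq β] (G : Finset α) (C : Finset β)
    (cl : Finset α → β) (hcl : ∀ T ⊆ G, cl T ∈ C)
    (hH : ∀ T ⊆ G, ∀ T' ⊆ G, cl T = cl T' → 4 * (symmDiff T T').card ≤ G.card) :
    27 ^ G.card ≤ C.card ^ 4 * 16 ^ G.card := by
  classical
  set d := G.card with hd
  have hmaps : ∀ T ∈ G.powerset, cl T ∈ C := fun T hT => hcl T (Finset.mem_powerset.mp hT)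
  have hCne : C.Nonempty := ⟨_, hcl ∅ (by simp)⟩
  -- largest fibre
  obtain ⟨c, hc, hfib⟩ : ∃ c ∈ C, 2 ^ d ≤ C.card * ((G.powerset).filter (fun T => cl T = c)).card := by
    by_contra hcon
    push Not at hcon
    have hsum : (G.powerset).card = ∑ c ∈ C, ((G.powerset).filter (fun T => cl T = c)).card :=
      Finset.card_eq_sum_card_fiberwise hmaps
    rw [Finset.card_powerset, ← hd] at hsum
    have hle : ∀ c ∈ C, C.card * ((G.powerset).filter (fun T => cl T = c)).card < 2 ^ d := hcon
    have : C.card * ∑ c ∈ C, ((G.powerset).filter (fun T => cl T = c)).card < C.card * 2 ^ d := by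
      rw [Finset.mul_sum]
      calc ∑ c ∈ C, C.card * ((G.powerset).filter (fun T => cl T = c)).card
          < ∑ _c ∈ C, 2 ^ d := Finset.sum_lt_sum_of_nonempty hCne hle
        _ = C.card * 2 ^ d := by simp
    rw [← hsum] at this
    exact lt_irrefl _ this
  have hfne : ((G.powerset).filter (fun T => cl T = c)).Nonempty := by
    rw [← Finset.card_pos]
    by_contra h0
    have h0' : ((G.powerset).filter (fun T => cl T = c)).card = 0 := by omega
    rw [h0'] at hfib
    have : 0 < 2 ^ d := by positivity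
    omega
  obtain ⟨T₀, hT₀⟩ := hfne
  obtain ⟨hT₀1, hT₀2⟩ := Finset.mem_filter.mp hT₀
  have hT₀G := Finset.mem_powerset.mp hT₀1
  -- the Hamming ball
  set r := d / 4 with hr
  let H : Finset (Finset α) := (G.powerset).filter (fun S => S.card ≤ r)
  have hfibH : ((G.powerset).filter (fun T => cl T = c)).card ≤ H.card := by
    apply Finset.card_le_card_of_injOn (fun T => symmDiff T T₀)
    · intro T hT
      have hT' := Finset.mem_filter.mp (Finset.mem_coe.mp hT)
      have hTG := Finset.mem_powerset.mp hT'.1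
      refine Finset.mem_coe.mpr (Finset.mem_filter.mpr ⟨Finset.mem_powerset.mpr ?_, ?_⟩)
      · intro e he
        rcases Finset.mem_symmDiff.mp he with h | h
        · exact hTG h.1
        · exact hT₀G h.1
      · have := hH T hTG T₀ hT₀G (hT'.2.trans hT₀2.symm)
        show (symmDiff T T₀).card ≤ r
        omega
    · intro T₁ _ T₂ _ heq
      exact symmDiff_left_injective T₀ heq
  have hsum : H.card * 3 ^ (d - r) ≤ 4 ^ d := by
    have h4 : ∑ S ∈ G.powerset, (1 : ℕ) ^ S.card * 3 ^ (d - S.card) = (1 + 3) ^ d := by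
      rw [hd]
      exact Finset.sum_pow_mul_eq_add_pow 1 3 G
    calc H.card * 3 ^ (d - r) = ∑ _S ∈ H, 3 ^ (d - r) := by simp
      _ ≤ ∑ S ∈ H, (1 : ℕ) ^ S.card * 3 ^ (d - S.card) := by
        apply Finset.sum_le_sum
        intro S hS
        have hS' := (Finset.mem_filter.mp hS).2
        rw [one_pow, one_mul]
        apply Nat.pow_le_pow_right (by norm_num)
        omega
      _ ≤ ∑ S ∈ G.powerset, (1 : ℕ) ^ S.card * 3 ^ (d - S.card) :=
        Finset.sum_le_sum_of_subset (Finset.filter_subset _ _)
      _ = 4 ^ d := by rw [h4]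
  have h4r : 3 * d ≤ 4 * (d - r) := by omega
  have h27 : 27 ^ d ≤ (3 ^ (d - r)) ^ 4 := by
    calc 27 ^ d = 3 ^ (3 * d) := by rw [pow_mul]; norm_num
      _ ≤ 3 ^ (4 * (d - r)) := Nat.pow_le_pow_right (by norm_num) h4r
      _ = (3 ^ (d - r)) ^ 4 := by rw [← pow_mul, Nat.mul_comm]
  have h2d : 2 ^ d ≤ C.card * H.card := hfib.trans (Nat.mul_le_mul_left _ hfibH)
  have h16 : 16 ^ d ≤ C.card ^ 4 * H.card ^ 4 := by
    calc 16 ^ d = (2 ^ d) ^ 4 := by rw [← pow_mul, Nat.mul_comm, pow_mul]; norm_num
      _ ≤ (C.card * H.card) ^ 4 := Nat.pow_le_pow_left h2d 4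
      _ = C.card ^ 4 * H.card ^ 4 := by ring
  have h256 : H.card ^ 4 * 27 ^ d ≤ 256 ^ d := by
    calc H.card ^ 4 * 27 ^ d ≤ H.card ^ 4 * (3 ^ (d - r)) ^ 4 := Nat.mul_le_mul_left _ h27
      _ = (H.card * 3 ^ (d - r)) ^ 4 := by ring
      _ ≤ (4 ^ d) ^ 4 := Nat.pow_le_pow_left hsum 4
      _ = 256 ^ d := by rw [← pow_mul, Nat.mul_comm, pow_mul]; norm_num
  have h1616 : (256 : ℕ) ^ d = 16 ^ d * 16 ^ d := by
    rw [← mul_pow]; norm_num
  have hfinal : 16 ^ d * 27 ^ d ≤ 16 ^ d * (C.card ^ 4 * 16 ^ d) := by
    calc 16 ^ d * 27 ^ d ≤ (C.card ^ 4 * H.card ^ 4) * 27 ^ d := Nat.mul_le_mul_right _ h16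
      _ = C.card ^ 4 * (H.card ^ 4 * 27 ^ d) := by ring
      _ ≤ C.card ^ 4 * 256 ^ d := Nat.mul_le_mul_left _ h256
      _ = 16 ^ d * (C.card ^ 4 * 16 ^ d) := by rw [h1616]; ring
  exact Nat.le_of_mul_le_mul_left hfinal (by positivity)

end Vale.Agent.P126
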