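import Vale.Agent.P126.Polar
import Vale.Agent.P126.Shatter

/-! The core bound: a family separated by `L` inside `K` is small in terms of a cover of the
polar of `L` by translates of `(1/32) K°`. -/

namespace Vale.Agent.P126

open scoped Pointwise
open Metric
open Classical

set_option linter.unusedSectionVars false

variable {E : Type*} [NormedAddCommGroup E] [InnerProductSpace ℝ E] [FiniteDimensional ℝ E]

/-- Points in a translate of `(1/32) K°` are close to its centre, as functionals on `K`. -/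
lemma abs_inner_sub_le {K : Set E} (hK : IsSymBody K) {c y x : E}
    (hy : y ∈ c +ᵥ ((32:ℝ)⁻¹ • polarBody K)) (hx : x ∈ K) :
    |inner ℝ x (y - c)| ≤ (1:ℝ) / 32 := by
  obtain ⟨u', hu', rfl⟩ := Set.mem_vadd_set.mp hy
  obtain ⟨u, hu, rfl⟩ := Set.mem_smul_set.mp hu'
  have h := abs_inner_le_one hK hx hu
  have : (c +ᵥ (32:ℝ)⁻¹ • u) - c = (32:ℝ)⁻¹ • u := by simp
  rw [this, inner_smul_right, abs_mul]
  have h32 : |(32:ℝ)⁻¹| = 1 / 32 := by norm_num
  rw [h32]
  linarith

/-- Data extracted from a cover: a clustering map and representatives. -/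
structure ClusterData (K L : Set E) (t : Finset E) (cl : E → E) (rep : E → E) : Prop where
  cl_mem : ∀ y ∈ polarBody L, cl y ∈ t
  rep_mem : ∀ c, rep c ∈ polarBody L
  near : ∀ y ∈ polarBody L, ∀ x ∈ K, |inner ℝ x (y - rep (cl y))| ≤ (1:ℝ) / 16
  same : ∀ y ∈ polarBody L, ∀ y' ∈ polarBody L, cl y = cl y' → ∀ x ∈ K,
    |inner ℝ x (y - y')| ≤ (1:ℝ) / 16

lemma exists_clusterData {K L : Set E} (hK : IsSymBody K) {t : Finset E}
    (ht : polarBody L ⊆ ⋃ c ∈ t, c +ᵥ ((32:ℝ)⁻¹ • polarBody K)) :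
    ∃ cl rep, ClusterData K L t cl rep := by
  classical
  have h1 : ∀ y, ∃ c, y ∈ polarBody L → c ∈ t ∧ y ∈ c +ᵥ ((32:ℝ)⁻¹ • polarBody K) := by
    intro y
    by_cases hy : y ∈ polarBody L
    · have := ht hy
      simp only [Set.mem_iUnion, exists_prop] at this
      obtain ⟨c, hc, hyc⟩ := this
      exact ⟨c, fun _ => ⟨hc, hyc⟩⟩
    · exact ⟨0, fun h => absurd h hy⟩
  choose cl hcl using h1
  have h2 : ∀ c : E, ∃ r, r ∈ polarBody L ∧
      ((∃ y, y ∈ polarBody L ∧ y ∈ c +ᵥ ((32:ℝ)⁻¹ • polarBody K)) →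
        r ∈ c +ᵥ ((32:ℝ)⁻¹ • polarBody K)) := by
    intro c
    by_cases hc : ∃ y, y ∈ polarBody L ∧ y ∈ c +ᵥ ((32:ℝ)⁻¹ • polarBody K)
    · obtain ⟨y, hy, hyc⟩ := hc
      exact ⟨y, hy, fun _ => hyc⟩
    · exact ⟨0, zero_mem_polarBody L, fun h => absurd h hc⟩
  choose rep hrep1 hrep2 using h2
  have same' : ∀ (c y y' x : E), y ∈ c +ᵥ ((32:ℝ)⁻¹ • polarBody K) →
      y' ∈ c +ᵥ ((32:ℝ)⁻¹ • polarBody K) → x ∈ K → |inner ℝ x (y - y')| ≤ (1:ℝ) / 16 := by
    intro c y y' x hy hy' hx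
    have h1 := abs_inner_sub_le hK hy hx
    have h2 := abs_inner_sub_le hK hy' hx
    have : inner ℝ x (y - y') = inner ℝ x (y - c) - inner ℝ x (y' - c) := by
      rw [← inner_sub_right]
      congr 1
      abel
    rw [this]
    rw [abs_le] at h1 h2 ⊢
    constructor <;> linarith [h1.1, h1.2, h2.1, h2.2]
  refine ⟨cl, rep, ⟨?_, ?_, ?_, ?_⟩⟩
  · exact fun y hy => (hcl y hy).1
  · exact hrep1
  · intro y hy x hx
    have h3 := (hcl y hy).2
    exact same' (cl y) y _ x h3 (hrep2 (cl y) ⟨y, hy, h3⟩) hx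
  · intro y hy y' hy' heq x hx
    have h3 := (hcl y hy).2
    have h4 := (hcl y' hy').2
    rw [← heq] at h4
    exact same' (cl y) y y' x h3 h4 hx

/-- A scalar multiple by a number in `[-1, 1]` stays in a convex symmetric set containing `0`. -/
lemma polar_smul_mem {K : Set E} (hK : IsSymBody K) {y : E} (hy : y ∈ polarBody K) {s : ℝ}
    (hs : |s| ≤ 1) : s • y ∈ polarBody K := by
  intro x hx
  rw [inner_smul_right]
  have := abs_inner_le_one hK hx hy
  calc s * inner ℝ x y ≤ |s * inner ℝ x y| := le_abs_self _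
    _ = |s| * |inner ℝ x y| := abs_mul _ _
    _ ≤ 1 * 1 := mul_le_mul hs this (abs_nonneg _) (by norm_num)
    _ = 1 := by norm_num

/-- The range bound: `|⟪x, y⟫| ≤ m / 32`, obtained by pigeonholing on a segment in `L°`. -/
lemma abs_inner_le_card {K L : Set E} {t : Finset E} {cl rep : E → E}
    (hL : IsSymBody L) (hd : ClusterData K L t cl rep) {x y : E} (hx : x ∈ K)
    (hy : y ∈ polarBody L) : |inner ℝ x y| ≤ (t.card : ℝ) / 32 := by
  classical
  have hm : 0 < t.card := Finset.card_pos.mpr ⟨_, hd.cl_mem 0 (zero_mem_polarBody L)⟩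
  have hm' : (0:ℝ) < t.card := by exact_mod_cast hm
  let s : ℕ → ℝ := fun i => 2 * (i : ℝ) / t.card - 1
  have hs : ∀ i ∈ Finset.range (t.card + 1), |s i| ≤ 1 := by
    intro i hi
    have hi' : (i : ℝ) ≤ t.card := by
      have := Nat.lt_succ_iff.mp (Finset.mem_range.mp hi)
      exact_mod_cast this
    have h0 : (0:ℝ) ≤ i := Nat.cast_nonneg i
    have h1 : 2 * (i:ℝ) / t.card ≤ 2 := by
      rw [div_le_iff₀ hm']
      linarith
    have h2 : 0 ≤ 2 * (i:ℝ) / t.card := by positivity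
    simp only [s]
    rw [abs_le]
    constructor <;> linarith
  have hmem : ∀ i ∈ Finset.range (t.card + 1), s i • y ∈ polarBody L :=
    fun i hi => polar_smul_mem hL hy (hs i hi)
  have hmaps : ∀ i ∈ Finset.range (t.card + 1), cl (s i • y) ∈ t :=
    fun i hi => hd.cl_mem _ (hmem i hi)
  obtain ⟨i, hi, j, hj, hij, heq⟩ :=
    Finset.exists_ne_map_eq_of_card_lt_of_maps_to (by simp) hmaps
  have hclose := hd.same _ (hmem i hi) _ (hmem j hj) heq x hx
  have hsub : s i • y - s j • y = (s i - s j) • y := (sub_smul _ _ _).symm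
  rw [hsub, inner_smul_right, abs_mul] at hclose
  have hdiff : s i - s j = 2 * ((i : ℝ) - j) / t.card := by
    simp only [s]
    field_simp
    ring
  have hij1 : (1:ℝ) ≤ |(i:ℝ) - j| := by
    have : (1:ℤ) ≤ |(i:ℤ) - j| := by
      apply Int.one_le_abs
      omega
    exact_mod_cast this
  have habs : |s i - s j| = 2 * |(i:ℝ) - j| / t.card := by
    rw [hdiff, abs_div, abs_mul, abs_of_pos (by norm_num : (0:ℝ) < 2), abs_of_pos hm']
  rw [habs] at hclose
  have hn : 0 ≤ |inner ℝ x y| := abs_nonneg _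
  have h3 : 2 / (t.card : ℝ) * |inner ℝ x y| ≤ (1:ℝ) / 16 := by
    refine le_trans ?_ hclose
    apply mul_le_mul_of_nonneg_right _ hn
    apply div_le_div_of_nonneg_right _ hm'.le
    linarith
  have h4 : 2 / (t.card : ℝ) * |inner ℝ x y| = 2 * |inner ℝ x y| / t.card := by ring
  rw [h4, div_le_iff₀ hm'] at h3
  linarith

/-- The discretisation of a point: the integer parts of `4 ⟪p, rep c⟫`. -/
noncomputable def disc (rep : E → E) (p : E) : E → ℤ := fun c => ⌊4 * inner ℝ p (rep c)⌋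

lemma disc_sep {K L : Set E} {t : Finset E} {cl rep : E → E} (hL : IsSymBody L)
    (hd : ClusterData K L t cl rep) {p p' : E} (hp : p ∈ K) (hp' : p' ∈ K) (hne : p - p' ∉ L) :
    ∃ c ∈ t, 2 ≤ |disc rep p c - disc rep p' c| := by
  obtain ⟨y, hy, hyy⟩ := exists_polar_gt_one hL hne
  refine ⟨cl y, hd.cl_mem y hy, ?_⟩
  have h1 := hd.near y hy p hp
  have h2 := hd.near y hy p' hp'
  set r := rep (cl y) with hr
  have h3 : inner ℝ (p - p') r = inner ℝ (p - p') y - inner ℝ p (y - r) + inner ℝ p' (y - r) := by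
    simp only [inner_sub_left, inner_sub_right]
    ring
  have h4 : (7:ℝ) / 8 < inner ℝ p r - inner ℝ p' r := by
    rw [← inner_sub_left, h3]
    rw [abs_le] at h1 h2
    linarith [h1.1, h1.2, h2.1, h2.2]
  have h5 : disc rep p' (cl y) + 2 ≤ disc rep p (cl y) := by
    simp only [disc, ← hr]
    apply Int.le_floor.mpr
    push_cast
    have := Int.floor_le (4 * inner ℝ p' r)
    linarith
  rw [le_abs']
  right
  omega

lemma disc_mem {K L : Set E} {t : Finset E} {cl rep : E → E} (hL : IsSymBody L)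
    (hd : ClusterData K L t cl rep) {p : E} (hp : p ∈ K) (c : E) :
    disc rep p c ∈ Finset.Icc (-(t.card : ℤ)) (t.card : ℤ) := by
  have h1 := abs_inner_le_card hL hd hp (hd.rep_mem c)
  have hm : 0 < t.card := Finset.card_pos.mpr ⟨_, hd.cl_mem 0 (zero_mem_polarBody L)⟩
  have hm' : (0:ℝ) < t.card := by exact_mod_cast hm
  rw [abs_le] at h1
  rw [Finset.mem_Icc]
  constructor
  · apply Int.le_floor.mpr
    push_cast
    linarith [h1.1]
  · have : ((disc rep p c : ℤ) : ℝ) ≤ t.card := by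
      calc ((disc rep p c : ℤ) : ℝ) ≤ 4 * inner ℝ p (rep c) := Int.floor_le _
        _ ≤ t.card := by linarith [h1.2]
    exact_mod_cast this

/-- The shattered graphs satisfy the numerical constraint `27 ^ d ≤ m ^ 4 * 16 ^ d`. -/
lemma shattered_card_bound {K L : Set E} {t : Finset E} {cl rep : E → E} (hK : IsSymBody K)
    (hL : IsSymBody L) (hd : ClusterData K L t cl rep) {P : Finset E} (hP : ∀ p ∈ P, p ∈ K)
    {G : Finset (E × ℤ)} (hG : StrongShatters (P.image (disc rep)) G) :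
    27 ^ G.card ≤ t.card ^ 4 * 16 ^ G.card := by
  classical
  by_cases hG0 : G.card = 0
  · have hm : 0 < t.card := Finset.card_pos.mpr ⟨_, hd.cl_mem 0 (zero_mem_polarBody L)⟩
    rw [hG0]
    have : 1 ≤ t.card ^ 4 := Nat.one_le_pow _ _ hm
    simpa using this
  have hdpos : 0 < G.card := Nat.pos_of_ne_zero hG0
  have hdpos' : (0:ℝ) < G.card := by exact_mod_cast hdpos
  -- the sign of a subset
  let ε : Finset (E × ℤ) → E × ℤ → ℝ := fun T g => if g ∈ T then 1 else -1
  have hε : ∀ T g, |ε T g| ≤ 1 := by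
    intro T g
    simp only [ε]
    split_ifs <;> norm_num
  let u : Finset (E × ℤ) → E := fun T => ∑ g ∈ G, ((G.card : ℝ)⁻¹) • (ε T g • rep g.1)
  have hu : ∀ T, u T ∈ polarBody L := by
    intro T
    apply (polarBody_convex L).sum_mem
    · intro g _
      positivity
    · rw [Finset.sum_const, nsmul_eq_mul]
      field_simp
    · intro g _
      exact polar_smul_mem hL (hd.rep_mem g.1) (hε T g)
  refine hamming_bound G t (fun T => cl (u T)) (fun T _ => hd.cl_mem _ (hu T)) ?_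
  intro T hT T' hT' hcl
  -- two witnesses for `T` and its complement
  obtain ⟨f, hf, hf1, hf2⟩ := hG T hT
  obtain ⟨f', hf', hf1', hf2'⟩ := hG (G \ T) Finset.sdiff_subset
  obtain ⟨p, hpP, rfl⟩ := Finset.mem_image.mp hf
  obtain ⟨p', hpP', rfl⟩ := Finset.mem_image.mp hf'
  have hpK := hP p hpP
  have hpK' := hP p' hpP'
  set z : E := (1/2 : ℝ) • p + (1/2 : ℝ) • (-p') with hz
  have hzK : z ∈ K := hK.convex hpK (hK.neg_mem _ hpK') (by norm_num) (by norm_num) (by norm_num)
  have hzin : ∀ r : E, inner ℝ z r = (inner ℝ p r - inner ℝ p' r) / 2 := by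
    intro r
    rw [hz, inner_add_left, inner_smul_left, inner_smul_left, inner_neg_left]
    simp only [conj_trivial]
    ring
  -- signs on `T`
  have key1 : ∀ g ∈ G, g ∈ T → (1:ℝ) / 8 < inner ℝ z (rep g.1) := by
    intro g hgG hgT
    have h1 := hf1 g hgT
    have h2 := hf2' g (by
      refine Finset.mem_sdiff.mpr ⟨hgG, ?_⟩
      intro hc
      exact (Finset.mem_sdiff.mp hc).2 hgT)
    simp only [disc] at h1 h2
    have h3 : ((g.2 : ℝ)) + 1 ≤ 4 * inner ℝ p (rep g.1) := by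
      have := Int.floor_le (4 * inner ℝ p (rep g.1))
      have h4 : ((g.2 + 1 : ℤ) : ℝ) ≤ ((⌊4 * inner ℝ p (rep g.1)⌋ : ℤ) : ℝ) := by
        exact_mod_cast h1
      push_cast at h4
      linarith
    have h5 : 4 * inner ℝ p' (rep g.1) < (g.2 : ℝ) := by
      have := Int.lt_floor_add_one (4 * inner ℝ p' (rep g.1))
      have h4 : ((⌊4 * inner ℝ p' (rep g.1)⌋ + 1 : ℤ) : ℝ) ≤ ((g.2 : ℤ) : ℝ) := by
        exact_mod_cast h2
      push_cast at h4
      linarith
    rw [hzin]
    linarith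
  have key2 : ∀ g ∈ G, g ∉ T → inner ℝ z (rep g.1) < -((1:ℝ) / 8) := by
    intro g hgG hgT
    have h1 := hf1' g (Finset.mem_sdiff.mpr ⟨hgG, hgT⟩)
    have h2 := hf2 g (Finset.mem_sdiff.mpr ⟨hgG, hgT⟩)
    simp only [disc] at h1 h2
    have h3 : ((g.2 : ℝ)) + 1 ≤ 4 * inner ℝ p' (rep g.1) := by
      have := Int.floor_le (4 * inner ℝ p' (rep g.1))
      have h4 : ((g.2 + 1 : ℤ) : ℝ) ≤ ((⌊4 * inner ℝ p' (rep g.1)⌋ : ℤ) : ℝ) := by
        exact_mod_cast h1
      push_cast at h4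
      linarith
    have h5 : 4 * inner ℝ p (rep g.1) < (g.2 : ℝ) := by
      have := Int.lt_floor_add_one (4 * inner ℝ p (rep g.1))
      have h4 : ((⌊4 * inner ℝ p (rep g.1)⌋ + 1 : ℤ) : ℝ) ≤ ((g.2 : ℤ) : ℝ) := by
        exact_mod_cast h2
      push_cast at h4
      linarith
    rw [hzin]
    linarith
  have hsum : inner ℝ z (u T - u T') = (G.card : ℝ)⁻¹ *
      ∑ g ∈ G, (ε T g - ε T' g) * inner ℝ z (rep g.1) := by
    simp only [u, inner_sub_right, inner_sum, inner_smul_right, Finset.mul_sum,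
      ← Finset.sum_sub_distrib]
    apply Finset.sum_congr rfl
    intro g _
    ring
  set Δ := symmDiff T T' with hΔ
  have hΔG : Δ ⊆ G := by
    intro g hg
    rcases Finset.mem_symmDiff.mp hg with h | h
    · exact hT h.1
    · exact hT' h.1
  have hterm : ∀ g ∈ G, (if g ∈ Δ then ((1:ℝ)/4) else 0) ≤
      (ε T g - ε T' g) * inner ℝ z (rep g.1) := by
    intro g hgG
    by_cases h1 : g ∈ T <;> by_cases h2 : g ∈ T'
    · have : g ∉ Δ := by
        rw [hΔ, Finset.mem_symmDiff]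
        tauto
      simp [this, ε, h1, h2]
    · have : g ∈ Δ := by
        rw [hΔ, Finset.mem_symmDiff]
        tauto
      have k := key1 g hgG h1
      simp only [this, if_true, ε, h1, h2, if_false]
      linarith
    · have : g ∈ Δ := by
        rw [hΔ, Finset.mem_symmDiff]
        tauto
      have k := key2 g hgG h1
      simp only [this, if_true, ε, h1, h2, if_false]
      linarith
    · have : g ∉ Δ := by
        rw [hΔ, Finset.mem_symmDiff]
        tauto
      simp [this, ε, h1, h2]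
  have hsumge : (Δ.card : ℝ) * ((1:ℝ)/4) ≤ ∑ g ∈ G, (ε T g - ε T' g) * inner ℝ z (rep g.1) := by
    calc (Δ.card : ℝ) * ((1:ℝ)/4) = ∑ g ∈ G, (if g ∈ Δ then ((1:ℝ)/4) else 0) := by
          rw [Finset.sum_ite_mem, Finset.inter_eq_right.mpr hΔG, Finset.sum_const, nsmul_eq_mul]
      _ ≤ _ := Finset.sum_le_sum hterm
  have hclose := hd.same _ (hu T) _ (hu T') hcl z hzK
  rw [hsum] at hclose
  have hle := (abs_le.mp hclose).2
  have hdinv : 0 < (G.card : ℝ)⁻¹ := by positivity
  have h7 : (G.card : ℝ)⁻¹ * ((Δ.card : ℝ) * ((1:ℝ)/4)) ≤ (1:ℝ)/16 :=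
    le_trans (mul_le_mul_of_nonneg_left hsumge hdinv.le) hle
  have h8 : (4 : ℝ) * Δ.card ≤ G.card := by
    have : (G.card : ℝ)⁻¹ * ((Δ.card : ℝ) * ((1:ℝ)/4)) = (Δ.card : ℝ) / (4 * G.card) := by
      field_simp
    rw [this, div_le_iff₀ (by positivity)] at h7
    linarith
  exact_mod_cast h8

end Vale.Agent.P126
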