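import Mathlib

/-!
Definitions for the duality conjecture for metric entropy.
-/

namespace Vale.Agent.P126

open scoped Pointwise

/-- The covering number `N(A, B)`: the least number of translates `x + B`, with `x` arbitrary,
whose union contains `A`.  (For bounded `A` and `B` with nonempty interior in a finite-dimensional
space a finite cover exists, so the infimum is over a nonempty set of natural numbers.) -/
noncomputable def coveringNumber {E : Type*} [AddCommGroup E] (A B : Set E) : ℕ :=
  sInf {k : ℕ | ∃ t : Finset E, t.card = k ∧ A ⊆ ⋃ x ∈ t, x +ᵥ B}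

/-- The polar body `K° = {y | ⟪x, y⟫ ≤ 1 for all x ∈ K}`. -/
def polarBody {E : Type*} [NormedAddCommGroup E] [InnerProductSpace ℝ E] (K : Set E) : Set E :=
  {y | ∀ x ∈ K, inner ℝ x y ≤ (1 : ℝ)}

/-- An origin-symmetric convex body: a compact convex set with nonempty interior and `K = -K`. -/
structure IsSymBody {E : Type*} [NormedAddCommGroup E] [InnerProductSpace ℝ E] (K : Set E) :
    Prop where
  convex : Convex ℝ K
  isCompact : IsCompact K
  interior_nonempty : (interior K).Nonempty
  neg_mem : ∀ x ∈ K, -x ∈ K

end Vale.Agent.P126
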