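import Vale.Agent.P126.Box

/-! Forward inequality: entropy of a solid body against the cube is controlled by the dual
entropy. -/

namespace Vale.Agent.P126

open scoped Pointwise
open Finset

set_option linter.unusedSectionVars false

variable {ι : Type*} [Fintype ι] [DecidableEq ι]

lemma isSymBody_cube : IsSymBody (cube ι) := by
  have hclosed : IsClosed (cube ι) := by
    have : cube ι = ⋂ i, {x : EuclideanSpace ℝ ι | |x i| ≤ 1} := by
      ext x; simp [cube]
    rw [this]
    apply isClosed_iInter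
    intro i
    exact isClosed_le (by fun_prop) continuous_const
  refine ⟨?_, ?_, ?_, ?_⟩
  · intro x hx y hy a b ha hb hab i
    simp only [PiLp.add_apply, PiLp.smul_apply, smul_eq_mul]
    have h1 := hx i
    have h2 := hy i
    calc |a * x i + b * y i| ≤ |a * x i| + |b * y i| := abs_add_le _ _
      _ = a * |x i| + b * |y i| := by rw [abs_mul, abs_mul, abs_of_nonneg ha, abs_of_nonneg hb]
      _ ≤ a * 1 + b * 1 := by
          apply add_le_add
          · exact mul_le_mul_of_nonneg_left h1 ha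
          · exact mul_le_mul_of_nonneg_left h2 hb
      _ = 1 := by linarith
  · have : ProperSpace (EuclideanSpace ℝ ι) := inferInstance
    apply Metric.isCompact_of_isClosed_isBounded hclosed
    rw [isBounded_iff_forall_norm_le]
    refine ⟨Real.sqrt (Fintype.card ι), ?_⟩
    intro x hx
    rw [EuclideanSpace.norm_eq]
    apply Real.sqrt_le_sqrt
    calc ∑ i, ‖x i‖ ^ 2 ≤ ∑ _i : ι, (1:ℝ) := by
          apply Finset.sum_le_sum
          intro i _
          have h1 : ‖x i‖ ≤ 1 := by simpa using hx i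
          have h2 := norm_nonneg (x i)
          nlinarith
      _ = Fintype.card ι := by simp
  · refine ⟨0, ?_⟩
    rw [mem_interior]
    refine ⟨Metric.ball 0 1, ?_, Metric.isOpen_ball, by simp⟩
    intro x hx i
    have h1 : ‖x‖ < 1 := by simpa using hx
    have h2 : ‖x i‖ ≤ ‖x‖ := PiLp.norm_apply_le x i
    have h3 : ‖x i‖ = |x i| := Real.norm_eq_abs _
    linarith
  · intro x hx i
    simpa using hx i

open Classical in
/-- The faces of level `j`: those `σ` with `2^j 1_σ` in the body. -/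
noncomputable def levelFaces (K : Set (EuclideanSpace ℝ ι)) (j : ℕ) : Finset (Finset ι) :=
  (Finset.univ : Finset (Finset ι)).filter (fun σ => (2:ℝ) ^ j • ind σ ∈ K)

lemma mem_levelFaces {K : Set (EuclideanSpace ℝ ι)} {j : ℕ} {σ : Finset ι} :
    σ ∈ levelFaces K j ↔ (2:ℝ) ^ j • ind σ ∈ K := by
  simp [levelFaces]

lemma levelFaces_down {K : Set (EuclideanSpace ℝ ι)} (hs : Solid K) (j : ℕ) :
    ∀ F ∈ levelFaces K j, ∀ G, G ⊆ F → G ∈ levelFaces K j := by
  intro F hF G hG
  rw [mem_levelFaces] at hF ⊢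
  apply hs _ hF
  intro i
  simp only [PiLp.smul_apply, smul_eq_mul, ind_apply, abs_mul]
  apply mul_le_mul_of_nonneg_left _ (abs_nonneg _)
  by_cases hi : i ∈ G
  · simp [hi, hG hi]
  · simp only [hi, if_false, abs_zero]
    exact abs_nonneg _

lemma empty_mem_levelFaces {K : Set (EuclideanSpace ℝ ι)} (h0 : (0 : EuclideanSpace ℝ ι) ∈ K)
    (j : ℕ) : ∅ ∈ levelFaces K j := by
  rw [mem_levelFaces]
  have : ind (∅ : Finset ι) = 0 := by
    ext i
    simp
  rw [this, smul_zero]
  exact h0

/-- The vector of a weighted face. -/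
noncomputable def faceVec (W : Finset ι → ι → ℝ) (σ : Finset ι) : EuclideanSpace ℝ ι :=
  WithLp.toLp 2 (fun i => if i ∈ σ then W σ i else 0)

@[simp] lemma faceVec_apply (W : Finset ι → ι → ℝ) (σ : Finset ι) (i : ι) :
    faceVec W σ i = if i ∈ σ then W σ i else 0 := by
  simp [faceVec]

lemma sum_eq_sum_ite (A : Finset ι) (f : ι → ℝ) :
    ∑ v ∈ A, f v = ∑ i, if i ∈ A then f i else 0 := by
  rw [Finset.sum_ite_mem, Finset.univ_inter]

lemma nw_faceVec {W : Finset ι → ι → ℝ} {σ : Finset ι} (h0 : ∀ v ∈ σ, 0 ≤ W σ v)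
    (h1 : ∑ v ∈ σ, W σ v ≤ 1) : nw (faceVec W σ) ≤ 1 := by
  refine le_trans (le_of_eq ?_) h1
  rw [sum_eq_sum_ite]
  unfold nw
  apply Finset.sum_congr rfl
  intro i _
  by_cases hi : i ∈ σ
  · simp [hi, abs_of_nonneg (h0 i hi)]
  · simp [hi]

lemma inner_ind_faceVec (W : Finset ι → ι → ℝ) (σ σ' : Finset ι) :
    inner ℝ (ind σ - ind σ') (faceVec W σ - faceVec W σ') =
      ∑ v ∈ σ \ σ', W σ v + ∑ v ∈ σ' \ σ, W σ' v := by
  rw [inner_eq_sum, sum_eq_sum_ite (σ \ σ'), sum_eq_sum_ite (σ' \ σ), ← Finset.sum_add_distrib]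
  apply Finset.sum_congr rfl
  intro i _
  simp only [PiLp.sub_apply, ind_apply, faceVec_apply, Finset.mem_sdiff]
  by_cases h1 : i ∈ σ <;> by_cases h2 : i ∈ σ' <;> simp [h1, h2]

lemma abs_ind_sub_le (σ σ' : Finset ι) (i : ι) : |(ind σ - ind σ') i| ≤ 1 := by
  simp only [PiLp.sub_apply, ind_apply]
  by_cases h1 : i ∈ σ <;> by_cases h2 : i ∈ σ' <;> simp [h1, h2]

/-- The test vector for two faces of the same level lies in the body. -/
lemma test_mem {K : Set (EuclideanSpace ℝ ι)} (hconv : Convex ℝ K) (hneg : ∀ x ∈ K, -x ∈ K)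
    {j : ℕ} {σ σ' : Finset ι} (h1 : σ ∈ levelFaces K j) (h2 : σ' ∈ levelFaces K j) :
    ((2:ℝ) ^ j / 2) • (ind σ - ind σ') ∈ K := by
  rw [mem_levelFaces] at h1 h2
  have h3 := hneg _ h2
  have := hconv h1 h3 (by norm_num : (0:ℝ) ≤ 1/2) (by norm_num : (0:ℝ) ≤ 1/2) (by norm_num)
  have heq : (1/2 : ℝ) • ((2:ℝ) ^ j • ind σ) + (1/2 : ℝ) • (-((2:ℝ) ^ j • ind σ')) =
      ((2:ℝ) ^ j / 2) • (ind σ - ind σ') := by
    module
  rwa [heq] at this

/-- Distinct points of a separated family cannot lie in one translate of a small multiple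
of the polar. -/
lemma pack_le_cover {K : Set (EuclideanSpace ℝ ι)} (hK : IsSymBody K)
    {t : Finset (EuclideanSpace ℝ ι)}
    (hcov : polarBody (cube ι) ⊆ ⋃ c ∈ t, c +ᵥ (((2000:ℝ)⁻¹) • polarBody K))
    {P : Finset (EuclideanSpace ℝ ι)} {r : ℕ} (hP1 : ∀ Z ∈ P, nw Z ≤ 2)
    (hP2 : ∀ Z ∈ P, ∀ Z' ∈ P, Z ≠ Z' → ∃ x ∈ K,
        2 ^ r / 2 * (1/100 - 1/256 : ℝ) ≤ inner ℝ x (Z - Z')) : P.card ≤ t.card := by
  have hex : ∀ Z ∈ P, ∃ c ∈ t, ∃ u ∈ polarBody K, (1/2 : ℝ) • Z = c + (2000:ℝ)⁻¹ • u := by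
    intro Z hZ
    have hmem : (1/2 : ℝ) • Z ∈ polarBody (cube ι) := by
      apply mem_polar_cube_of_nw_le
      rw [nw_smul, abs_of_pos (by norm_num)]
      have := hP1 Z hZ
      linarith
    have := hcov hmem
    simp only [Set.mem_iUnion, exists_prop] at this
    obtain ⟨c, hc, hcz⟩ := this
    obtain ⟨b, hb, hbz⟩ := Set.mem_vadd_set.mp hcz
    obtain ⟨u, hu, rfl⟩ := Set.mem_smul_set.mp hb
    exact ⟨c, hc, u, hu, by rw [← hbz]; simp⟩
  choose! g hg1 u hu1 hu2 using hex
  apply Finset.card_le_card_of_injOn g hg1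
  intro Z hZ Z' hZ' hgg
  by_contra hne
  obtain ⟨x, hx, hxs⟩ := hP2 Z hZ Z' hZ' hne
  have hdiff : Z - Z' = (2 * (2000:ℝ)⁻¹) • (u Z - u Z') := by
    have h1 := hu2 Z hZ
    have h2 := hu2 Z' hZ'
    have hgg' : g Z = g Z' := hgg
    rw [hgg'] at h1
    have h3 : (1/2 : ℝ) • Z - (1/2 : ℝ) • Z' = (2000:ℝ)⁻¹ • (u Z - u Z') := by
      rw [h1, h2]
      module
    have h4 : Z - Z' = (2:ℝ) • ((1/2 : ℝ) • Z - (1/2 : ℝ) • Z') := by module
    rw [h4, h3]
    module
  rw [hdiff, inner_smul_right, inner_sub_right] at hxs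
  have h5 := (abs_le.mp (abs_inner_le_one hK hx (hu1 Z hZ)))
  have h6 := (abs_le.mp (abs_inner_le_one hK hx (hu1 Z' hZ')))
  have h7 : (1:ℝ) ≤ 2 ^ r := one_le_pow₀ (by norm_num)
  nlinarith

/-- Covering the truncations of a solid body by induction on the height. -/
theorem cover_levels {K : Set (EuclideanSpace ℝ ι)} (hs : Solid K) :
    ∀ J : ℕ, ∃ C : Finset (EuclideanSpace ℝ ι),
      (∀ x ∈ K, (∀ i, |x i| < 2 ^ J) → x ∈ ⋃ c ∈ C, c +ᵥ cube ι) ∧
      C.card ≤ ∏ j ∈ Finset.range J, (levelFaces K j).card ^ 2 := by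
  intro J
  induction J with
  | zero =>
    refine ⟨{0}, ?_, by simp⟩
    intro x _ hx
    simp only [Finset.mem_singleton, Set.iUnion_iUnion_eq_left]
    refine Set.mem_vadd_set.mpr ⟨x, fun i => ?_, by simp⟩
    have := hx i
    rw [pow_zero] at this
    exact this.le
  | succ J ih =>
    obtain ⟨C, hC, hcard⟩ := ih
    let f : Finset ι × Finset ι → EuclideanSpace ℝ ι :=
      fun p => (2:ℝ) ^ J • (ind (p.1 \ p.2) - ind p.2)
    refine ⟨((levelFaces K J ×ˢ levelFaces K J) ×ˢ C).image (fun p => f p.1 + p.2), ?_, ?_⟩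
    · intro x hx hxJ
      let σ : Finset ι := Finset.univ.filter (fun i => (2:ℝ) ^ J ≤ |x i|)
      let s : Finset ι := σ.filter (fun i => x i < 0)
      have hsσ : s ⊆ σ := Finset.filter_subset _ _
      have hσ : σ ∈ levelFaces K J := by
        rw [mem_levelFaces]
        apply hs x hx
        intro i
        simp only [PiLp.smul_apply, smul_eq_mul, ind_apply]
        by_cases hi : i ∈ σ
        · have : (2:ℝ) ^ J ≤ |x i| := (Finset.mem_filter.mp hi).2
          simp only [hi, if_true, mul_one, abs_of_pos (pow_pos (by norm_num : (0:ℝ) < 2) J)]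
          exact this
        · simp [hi]
      have hss : s ∈ levelFaces K J := levelFaces_down hs J σ hσ s hsσ
      set z : EuclideanSpace ℝ ι := x - f (σ, s) with hz
      have h2J : (0:ℝ) < 2 ^ J := by positivity
      have hzi : ∀ i, |z i| ≤ |x i| ∧ |z i| < 2 ^ J := by
        intro i
        have hxi := hxJ i
        rw [pow_succ] at hxi
        have hzc : z i = x i - (2:ℝ) ^ J * ((if i ∈ σ \ s then (1:ℝ) else 0) -
            (if i ∈ s then (1:ℝ) else 0)) := by
          simp [hz, f]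
        by_cases hi : i ∈ σ
        · have hi1 : (2:ℝ) ^ J ≤ |x i| := (Finset.mem_filter.mp hi).2
          by_cases hneg : x i < 0
          · have hi2 : i ∈ s := Finset.mem_filter.mpr ⟨hi, hneg⟩
            have hi3 : i ∉ σ \ s := fun h => (Finset.mem_sdiff.mp h).2 hi2
            rw [hzc, if_neg hi3, if_pos hi2]
            rw [abs_of_neg hneg] at hi1 hxi ⊢
            rw [abs_of_nonpos (by linarith)]
            constructor <;> linarith
          · have hi2 : i ∉ s := fun h => hneg (Finset.mem_filter.mp h).2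
            have hi3 : i ∈ σ \ s := Finset.mem_sdiff.mpr ⟨hi, hi2⟩
            rw [hzc, if_pos hi3, if_neg hi2]
            have hpos : 0 ≤ x i := not_lt.mp hneg
            rw [abs_of_nonneg hpos] at hi1 hxi ⊢
            rw [abs_of_nonneg (by linarith)]
            constructor <;> linarith
        · have hi2 : i ∉ s := fun h => hi (hsσ h)
          have hi3 : i ∉ σ \ s := fun h => hi (Finset.mem_sdiff.mp h).1
          have hi4 : |x i| < 2 ^ J := by
            by_contra hc
            exact hi (Finset.mem_filter.mpr ⟨Finset.mem_univ i, not_lt.mp hc⟩)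
          rw [hzc, if_neg hi3, if_neg hi2]
          simp only [sub_self, mul_zero, sub_zero]
          exact ⟨le_refl _, hi4⟩
      have hzK : z ∈ K := hs x hx z (fun i => (hzi i).1)
      have hzC := hC z hzK (fun i => (hzi i).2)
      simp only [Set.mem_iUnion, exists_prop] at hzC ⊢
      obtain ⟨c, hc, hcz⟩ := hzC
      refine ⟨f (σ, s) + c, ?_, ?_⟩
      · apply Finset.mem_image.mpr
        exact ⟨((σ, s), c), Finset.mem_product.mpr ⟨Finset.mem_product.mpr ⟨hσ, hss⟩, hc⟩, rfl⟩
      · obtain ⟨b, hb, hbz⟩ := Set.mem_vadd_set.mp hcz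
        refine Set.mem_vadd_set.mpr ⟨b, hb, ?_⟩
        have hb2 : c + b = z := by simpa using hbz
        have : x = f (σ, s) + z := by rw [hz]; abel
        rw [this, ← hb2]
        simp only [vadd_eq_add]
        abel
    · calc _ ≤ ((levelFaces K J ×ˢ levelFaces K J) ×ˢ C).card := Finset.card_image_le
        _ = (levelFaces K J).card * (levelFaces K J).card * C.card := by
            simp [Finset.card_product]
        _ ≤ (levelFaces K J).card * (levelFaces K J).card *
              ∏ j ∈ Finset.range J, (levelFaces K j).card ^ 2 :=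
            Nat.mul_le_mul_left _ hcard
        _ = _ := by
            rw [Finset.prod_range_succ]
            ring

/-- Rearranging a sum by residues modulo ten. -/
lemma sum_range_ten_mul (f : ℕ → ℝ) (k : ℕ) :
    ∑ j ∈ Finset.range (10 * k), f j =
      ∑ r ∈ Finset.range 10, ∑ l ∈ Finset.range k, f (r + 10 * l) := by
  induction k with
  | zero => simp
  | succ k ih =>
    rw [Nat.mul_succ, Finset.sum_range_add, ih]
    simp only [Finset.sum_range_succ]
    simp only [Finset.sum_range_zero]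
    ring_nf

/-- The forward inequality for solid bodies and the cube. -/
theorem forward_solid {K : Set (EuclideanSpace ℝ ι)} (hK : IsSymBody K) (hs : Solid K) :
    Real.log (coveringNumber K (cube ι)) ≤
      600 * Real.log (coveringNumber (polarBody (cube ι)) ((2000:ℝ)⁻¹ • polarBody K)) := by
  classical
  have h0 := hK.zero_mem
  -- the cover of the polar of the cube
  have hP : IsSymBody (polarBody K) := hK.polarBody
  have hPs : IsSymBody (((2000:ℝ)⁻¹) • polarBody K) := hP.smul (by norm_num)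
  obtain ⟨ε, hε, hball⟩ := hPs.exists_ball_subset
  have hcube : IsSymBody (polarBody (cube ι)) := (isSymBody_cube (ι := ι)).polarBody
  obtain ⟨t, htc, htcov⟩ := exists_cover_card_eq (exists_finite_cover hcube.isCompact hε hball)
  -- the packings in each level
  have hpack := fun j : ℕ => exists_face_packing (Finset.univ : Finset ι) (Δ := levelFaces K j)
    (fun F _ => Finset.subset_univ F) ⟨∅, empty_mem_levelFaces h0 j⟩ (levelFaces_down hs j)
  choose I W hI hIne hW0 hW1 hWsep hWlog using hpack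
  let Y : ℕ → Finset (EuclideanSpace ℝ ι) := fun j => (I j).image (faceVec (W j))
  have hsepinner : ∀ j, ∀ σ ∈ I j, ∀ σ' ∈ I j, σ ≠ σ' →
      ((2:ℝ) ^ j / 2) • (ind σ - ind σ') ∈ K ∧
      (∀ i, |(((2:ℝ) ^ j / 2) • (ind σ - ind σ')) i| ≤ 2 ^ j / 2) ∧
      2 ^ j / 2 * (1/100 : ℝ) ≤ inner ℝ (((2:ℝ) ^ j / 2) • (ind σ - ind σ'))
        (faceVec (W j) σ - faceVec (W j) σ') := by
    intro j σ hσ σ' hσ' hne
    refine ⟨test_mem hK.convex hK.neg_mem (hI j hσ) (hI j hσ'), ?_, ?_⟩
    · intro i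
      simp only [PiLp.smul_apply, smul_eq_mul, abs_mul]
      rw [abs_of_pos (by positivity : (0:ℝ) < 2 ^ j / 2)]
      have := abs_ind_sub_le σ σ' i
      have h2 : (0:ℝ) < 2 ^ j / 2 := by positivity
      simp only [PiLp.sub_apply] at this ⊢
      nlinarith
    · rw [inner_smul_left, inner_ind_faceVec]
      simp only [conj_trivial]
      exact mul_le_mul_of_nonneg_left (hWsep j σ hσ σ' hσ' hne) (by positivity)
  have hYcard : ∀ j, (Y j).card = (I j).card := by
    intro j
    apply Finset.card_image_of_injOn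
    intro σ hσ σ' hσ' heq
    by_contra hne
    obtain ⟨_, _, h3⟩ := hsepinner j σ hσ σ' hσ' hne
    have hz : faceVec (W j) σ - faceVec (W j) σ' = 0 := sub_eq_zero.mpr heq
    rw [hz, inner_zero_right] at h3
    have : (0:ℝ) < 2 ^ j / 2 * (1/100 : ℝ) := by positivity
    linarith
  have h1 : ∀ j, ∀ y ∈ Y j, nw y ≤ 1 := by
    intro j y hy
    obtain ⟨σ, hσ, rfl⟩ := Finset.mem_image.mp hy
    exact nw_faceVec (hW0 j σ hσ) (hW1 j σ hσ)
  have h2 : ∀ j, ∀ y ∈ Y j, ∀ y' ∈ Y j, y ≠ y' → ∃ x ∈ K, (∀ i, |x i| ≤ 2 ^ j / 2) ∧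
      2 ^ j / 2 * (1/100 : ℝ) ≤ inner ℝ x (y - y') := by
    intro j y hy y' hy' hne
    obtain ⟨σ, hσ, rfl⟩ := Finset.mem_image.mp hy
    obtain ⟨σ', hσ', rfl⟩ := Finset.mem_image.mp hy'
    have hne' : σ ≠ σ' := fun h => hne (by rw [h])
    obtain ⟨h3, h4, h5⟩ := hsepinner j σ hσ σ' hσ' hne'
    exact ⟨_, h3, h4, h5⟩
  -- product bound
  have hprod : ∀ k r : ℕ, ∑ l ∈ Finset.range k, Real.log (I (r + 10 * l)).card ≤
      Real.log (coveringNumber (polarBody (cube ι)) ((2000:ℝ)⁻¹ • polarBody K)) := by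
    intro k r
    obtain ⟨P, hPc, hPn, hPs'⟩ := product_pack h1 h2 k r
    have hle := pack_le_cover hK htcov hPn hPs'
    rw [hPc, htc] at hle
    have hpos : ∀ l ∈ Finset.range k, ((I (r + 10 * l)).card : ℝ) ≠ 0 := by
      intro l _
      have := Finset.card_pos.mpr (hIne (r + 10 * l))
      positivity
    rw [← Real.log_prod hpos]
    have hprodpos : (0:ℝ) < ∏ l ∈ Finset.range k, ((I (r + 10 * l)).card : ℝ) := by
      apply Finset.prod_pos
      intro l _
      exact_mod_cast Finset.card_pos.mpr (hIne (r + 10 * l))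
    apply Real.log_le_log hprodpos
    simp only [hYcard] at hle
    exact_mod_cast hle
  -- the height of the body
  obtain ⟨R, hR, hRb⟩ := hK.exists_norm_le
  obtain ⟨k, hk⟩ := pow_unbounded_of_one_lt R (by norm_num : (1:ℝ) < 2)
  have hheight : ∀ x ∈ K, ∀ i, |x i| < 2 ^ (10 * k) := by
    intro x hx i
    have h3 : ‖x i‖ ≤ ‖x‖ := PiLp.norm_apply_le x i
    have h4 : ‖x i‖ = |x i| := Real.norm_eq_abs _
    have h5 : (2:ℝ) ^ k ≤ 2 ^ (10 * k) :=
      pow_le_pow_right₀ (by norm_num) (by omega)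
    have := hRb x hx
    linarith
  obtain ⟨C, hC, hCcard⟩ := cover_levels hs (10 * k)
  have hcovC : coveringNumber K (cube ι) ≤ C.card := by
    apply coveringNumber_le
    intro x hx
    exact hC x hx (hheight x hx)
  have hfacepos : ∀ j, (0:ℝ) < (levelFaces K j).card := by
    intro j
    exact_mod_cast Finset.card_pos.mpr ⟨∅, empty_mem_levelFaces h0 j⟩
  have hlog1 : Real.log (coveringNumber K (cube ι)) ≤
      ∑ j ∈ Finset.range (10 * k), 2 * Real.log (levelFaces K j).card := by
    have hprodpos : (0:ℝ) < ∏ j ∈ Finset.range (10 * k), ((levelFaces K j).card : ℝ) ^ 2 :=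
      Finset.prod_pos (fun j _ => pow_pos (hfacepos j) 2)
    have hle : ((coveringNumber K (cube ι) : ℕ) : ℝ) ≤
        ∏ j ∈ Finset.range (10 * k), ((levelFaces K j).card : ℝ) ^ 2 := by
      exact_mod_cast hcovC.trans hCcard
    have h3 : Real.log (∏ j ∈ Finset.range (10 * k), ((levelFaces K j).card : ℝ) ^ 2) =
        ∑ j ∈ Finset.range (10 * k), 2 * Real.log (levelFaces K j).card := by
      rw [Real.log_prod (fun j _ => (pow_pos (hfacepos j) 2).ne')]
      apply Finset.sum_congr rfl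
      intro j _
      rw [Real.log_pow]
      norm_num
    rw [← h3]
    by_cases hzero : coveringNumber K (cube ι) = 0
    · rw [hzero]
      simp only [Nat.cast_zero, Real.log_zero]
      rw [h3]
      apply Finset.sum_nonneg
      intro j _
      have := Real.log_natCast_nonneg (levelFaces K j).card
      positivity
    · apply Real.log_le_log _ hle
      exact_mod_cast Nat.pos_of_ne_zero hzero
  have hlog2 : ∑ j ∈ Finset.range (10 * k), 2 * Real.log (levelFaces K j).card ≤
      ∑ j ∈ Finset.range (10 * k), 60 * Real.log (I j).card := by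
    apply Finset.sum_le_sum
    intro j _
    have := hWlog j
    linarith
  have hlog2' : ∑ j ∈ Finset.range (10 * k), 60 * Real.log (I j).card =
      60 * ∑ r ∈ Finset.range 10, ∑ l ∈ Finset.range k, Real.log (I (r + 10 * l)).card := by
    rw [← Finset.mul_sum, sum_range_ten_mul (fun j => Real.log (I j).card)]
  have hlog3 : ∑ r ∈ Finset.range 10, ∑ l ∈ Finset.range k, Real.log (I (r + 10 * l)).card ≤
      ∑ _r ∈ Finset.range 10,
        Real.log (coveringNumber (polarBody (cube ι)) ((2000:ℝ)⁻¹ • polarBody K)) :=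
    Finset.sum_le_sum (fun r _ => hprod k r)
  rw [Finset.sum_const, Finset.card_range, nsmul_eq_mul] at hlog3
  push_cast at hlog3
  linarith

end Vale.Agent.P126
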