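import Vale.Agent.P126.Support

/-! Covering the section of a solid body on few coordinates: the reduction to the cube. -/

namespace Vale.Agent.P126

open scoped Pointwise
open Finset

set_option linter.unusedSectionVars false

variable {ι : Type*} [Fintype ι] [DecidableEq ι]

section Grid

variable {κ : Type*} [Fintype κ] [DecidableEq κ]

/-- Sign and size patterns of total size at most `A`. -/
def gridSet (κ : Type*) [Fintype κ] [DecidableEq κ] (A : ℕ) : Finset (κ → Bool × ℕ) :=
  (Fintype.piFinset (fun _ => (univ : Finset Bool) ×ˢ Finset.range (A + 1))).filter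
    (fun p => ∑ v, (p v).2 ≤ A)

lemma card_gridSet (A : ℕ) :
    ((gridSet κ A).card : ℝ) ≤ 4 ^ Fintype.card κ * 2 ^ A := by
  have h1 : ∑ p ∈ Fintype.piFinset (fun _ : κ => (univ : Finset Bool) ×ˢ Finset.range (A + 1)),
      ∏ v, ((1/2 : ℝ) ^ (p v).2) = ∏ _v : κ, ∑ q ∈ (univ : Finset Bool) ×ˢ Finset.range (A + 1),
        (1/2 : ℝ) ^ q.2 := by
    rw [Finset.prod_univ_sum]
  have h2 : ∑ q ∈ (univ : Finset Bool) ×ˢ Finset.range (A + 1), (1/2 : ℝ) ^ q.2 ≤ 4 := by
    rw [Finset.sum_product]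
    simp only [Finset.sum_const, Finset.card_univ, Fintype.card_bool, nsmul_eq_mul]
    have := sum_geometric_two_le (A + 1)
    push_cast
    linarith
  have h3 : ∏ _v : κ, ∑ q ∈ (univ : Finset Bool) ×ˢ Finset.range (A + 1), (1/2 : ℝ) ^ q.2 ≤
      4 ^ Fintype.card κ := by
    rw [Finset.prod_const]
    exact pow_le_pow_left₀ (Finset.sum_nonneg (fun _ _ => by positivity)) h2 _
  have h4 : ((gridSet κ A).card : ℝ) * (1/2 : ℝ) ^ A ≤
      ∑ p ∈ Fintype.piFinset (fun _ : κ => (univ : Finset Bool) ×ˢ Finset.range (A + 1)),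
        ∏ v, ((1/2 : ℝ) ^ (p v).2) := by
    calc ((gridSet κ A).card : ℝ) * (1/2 : ℝ) ^ A = ∑ _p ∈ gridSet κ A, (1/2 : ℝ) ^ A := by
          rw [Finset.sum_const, nsmul_eq_mul]
      _ ≤ ∑ p ∈ gridSet κ A, ∏ v, ((1/2 : ℝ) ^ (p v).2) := by
          apply Finset.sum_le_sum
          intro p hp
          rw [Finset.prod_pow_eq_pow_sum]
          exact pow_le_pow_of_le_one (by norm_num) (by norm_num) (Finset.mem_filter.mp hp).2
      _ ≤ _ := by
          apply Finset.sum_le_sum_of_subset_of_nonneg (Finset.filter_subset _ _)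
          intro _ _ _
          exact Finset.prod_nonneg (fun _ _ => by positivity)
  have h5 : ((gridSet κ A).card : ℝ) * (1/2 : ℝ) ^ A ≤ 4 ^ Fintype.card κ := by
    rw [← h1] at h3
    exact h4.trans h3
  have h6 : ((2:ℝ) ^ A) * (1/2 : ℝ) ^ A = 1 := by
    rw [← mul_pow]
    norm_num
  calc ((gridSet κ A).card : ℝ) = ((gridSet κ A).card : ℝ) * ((1/2 : ℝ) ^ A * 2 ^ A) := by
        rw [mul_comm ((1/2 : ℝ) ^ A), h6, mul_one]
    _ = (((gridSet κ A).card : ℝ) * (1/2 : ℝ) ^ A) * 2 ^ A := by ring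
    _ ≤ _ := mul_le_mul_of_nonneg_right h5 (by positivity)

/-- The point of the grid with a given pattern. -/
noncomputable def gridPt (ρ : ℝ) (p : κ → Bool × ℕ) : EuclideanSpace ℝ κ :=
  WithLp.toLp 2 (fun v => if (p v).1 then ρ * ((p v).2 : ℝ) else -(ρ * ((p v).2 : ℝ)))

@[simp] lemma gridPt_apply (ρ : ℝ) (p : κ → Bool × ℕ) (v : κ) :
    gridPt ρ p v = if (p v).1 then ρ * ((p v).2 : ℝ) else -(ρ * ((p v).2 : ℝ)) := by
  simp [gridPt]

/-- Approximating a point of the unit ball of `ℓ¹` by the grid. -/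
lemma exists_grid_approx {w : EuclideanSpace ℝ κ} (hw : nw w ≤ 1) {ρ : ℝ} (hρ : 0 < ρ) {A : ℕ}
    (hA : 1 / ρ ≤ A) :
    ∃ p ∈ gridSet κ A, ∀ v, |(w - gridPt ρ p) v| ≤ ρ := by
  classical
  let k : κ → ℕ := fun v => ⌊|w v| / ρ⌋₊
  let p : κ → Bool × ℕ := fun v => (decide (0 ≤ w v), k v)
  have hk1 : ∀ v, (k v : ℝ) ≤ |w v| / ρ := fun v => Nat.floor_le (by positivity)
  have hk2 : ∀ v, |w v| / ρ < k v + 1 := fun v => Nat.lt_floor_add_one _
  have hsum : ∑ v, k v ≤ A := by
    have h1 : ((∑ v, k v : ℕ) : ℝ) ≤ ∑ v, |w v| / ρ := by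
      push_cast
      exact Finset.sum_le_sum (fun v _ => hk1 v)
    have h2 : ∑ v, |w v| / ρ ≤ 1 / ρ := by
      rw [← Finset.sum_div]
      exact div_le_div_of_nonneg_right hw hρ.le
    have : ((∑ v, k v : ℕ) : ℝ) ≤ A := h1.trans (h2.trans hA)
    exact_mod_cast this
  refine ⟨p, ?_, ?_⟩
  · refine Finset.mem_filter.mpr ⟨?_, hsum⟩
    rw [Fintype.mem_piFinset]
    intro v
    refine Finset.mem_product.mpr ⟨Finset.mem_univ _, Finset.mem_range.mpr ?_⟩
    have : k v ≤ ∑ v, k v := Finset.single_le_sum (fun _ _ => Nat.zero_le _) (Finset.mem_univ v)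
    show k v < A + 1
    omega
  · intro v
    have h1 := hk1 v
    have h2 := hk2 v
    rw [le_div_iff₀ hρ] at h1
    rw [div_lt_iff₀ hρ] at h2
    simp only [PiLp.sub_apply, gridPt_apply, p]
    by_cases hv : 0 ≤ w v
    · simp only [hv, decide_true, if_true]
      rw [abs_of_nonneg hv] at h1 h2
      rw [abs_le]
      constructor <;> nlinarith
    · have hv' : w v < 0 := not_le.mp hv
      simp only [hv, decide_false, Bool.false_eq_true, if_false]
      rw [abs_of_neg hv'] at h1 h2
      rw [abs_le]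
      constructor <;> nlinarith

end Grid

/-- Extension from the coordinates of `f` with multipliers `z`. -/
noncomputable def extZ (f : Finset ι) (z : EuclideanSpace ℝ ι) :
    EuclideanSpace ℝ ↥f →ₗ[ℝ] EuclideanSpace ℝ ι where
  toFun u := WithLp.toLp 2 (fun i => if h : i ∈ f then z i * u ⟨i, h⟩ else 0)
  map_add' u u' := by
    ext i
    by_cases h : i ∈ f <;> simp [h, mul_add]
  map_smul' a u := by
    ext i
    by_cases h : i ∈ f
    · simp only [h, PiLp.smul_apply, smul_eq_mul, RingHom.id_apply, dite_true]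
      ring
    · simp [h]

lemma extZ_apply (f : Finset ι) (z : EuclideanSpace ℝ ι) (u : EuclideanSpace ℝ ↥f) (i : ι) :
    extZ f z u i = if h : i ∈ f then z i * u ⟨i, h⟩ else 0 := rfl

/-- Restriction to the coordinates of `f` with divisors `z`. -/
noncomputable def unextZ (f : Finset ι) (z : EuclideanSpace ℝ ι) :
    EuclideanSpace ℝ ι →ₗ[ℝ] EuclideanSpace ℝ ↥f where
  toFun x := WithLp.toLp 2 (fun v => x v.1 / z v.1)
  map_add' x y := by
    ext v
    simp [add_div]
  map_smul' a x := by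
    ext v
    simp only [PiLp.smul_apply, smul_eq_mul, RingHom.id_apply]
    ring

lemma unextZ_apply (f : Finset ι) (z x : EuclideanSpace ℝ ι) (v : ↥f) :
    unextZ f z x v = x v.1 / z v.1 := rfl

/-- Restriction to the coordinates of `f` with multipliers `z`. -/
noncomputable def piZ (f : Finset ι) (z : EuclideanSpace ℝ ι) :
    EuclideanSpace ℝ ι →ₗ[ℝ] EuclideanSpace ℝ ↥f where
  toFun x := WithLp.toLp 2 (fun v => z v.1 * x v.1)
  map_add' x y := by
    ext v
    simp [mul_add]
  map_smul' a x := by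
    ext v
    simp only [PiLp.smul_apply, smul_eq_mul, RingHom.id_apply]
    ring

lemma piZ_apply (f : Finset ι) (z x : EuclideanSpace ℝ ι) (v : ↥f) :
    piZ f z x v = z v.1 * x v.1 := rfl

lemma sum_dite_mem (f : Finset ι) (F : ↥f → ℝ) :
    ∑ x, (if h : x ∈ f then F ⟨x, h⟩ else 0) = ∑ v, F v := by
  let g : ι → ℝ := fun x => if h : x ∈ f then F ⟨x, h⟩ else 0
  have h1 : ∑ x, g x = ∑ x ∈ f, g x :=
    (Finset.sum_subset (Finset.subset_univ f) (fun x _ hx => by simp [g, hx])).symm
  have h2 : ∑ v : ↥f, g v = ∑ x ∈ f, g x := Finset.sum_coe_sort f g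
  have h3 : ∀ v : ↥f, g v = F v := by
    intro v
    simp [g, v.2]
  show ∑ x, g x = _
  rw [h1, ← h2]
  exact Finset.sum_congr rfl (fun v _ => h3 v)

lemma inner_extZ (f : Finset ι) (z k : EuclideanSpace ℝ ι) (u : EuclideanSpace ℝ ↥f) :
    inner ℝ (extZ f z u) k = inner ℝ u (piZ f z k) := by
  rw [inner_eq_sum, inner_eq_sum]
  have h1 : ∀ i, extZ f z u i * k i = if h : i ∈ f then (u ⟨i, h⟩ * (z i * k i)) else 0 := by
    intro i
    rw [extZ_apply]
    by_cases h : i ∈ f
    · simp only [h, dite_true]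
      ring
    · simp [h]
  simp only [h1, piZ_apply]
  exact sum_dite_mem f (fun v => u v * (z v.1 * k v.1))

lemma unextZ_extZ {f : Finset ι} {z : EuclideanSpace ℝ ι} (hz : ∀ i ∈ f, z i ≠ 0)
    (u : EuclideanSpace ℝ ↥f) : unextZ f z (extZ f z u) = u := by
  ext v
  rw [unextZ_apply, extZ_apply]
  simp only [v.2, dite_true]
  have := hz v.1 v.2
  field_simp

lemma extZ_unextZ {f : Finset ι} {z : EuclideanSpace ℝ ι} (hz : ∀ i ∈ f, z i ≠ 0)
    (x : EuclideanSpace ℝ ι) : extZ f z (unextZ f z x) = restr f x := by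
  ext i
  rw [extZ_apply, restr_apply]
  by_cases h : i ∈ f
  · simp only [h, dite_true, if_true, unextZ_apply]
    have := hz i h
    field_simp
  · simp [h]

/-- The pull-back of a solid body to the coordinates of `f`. -/
lemma pullback_props {K : Set (EuclideanSpace ℝ ι)} (hK : IsSymBody K) (sK : Solid K)
    {f : Finset ι} {z : EuclideanSpace ℝ ι} (hz : ∀ i ∈ f, z i ≠ 0) :
    IsSymBody ((extZ f z) ⁻¹' K) ∧ Solid ((extZ f z) ⁻¹' K) := by
  have hcont : Continuous (extZ f z) := LinearMap.continuous_of_finiteDimensional _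
  have hcont' : Continuous (unextZ f z) := LinearMap.continuous_of_finiteDimensional _
  refine ⟨⟨hK.convex.linear_preimage _, ?_, ?_, ?_⟩, ?_⟩
  · apply (hK.isCompact.image hcont').of_isClosed_subset (hK.isCompact.isClosed.preimage hcont)
    intro u hu
    exact ⟨extZ f z u, hu, unextZ_extZ hz u⟩
  · obtain ⟨ε, hε, hball⟩ := hK.exists_ball_subset
    refine ⟨0, mem_interior.mpr ⟨(extZ f z) ⁻¹' Metric.ball 0 ε, ?_,
      Metric.isOpen_ball.preimage hcont, ?_⟩⟩
    · exact Set.preimage_mono hball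
    · simp [hε]
  · intro u hu
    show extZ f z (-u) ∈ K
    rw [map_neg]
    exact hK.neg_mem _ hu
  · intro u hu w hw
    apply sK _ hu
    intro i
    rw [extZ_apply, extZ_apply]
    by_cases h : i ∈ f
    · simp only [h, dite_true, abs_mul]
      exact mul_le_mul_of_nonneg_left (hw _) (abs_nonneg _)
    · simp [h]

/-- The cover of the unit ball of `ℓ¹` of the coordinates of `f`, by the cover `t`. -/
lemma cover_l1 {K L : Set (EuclideanSpace ℝ ι)} {t : Finset (EuclideanSpace ℝ ι)}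
    (c : Ctx K L t) {f : Finset ι} (hf : 0 < f.card) {z y₀ : EuclideanSpace ℝ ι}
    (hy₀ : y₀ ∈ polarBody L) (hzy : ∀ i ∈ f, z i * y₀ i = (f.card : ℝ)⁻¹)
    (hz0 : ∀ i, 0 ≤ z i) :
    coveringNumber (polarBody (cube ↥f)) ((2000:ℝ)⁻¹ • polarBody ((extZ f z) ⁻¹' K)) ≤
      (gridSet ↥f (667 * f.card)).card * t.card := by
  classical
  have hd : (0:ℝ) < f.card := by exact_mod_cast hf
  have hzne : ∀ i ∈ f, z i ≠ 0 := by
    intro i hi h
    have := hzy i hi
    rw [h, zero_mul] at this
    have h2 : (f.card : ℝ)⁻¹ ≠ 0 := (inv_pos.mpr hd).ne'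
    exact h2 this.symm
  have hzpos : ∀ i ∈ f, 0 < z i := fun i hi => lt_of_le_of_ne (hz0 i) (hzne i hi).symm
  set ρ : ℝ := 3 / (2000 * f.card) with hρ
  have hρ0 : 0 < ρ := by positivity
  set cov : Finset (EuclideanSpace ℝ ↥f) :=
    ((gridSet ↥f (667 * f.card)) ×ˢ t).image
      (fun q => gridPt ρ q.1 + (3/2000 : ℝ) • piZ f z q.2) with hcov
  have hcard : cov.card ≤ (gridSet ↥f (667 * f.card)).card * t.card := by
    refine Finset.card_image_le.trans ?_
    rw [Finset.card_product]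
  refine le_trans (coveringNumber_le (t := cov) ?_) hcard
  intro w hw
  have hw1 : nw w ≤ 1 := mem_polar_cube_iff.mp hw
  have hA : 1 / ρ ≤ ((667 * f.card : ℕ) : ℝ) := by
    rw [hρ]
    push_cast
    rw [one_div_div]
    rw [div_le_iff₀ (by norm_num)]
    nlinarith
  obtain ⟨p, hp, hpw⟩ := exists_grid_approx hw1 hρ0 hA
  set e : EuclideanSpace ℝ ↥f := w - gridPt ρ p with he
  -- the lifted error
  set ye : EuclideanSpace ℝ ι :=
    WithLp.toLp 2 (fun i => if h : i ∈ f then e ⟨i, h⟩ / z i else 0) with hye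
  have hyeapply : ∀ i, ye i = if h : i ∈ f then e ⟨i, h⟩ / z i else 0 := by
    intro i
    simp [hye]
  have hmem : (2000/3 : ℝ) • ye ∈ polarBody L := by
    apply c.sL' _ hy₀
    intro i
    simp only [PiLp.smul_apply, smul_eq_mul, abs_mul]
    rw [hyeapply]
    by_cases h : i ∈ f
    · simp only [h, dite_true]
      have h1 := hpw ⟨i, h⟩
      have h2 := hzpos i h
      have h3 : y₀ i = (f.card : ℝ)⁻¹ / z i := by
        rw [← hzy i h]
        field_simp
      rw [h3, abs_of_pos (by norm_num : (0:ℝ) < 2000/3), abs_div (e ⟨i, h⟩), abs_of_pos h2,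
        abs_of_pos (div_pos (inv_pos.mpr hd) h2)]
      rw [← mul_div_assoc]
      apply div_le_div_of_nonneg_right _ h2.le
      calc (2000/3 : ℝ) * |e ⟨i, h⟩| ≤ (2000/3 : ℝ) * ρ :=
            mul_le_mul_of_nonneg_left h1 (by norm_num)
        _ = (f.card : ℝ)⁻¹ := by
            rw [hρ]
            field_simp
    · simp only [h, dite_false, abs_zero, mul_zero]
      exact abs_nonneg _
  have hcv := c.cov hmem
  simp only [Set.mem_iUnion, exists_prop] at hcv
  obtain ⟨c', hc', hcz⟩ := hcv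
  obtain ⟨b, hb, hbz⟩ := Set.mem_vadd_set.mp hcz
  obtain ⟨k, hk, rfl⟩ := Set.mem_smul_set.mp hb
  have hpiye : piZ f z ye = e := by
    ext v
    rw [piZ_apply, hyeapply]
    simp only [v.2, dite_true]
    have := hzne v.1 v.2
    field_simp
  have heq : (2000/3 : ℝ) • e = piZ f z c' + (3:ℝ)⁻¹ • piZ f z k := by
    rw [← hpiye, ← map_smul, ← hbz]
    simp only [vadd_eq_add, map_add, map_smul]
  have hpol : piZ f z k ∈ polarBody ((extZ f z) ⁻¹' K) := by
    intro u hu
    rw [← inner_extZ]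
    exact hk _ hu
  simp only [Set.mem_iUnion, exists_prop]
  refine ⟨gridPt ρ p + (3/2000 : ℝ) • piZ f z c', ?_, ?_⟩
  · exact Finset.mem_image.mpr ⟨(p, c'), Finset.mem_product.mpr ⟨hp, hc'⟩, rfl⟩
  · refine Set.mem_vadd_set.mpr ⟨(2000:ℝ)⁻¹ • piZ f z k, Set.smul_mem_smul_set hpol, ?_⟩
    have he2 : e = (3/2000 : ℝ) • ((2000/3 : ℝ) • e) := by
      rw [smul_smul]
      norm_num
    have hw2 : w = gridPt ρ p + e := by
      rw [he]
      abel
    rw [hw2, he2, heq]
    simp only [vadd_eq_add, smul_add, smul_smul]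
    norm_num
    abel

/-- The entropy of the section on `f`. -/
theorem low_dim {K L : Set (EuclideanSpace ℝ ι)} {t : Finset (EuclideanSpace ℝ ι)}
    (c : Ctx K L t) (f : Finset ι) :
    ∃ P : Finset (EuclideanSpace ℝ ι),
      Real.log P.card ≤ 600 * (Real.log t.card + 500 * f.card) ∧
      ∀ x ∈ K, ∃ p ∈ P, restr f x - p ∈ L := by
  classical
  have hlogt : 0 ≤ Real.log t.card := Real.log_natCast_nonneg _
  rcases Nat.eq_zero_or_pos f.card with hf | hf
  · refine ⟨{0}, ?_, ?_⟩
    · simp only [Finset.card_singleton, Nat.cast_one, Real.log_one, hf, Nat.cast_zero, mul_zero,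
        add_zero]
      positivity
    · intro x _
      refine ⟨0, Finset.mem_singleton_self _, ?_⟩
      have hfe : f = ∅ := Finset.card_eq_zero.mp hf
      have : restr f x - 0 = 0 := by
        ext i
        simp [hfe]
      rw [this]
      exact c.hL.zero_mem
  have hd : (0:ℝ) < f.card := by exact_mod_cast hf
  -- the factorization
  have hnw : nw ((f.card : ℝ)⁻¹ • ind f) ≤ 1 := by
    unfold nw
    have h1 : ∑ i, |((f.card : ℝ)⁻¹ • ind f) i| = ∑ i, if i ∈ f then (f.card : ℝ)⁻¹ else 0 := by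
      apply Finset.sum_congr rfl
      intro i _
      by_cases h : i ∈ f
      · simp [h, abs_of_pos hd]
      · simp [h]
    rw [h1, Finset.sum_ite_mem, Finset.univ_inter, Finset.sum_const, nsmul_eq_mul]
    rw [mul_inv_cancel₀ hd.ne']
  obtain ⟨z, hzL, y₀, hy₀, hz0, hzy⟩ := lozanovskii c.hL c.sL hnw
  have hzy' : ∀ i ∈ f, z i * y₀ i = (f.card : ℝ)⁻¹ := by
    intro i hi
    have := hzy i
    simp only [PiLp.smul_apply, smul_eq_mul, ind_apply, hi, if_true, mul_one] at this
    exact this.symm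
  have hzne : ∀ i ∈ f, z i ≠ 0 := by
    intro i hi h
    have := hzy' i hi
    rw [h, zero_mul] at this
    have h2 : (f.card : ℝ)⁻¹ ≠ 0 := (inv_pos.mpr hd).ne'
    exact h2 this.symm
  obtain ⟨hK', hs'⟩ := pullback_props c.hK c.sK hzne
  have hfw := forward_solid hK' hs'
  have hcovnum := cover_l1 c hf hy₀ hzy' hz0
  -- finite cover of the pull-back by the cube
  obtain ⟨ε, hε, hball⟩ := (isSymBody_cube (ι := ↥f)).exists_ball_subset
  obtain ⟨t', ht'c, ht'⟩ := exists_cover_card_eq
    (exists_finite_cover hK'.isCompact hε hball)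
  refine ⟨t'.image (extZ f z), ?_, ?_⟩
  · have h1 : Real.log (t'.image (extZ f z)).card ≤ Real.log t'.card :=
      log_nat_mono Finset.card_image_le
    rw [ht'c] at h1
    refine h1.trans (hfw.trans ?_)
    apply mul_le_mul_of_nonneg_left _ (by norm_num)
    have h2 := log_nat_mono hcovnum
    refine h2.trans ?_
    have hg0 : (0:ℝ) < (gridSet ↥f (667 * f.card)).card := by
      have hnonempty : (gridSet ↥f (667 * f.card)).Nonempty := by
        refine ⟨fun _ => (true, 0), Finset.mem_filter.mpr ⟨?_, by simp⟩⟩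
        rw [Fintype.mem_piFinset]
        intro v
        simp
      exact_mod_cast Finset.card_pos.mpr hnonempty
    have ht0 : (0:ℝ) < t.card := by exact_mod_cast c.card_pos
    push_cast
    rw [Real.log_mul hg0.ne' ht0.ne']
    have hg := card_gridSet (κ := ↥f) (667 * f.card)
    have hg2 := Real.log_le_log hg0 hg
    rw [Real.log_mul (by positivity) (by positivity), Real.log_pow, Real.log_pow] at hg2
    rw [Fintype.card_coe] at hg2
    have hlog4 : Real.log 4 = 2 * Real.log 2 := by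
      rw [show (4:ℝ) = 2^2 by norm_num, Real.log_pow]
      norm_num
    rw [hlog4] at hg2
    have hlog2 := Real.log_two_lt_d9
    push_cast at hg2
    have h5 : (f.card : ℝ) * (2 * Real.log 2) + 667 * f.card * Real.log 2 ≤ 500 * f.card := by
      have : (f.card : ℝ) * (2 * Real.log 2) + 667 * f.card * Real.log 2 =
          f.card * (669 * Real.log 2) := by ring
      rw [this, mul_comm (500:ℝ)]
      apply mul_le_mul_of_nonneg_left _ hd.le
      linarith
    linarith
  · intro x hx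
    have hux : unextZ f z x ∈ (extZ f z) ⁻¹' K := by
      show extZ f z (unextZ f z x) ∈ K
      rw [extZ_unextZ hzne]
      exact c.sK.restr hx f
    have := ht' hux
    simp only [Set.mem_iUnion, exists_prop] at this
    obtain ⟨c'', hc'', hcz⟩ := this
    obtain ⟨b, hb, hbz⟩ := Set.mem_vadd_set.mp hcz
    refine ⟨extZ f z c'', Finset.mem_image_of_mem _ hc'', ?_⟩
    have h1 : restr f x - extZ f z c'' = extZ f z b := by
      rw [← extZ_unextZ hzne, ← hbz]
      simp only [vadd_eq_add, map_add]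
      abel
    rw [h1]
    apply c.sL z hzL
    intro i
    rw [extZ_apply]
    by_cases h : i ∈ f
    · simp only [h, dite_true, abs_mul]
      have := hb ⟨i, h⟩
      have h3 := abs_nonneg (z i)
      nlinarith
    · simp only [h, dite_false, abs_zero]
      exact abs_nonneg _

end Vale.Agent.P126
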