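import Vale.Agent.P126.Box

/-! Lozanovskii factorization of the `ℓ¹` ball through a solid body and its polar. -/

namespace Vale.Agent.P126

open scoped Pointwise
open Finset

set_option linter.unusedSectionVars false

variable {ι : Type*} [Fintype ι] [DecidableEq ι]

/-- An elementary lower bound for the logarithm. -/
lemma log_one_add_ge {s : ℝ} (hs : -(1/2) ≤ s) : s - 2 * s ^ 2 ≤ Real.log (1 + s) := by
  have h1 : 0 < 1 + s := by linarith
  have h2 := Real.one_sub_inv_le_log_of_pos h1
  refine le_trans ?_ h2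
  have h3 : 1 - (1 + s)⁻¹ = s / (1 + s) := by
    field_simp
    ring
  rw [h3, le_div_iff₀ h1]
  nlinarith [sq_nonneg s, mul_nonneg (sq_nonneg s) (by linarith : 0 ≤ 1/2 + s)]

/-- The first order condition, in elementary form. -/
lemma first_order_of_small {S : Finset ι} {p v : ι → ℝ} (hp : ∀ i ∈ S, 0 < p i)
    (hsmall : ∀ t : ℝ, 0 < t → t < 1 → (∀ i ∈ S, t * |v i - 1| ≤ 1/2) →
      ∑ i ∈ S, p i * Real.log (1 + t * (v i - 1)) ≤ 0) :
    ∑ i ∈ S, p i * (v i - 1) ≤ 0 := by
  set A : ℝ := ∑ i ∈ S, p i * (v i - 1) with hA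
  set B : ℝ := ∑ i ∈ S, p i * (v i - 1) ^ 2 with hB
  set M : ℝ := ∑ i ∈ S, |v i - 1| + 1 with hM
  have hB0 : 0 ≤ B := Finset.sum_nonneg (fun i hi => mul_nonneg (hp i hi).le (sq_nonneg _))
  have hM1 : 1 ≤ M := by
    have : 0 ≤ ∑ i ∈ S, |v i - 1| := Finset.sum_nonneg (fun _ _ => abs_nonneg _)
    linarith
  have hMi : ∀ i ∈ S, |v i - 1| ≤ M := by
    intro i hi
    have : |v i - 1| ≤ ∑ i ∈ S, |v i - 1| :=
      Finset.single_le_sum (f := fun i => |v i - 1|) (fun _ _ => abs_nonneg _) hi
    linarith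
  have hkey : ∀ t : ℝ, 0 < t → t ≤ 1 / (2 * M) → A ≤ 2 * t * B := by
    intro t ht0 ht1
    have hM0 : 0 < M := by linarith
    have ht2 : t ≤ 1/2 := by
      refine ht1.trans ?_
      rw [div_le_div_iff₀ (by positivity) (by norm_num)]
      linarith
    have htv : ∀ i ∈ S, t * |v i - 1| ≤ 1/2 := by
      intro i hi
      calc t * |v i - 1| ≤ 1 / (2 * M) * M :=
            mul_le_mul ht1 (hMi i hi) (abs_nonneg _) (by positivity)
        _ = 1/2 := by field_simp
    have h1 := hsmall t ht0 (by linarith) htv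
    have h2 : ∑ i ∈ S, p i * (t * (v i - 1) - 2 * (t * (v i - 1)) ^ 2) ≤ 0 := by
      refine le_trans (Finset.sum_le_sum ?_) h1
      intro i hi
      apply mul_le_mul_of_nonneg_left _ (hp i hi).le
      apply log_one_add_ge
      have := htv i hi
      have h3 : t * (v i - 1) = -(t * (-(v i - 1))) := by ring
      have h4 : |t * (v i - 1)| ≤ 1/2 := by
        rw [abs_mul, abs_of_pos ht0]; exact this
      exact (abs_le.mp h4).1
    have h3 : ∑ i ∈ S, p i * (t * (v i - 1) - 2 * (t * (v i - 1)) ^ 2) =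
        t * A - 2 * t ^ 2 * B := by
      rw [hA, hB, Finset.mul_sum, Finset.mul_sum, ← Finset.sum_sub_distrib]
      apply Finset.sum_congr rfl
      intro i _
      ring
    rw [h3] at h2
    have h4 : t * A ≤ t * (2 * t * B) := by nlinarith
    exact le_of_mul_le_mul_left h4 ht0
  by_contra hAneg
  push Not at hAneg
  have hM0 : 0 < M := by linarith
  set t : ℝ := min (1 / (2 * M)) (A / (4 * B + 1)) with ht
  have ht0 : 0 < t := lt_min (by positivity) (by positivity)
  have h1 := hkey t ht0 (min_le_left _ _)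
  have h2 : t ≤ A / (4 * B + 1) := min_le_right _ _
  have h3 : t * (4 * B + 1) ≤ A := by
    rwa [le_div_iff₀ (by positivity)] at h2
  nlinarith [mul_nonneg ht0.le hB0]

/-- Factorization of vectors in the `ℓ¹` ball. -/
theorem lozanovskii {K : Set (EuclideanSpace ℝ ι)} (hK : IsSymBody K) (hs : Solid K)
    {y : EuclideanSpace ℝ ι} (hy : nw y ≤ 1) :
    ∃ x ∈ K, ∃ x' ∈ polarBody K, (∀ i, 0 ≤ x i) ∧ ∀ i, y i = x i * x' i := by
  classical
  let S : Finset ι := Finset.univ.filter (fun i => y i ≠ 0)
  let p : ι → ℝ := fun i => |y i|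
  have hp : ∀ i ∈ S, 0 < p i := fun i hi => abs_pos.mpr (Finset.mem_filter.mp hi).2
  have hpsum : ∑ i ∈ S, p i ≤ 1 := by
    refine le_trans ?_ hy
    exact Finset.sum_le_sum_of_subset_of_nonneg (Finset.subset_univ _)
      (fun _ _ _ => abs_nonneg _)
  let Kp : Set (EuclideanSpace ℝ ι) := K ∩ {x | ∀ i, 0 ≤ x i}
  have hclosed : IsClosed {x : EuclideanSpace ℝ ι | ∀ i, 0 ≤ x i} := by
    have : {x : EuclideanSpace ℝ ι | ∀ i, 0 ≤ x i} = ⋂ i, {x | 0 ≤ x i} := by
      ext x; simp
    rw [this]
    apply isClosed_iInter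
    intro i
    exact isClosed_le continuous_const (by fun_prop)
  have hKp : IsCompact Kp := hK.isCompact.inter_right hclosed
  have hKpne : Kp.Nonempty := ⟨0, hK.zero_mem, fun i => by simp⟩
  let Ψ : EuclideanSpace ℝ ι → ℝ := fun x => ∏ i ∈ S, (x i) ^ (p i)
  have hΨ : Continuous Ψ := by
    apply continuous_finsetProd
    intro i hi
    exact (Real.continuous_rpow_const (hp i hi).le).comp (by fun_prop)
  obtain ⟨a, ha, hamax⟩ := hKp.exists_isMaxOn hKpne hΨ.continuousOn
  -- a point with positive coordinates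
  obtain ⟨ρ, hρ, hball⟩ := hK.exists_ball_subset
  let e : EuclideanSpace ℝ ι := WithLp.toLp 2 (fun _ => (1:ℝ))
  set δ : ℝ := ρ / (‖e‖ + 1) with hδ
  have hδ0 : 0 < δ := by positivity
  have hδe : δ • e ∈ Kp := by
    refine ⟨hball ?_, fun i => ?_⟩
    · rw [mem_ball_zero_iff, norm_smul, Real.norm_of_nonneg hδ0.le, hδ]
      have hne : 0 ≤ ‖e‖ := norm_nonneg _
      rw [div_mul_eq_mul_div, div_lt_iff₀ (by positivity)]
      nlinarith
    · simp [e, hδ0.le]
  have hΨa : 0 < Ψ a := by
    have h1 : Ψ (δ • e) ≤ Ψ a := hamax hδe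
    have h2 : 0 < Ψ (δ • e) := by
      apply Finset.prod_pos
      intro i _
      apply Real.rpow_pos_of_pos
      simp [e, hδ0]
    linarith
  have hapos : ∀ i ∈ S, 0 < a i := by
    intro i hi
    have h0 : 0 ≤ a i := ha.2 i
    rcases h0.lt_or_eq with h | h
    · exact h
    · exfalso
      have : Ψ a = 0 := by
        apply Finset.prod_eq_zero hi
        rw [← h, Real.zero_rpow (hp i hi).ne']
      linarith
  -- first order condition
  have hfirst : ∀ u ∈ Kp, ∑ i ∈ S, p i * (u i / a i) ≤ 1 := by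
    intro u hu
    have hmain : ∑ i ∈ S, p i * (u i / a i - 1) ≤ 0 := by
      apply first_order_of_small hp
      intro t ht0 ht1 hsm
      -- the convex combination
      let b : EuclideanSpace ℝ ι := (1 - t) • a + t • u
      have hbK : b ∈ Kp := by
        refine ⟨hK.convex ha.1 hu.1 (by linarith) ht0.le (by ring), fun i => ?_⟩
        simp only [b, PiLp.add_apply, PiLp.smul_apply, smul_eq_mul]
        have h1 := ha.2 i
        have h2 := hu.2 i
        have h3 : 0 ≤ 1 - t := by linarith
        positivity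
      have hbi : ∀ i ∈ S, b i = a i * (1 + t * (u i / a i - 1)) := by
        intro i hi
        have := (hapos i hi).ne'
        simp only [b, PiLp.add_apply, PiLp.smul_apply, smul_eq_mul]
        field_simp
        ring
      have hone : ∀ i ∈ S, 0 < 1 + t * (u i / a i - 1) := by
        intro i hi
        have h1 := hsm i hi
        have h2 : |t * (u i / a i - 1)| ≤ 1/2 := by
          rw [abs_mul, abs_of_pos ht0]; exact h1
        have := (abs_le.mp h2).1
        linarith
      have hbpos : ∀ i ∈ S, 0 < b i := by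
        intro i hi
        rw [hbi i hi]
        exact mul_pos (hapos i hi) (hone i hi)
      have hle : Ψ b ≤ Ψ a := hamax hbK
      have hlogΨ : ∀ c : EuclideanSpace ℝ ι, (∀ i ∈ S, 0 < c i) →
          Real.log (Ψ c) = ∑ i ∈ S, p i * Real.log (c i) := by
        intro c hc
        simp only [Ψ]
        rw [Real.log_prod (fun i hi => (Real.rpow_pos_of_pos (hc i hi) _).ne')]
        apply Finset.sum_congr rfl
        intro i hi
        rw [Real.log_rpow (hc i hi)]
      have hΨb : 0 < Ψ b := Finset.prod_pos (fun i hi => Real.rpow_pos_of_pos (hbpos i hi) _)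
      have h1 := Real.log_le_log hΨb hle
      rw [hlogΨ b hbpos, hlogΨ a hapos] at h1
      have h2 : ∑ i ∈ S, p i * Real.log (b i) = ∑ i ∈ S, p i * Real.log (a i) +
          ∑ i ∈ S, p i * Real.log (1 + t * (u i / a i - 1)) := by
        rw [← Finset.sum_add_distrib]
        apply Finset.sum_congr rfl
        intro i hi
        rw [hbi i hi, Real.log_mul (hapos i hi).ne' (hone i hi).ne']
        ring
      linarith
    have h3 : ∑ i ∈ S, p i * (u i / a i - 1) = ∑ i ∈ S, p i * (u i / a i) - ∑ i ∈ S, p i := by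
      rw [← Finset.sum_sub_distrib]
      apply Finset.sum_congr rfl
      intro i _
      ring
    rw [h3] at hmain
    linarith
  -- the factorization
  let x' : EuclideanSpace ℝ ι := WithLp.toLp 2 (fun i => y i / a i)
  refine ⟨a, ha.1, x', ?_, ha.2, ?_⟩
  · intro u hu
    let w : EuclideanSpace ℝ ι := WithLp.toLp 2 (fun i => |u i|)
    have hw : w ∈ Kp := by
      refine ⟨hs u hu w (fun i => by simp [w]), fun i => by simp [w]⟩
    have h1 := hfirst w hw
    refine le_trans ?_ h1
    rw [inner_eq_sum]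
    have h2 : ∑ i, u i * x' i = ∑ i ∈ S, u i * x' i := by
      symm
      apply Finset.sum_subset (Finset.subset_univ _)
      intro i _ hi
      have : y i = 0 := by
        by_contra h
        exact hi (Finset.mem_filter.mpr ⟨Finset.mem_univ i, h⟩)
      simp [x', this]
    rw [h2]
    apply Finset.sum_le_sum
    intro i hi
    have h3 := hapos i hi
    simp only [x', w, p]
    calc u i * (y i / a i) = u i * y i / a i := by ring
      _ ≤ |u i * y i| / a i := div_le_div_of_nonneg_right (le_abs_self _) h3.le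
      _ = |y i| * (|u i| / a i) := by rw [abs_mul]; ring
  · intro i
    by_cases hi : y i = 0
    · simp [x', hi]
    · have := (hapos i (Finset.mem_filter.mpr ⟨Finset.mem_univ i, hi⟩)).ne'
      simp only [x']
      field_simp

end Vale.Agent.P126
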