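import Vale.Agent.P126.Core

/-! Assembly: the dimension-free polynomial form of the entropy duality. -/

namespace Vale.Agent.P126

open scoped Pointwise
open Metric
open Classical

set_option linter.unusedSectionVars false

variable {E : Type*} [NormedAddCommGroup E] [InnerProductSpace ℝ E] [FiniteDimensional ℝ E]

/-- A family in `K` separated by `L` is small in terms of the number of translates of
`(1/32) K°` covering `L°`. -/
theorem separated_card_lt {K L : Set E} (hK : IsSymBody K) (hL : IsSymBody L) {t : Finset E}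
    (ht : polarBody L ⊆ ⋃ c ∈ t, c +ᵥ ((32:ℝ)⁻¹ • polarBody K)) {P : Finset E}
    (hP : ∀ p ∈ P, p ∈ K) (hsep : ∀ p ∈ P, ∀ p' ∈ P, p ≠ p' → p - p' ∉ L) {ℓ D : ℕ}
    (hℓ : t.card * (2 * t.card + 1) + 1 ≤ 2 ^ ℓ)
    (hD : ∀ d : ℕ, 27 ^ d ≤ t.card ^ 4 * 16 ^ d → d ≤ D) :
    P.card < 2 * (t.card * (2 * t.card + 1) ^ 2 + 1) ^ (ℓ * D) := by
  obtain ⟨cl, rep, hd⟩ := exists_clusterData hK ht
  have hinj : Set.InjOn (disc rep) (P : Set E) := by
    intro p hp p' hp' heq
    by_contra hne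
    obtain ⟨c, _, hc⟩ := disc_sep hL hd (hP p hp) (hP p' hp') (hsep p hp p' hp' hne)
    rw [heq] at hc
    simp at hc
  have hcard : (P.image (disc rep)).card = P.card := Finset.card_image_of_injOn hinj
  have hIcc : (Finset.Icc (-(t.card : ℤ)) (t.card : ℤ)).card = 2 * t.card + 1 := by
    rw [Int.card_Icc]
    omega
  have hsep2 : Sep2 (P.image (disc rep)) t := by
    intro f hf g hg hfg
    obtain ⟨p, hp, rfl⟩ := Finset.mem_image.mp hf
    obtain ⟨p', hp', rfl⟩ := Finset.mem_image.mp hg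
    have hne : p ≠ p' := fun h => hfg (by rw [h])
    exact disc_sep hL hd (hP p hp) (hP p' hp') (hsep p hp p' hp' hne)
  have hval : ∀ f ∈ P.image (disc rep), ∀ x ∈ t,
      f x ∈ Finset.Icc (-(t.card : ℤ)) (t.card : ℤ) := by
    intro f hf x _
    obtain ⟨p, hp, rfl⟩ := Finset.mem_image.mp hf
    exact disc_mem hL hd (hP p hp) x
  have hshat : ∀ G ∈ shattered (P.image (disc rep)) t
      (Finset.Icc (-(t.card : ℤ)) (t.card : ℤ)), G.card ≤ D := by
    intro G hG
    exact hD _ (shattered_card_bound hK hL hd hP (mem_shattered.mp hG).2)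
  have := card_lt_of_shattered_le (lo := -(t.card : ℤ)) (hi := (t.card : ℤ)) (n := t.card)
    (d := D) (ℓ := ℓ) (le_refl _) hval hsep2 hshat (by rw [hIcc]; exact hℓ)
  rwa [hcard, hIcc] at this

/-- From a bound on separated families to a bound on the covering number. -/
theorem coveringNumber_lt_of_separated {K L : Set E} (hL : IsSymBody L) {B : ℕ}
    (hB : ∀ P : Finset E, (∀ p ∈ P, p ∈ K) → (∀ p ∈ P, ∀ p' ∈ P, p ≠ p' → p - p' ∉ L) →
      P.card < B) :
    coveringNumber K L < B := by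
  let S : Set ℕ := {k | ∃ P : Finset E, (∀ p ∈ P, p ∈ K) ∧
    (∀ p ∈ P, ∀ p' ∈ P, p ≠ p' → p - p' ∉ L) ∧ P.card = k}
  have hne : S.Nonempty := ⟨0, ∅, by simp, by simp, by simp⟩
  have hbdd : BddAbove S := ⟨B, by
    rintro k ⟨P, h1, h2, rfl⟩
    exact (hB P h1 h2).le⟩
  obtain ⟨P, h1, h2, h3⟩ := Nat.sSup_mem hne hbdd
  have hmax : ∀ k ∈ S, k ≤ P.card := by
    intro k hk
    rw [h3]
    exact le_csSup hbdd hk
  have hcov : K ⊆ ⋃ x ∈ P, x +ᵥ L := by
    intro z hz
    by_contra hc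
    simp only [Set.mem_iUnion, exists_prop, not_exists, not_and] at hc
    have hzp : ∀ p ∈ P, z - p ∉ L := by
      intro p hp hzL
      exact hc p hp (Set.mem_vadd_set.mpr ⟨z - p, hzL, by simp⟩)
    have hzP : z ∉ P := by
      intro hzP
      exact hzp z hzP (by simpa using hL.zero_mem)
    have hins : (insert z P).card ∈ S := by
      refine ⟨insert z P, ?_, ?_, rfl⟩
      · intro p hp
        rcases Finset.mem_insert.mp hp with rfl | hp
        · exact hz
        · exact h1 p hp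
      · intro p hp p' hp' hne
        by_cases hpz : p = z
        · by_cases hpz' : p' = z
          · exact absurd (hpz.trans hpz'.symm) hne
          · rw [hpz]
            exact hzp p' ((Finset.mem_insert.mp hp').resolve_left hpz')
        · have hpP := (Finset.mem_insert.mp hp).resolve_left hpz
          by_cases hpz' : p' = z
          · rw [hpz']
            intro hmem
            apply hzp p hpP
            have := hL.neg_mem _ hmem
            simpa using this
          · exact h2 p hpP p' ((Finset.mem_insert.mp hp').resolve_left hpz') hne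
    have := hmax _ hins
    rw [Finset.card_insert_of_notMem hzP] at this
    omega
  calc coveringNumber K L ≤ P.card := coveringNumber_le hcov
    _ < B := hB P h1 h2

lemma half_le_log : (1:ℝ) / 2 ≤ Real.log 27 - Real.log 16 := by
  rw [← Real.log_div (by norm_num) (by norm_num)]
  rw [Real.le_log_iff_exp_le (by norm_num)]
  have h1 : Real.exp (1 / 2) ^ 2 = Real.exp 1 := by
    rw [← Real.exp_nat_mul]
    norm_num
  have h2 := Real.exp_one_lt_d9
  have h3 : 0 < Real.exp (1 / 2) := Real.exp_pos _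
  by_contra hc
  push Not at hc
  have : (27 / 16 : ℝ) ^ 2 < Real.exp (1 / 2) ^ 2 := by
    apply pow_lt_pow_left₀ hc (by norm_num) (by norm_num)
  rw [h1] at this
  norm_num at this
  linarith

/-- Numerical step (a). -/
lemma le_floor_of_pow_le {m d : ℕ} (hm : 1 ≤ m) (h : 27 ^ d ≤ m ^ 4 * 16 ^ d) :
    d ≤ ⌊8 * Real.log m⌋₊ := by
  apply Nat.le_floor
  have hm0 : (0:ℝ) < m := by exact_mod_cast hm
  have h1 : (27:ℝ) ^ d ≤ (m:ℝ) ^ 4 * 16 ^ d := by exact_mod_cast h
  have h2 := Real.log_le_log (by positivity) h1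
  rw [Real.log_pow, Real.log_mul (by positivity) (by positivity), Real.log_pow, Real.log_pow] at h2
  have h3 := half_le_log
  have hd0 : (0:ℝ) ≤ d := Nat.cast_nonneg d
  have h4 : (d:ℝ) * (1 / 2) ≤ d * (Real.log 27 - Real.log 16) :=
    mul_le_mul_of_nonneg_left h3 hd0
  push_cast at h2
  nlinarith

/-- Numerical step (b). -/
lemma card_bound_pow {m : ℕ} (hm : 1 ≤ m) :
    m * (2 * m + 1) + 1 ≤ 2 ^ (2 + 2 * Nat.clog 2 m) := by
  have h := Nat.le_pow_clog (by norm_num : 1 < 2) m
  set x := 2 ^ Nat.clog 2 m with hx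
  have h2 : 2 ^ (2 + 2 * Nat.clog 2 m) = 4 * x ^ 2 := by
    rw [pow_add, pow_mul', hx]
    ring
  rw [h2]
  nlinarith

/-- Numerical step (c): the polynomial inequality. -/
lemma final_numeric {M q : ℕ} {m : ℕ} {D : ℕ} (hm : 1 ≤ m)
    (hD : D = ⌊8 * Real.log m⌋₊) (hq : q = m * (2 * m + 1) ^ 2 + 1)
    (hM : M < 2 * q ^ ((2 + 2 * Nat.clog 2 m) * D)) :
    Real.log M ≤ 100 * Real.log m * (1 + Real.log m) ^ 2 := by
  set l := Real.log m with hl
  have hl0 : 0 ≤ l := Real.log_natCast_nonneg m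
  by_cases hD0 : D = 0
  · rw [hD0] at hM
    simp only [mul_zero, pow_zero, mul_one] at hM
    have : Real.log (M : ℝ) ≤ 0 := by
      interval_cases M <;> simp
    have h2 : 0 ≤ 100 * l * (1 + l) ^ 2 := by positivity
    linarith
  have hD1 : 1 ≤ D := Nat.one_le_iff_ne_zero.mpr hD0
  have h8l : (D : ℝ) ≤ 8 * l := by
    rw [hD]
    exact Nat.floor_le (by positivity)
  have hl8 : 1 / 8 ≤ l := by
    have : (1:ℝ) ≤ D := by exact_mod_cast hD1
    linarith
  have hm2 : 1 < m := by
    by_contra hc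
    have : m = 1 := by omega
    rw [hl, this] at hl8
    norm_num at hl8
  -- bound on the `clog`
  have hcl : ((Nat.clog 2 m : ℕ) : ℝ) ≤ 1 + 1.45 * l := by
    have h1 := Nat.pow_pred_clog_lt_self (by norm_num : 1 < 2) hm2
    have h2 : ((2:ℝ) ^ (Nat.clog 2 m).pred) < m := by exact_mod_cast h1
    have h3 := Real.log_lt_log (by positivity) h2
    rw [Real.log_pow] at h3
    have hlog2 := Real.log_two_gt_d9
    have hcp : 0 < Nat.clog 2 m := Nat.clog_pos (by norm_num) (by omega)
    have hcast : ((Nat.clog 2 m : ℕ) : ℝ) = ((Nat.clog 2 m).pred : ℝ) + 1 := by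
      have : Nat.clog 2 m = (Nat.clog 2 m).pred + 1 := (Nat.succ_pred_eq_of_pos hcp).symm
      exact_mod_cast this
    have hnn : (0:ℝ) ≤ ((Nat.clog 2 m).pred : ℝ) := Nat.cast_nonneg _
    rw [hcast]
    have h5 : ((Nat.clog 2 m).pred : ℝ) * 0.69 ≤ ((Nat.clog 2 m).pred : ℝ) * Real.log 2 :=
      mul_le_mul_of_nonneg_left (by linarith) hnn
    nlinarith
  -- bound on `log q`
  have hmr : (1:ℝ) ≤ m := by exact_mod_cast hm
  have hq10 : (q : ℝ) ≤ 10 * (m:ℝ) ^ 3 := by
    rw [hq]
    push_cast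
    nlinarith [mul_pos (by linarith : (0:ℝ) < m) (by linarith : (0:ℝ) < m),
      mul_nonneg (by linarith : (0:ℝ) ≤ (m:ℝ) - 1) (by positivity : (0:ℝ) ≤ (m:ℝ) * m),
      mul_nonneg (by linarith : (0:ℝ) ≤ (m:ℝ) - 1) (by positivity : (0:ℝ) ≤ (m:ℝ))]
  have hqpos : (0:ℝ) < q := by
    rw [hq]
    positivity
  have hq1 : (1:ℝ) ≤ q := by
    have : 1 ≤ q := by rw [hq]; omega
    exact_mod_cast this
  have hlogq0 : 0 ≤ Real.log q := Real.log_nonneg hq1
  have hlog10 : Real.log 10 ≤ 3 := by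
    rw [Real.log_le_iff_le_exp (by norm_num)]
    have h1 := Real.exp_one_gt_d9
    have : Real.exp 3 = Real.exp 1 ^ 3 := by
      rw [← Real.exp_nat_mul]
      norm_num
    rw [this]
    calc (10:ℝ) ≤ 2.7 ^ 3 := by norm_num
      _ ≤ Real.exp 1 ^ 3 := by
        apply pow_le_pow_left₀ (by norm_num)
        linarith
  have hlogq : Real.log q ≤ 3 + 3 * l := by
    calc Real.log q ≤ Real.log (10 * (m:ℝ) ^ 3) := Real.log_le_log hqpos hq10
      _ = Real.log 10 + 3 * l := by
        rw [Real.log_mul (by norm_num) (by positivity), Real.log_pow]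
        push_cast
        rfl
      _ ≤ 3 + 3 * l := by linarith
  -- assemble
  by_cases hM0 : M = 0
  · subst hM0
    simp only [Nat.cast_zero, Real.log_zero]
    positivity
  have hMpos : (0:ℝ) < M := by
    exact_mod_cast Nat.pos_of_ne_zero hM0
  have hM' : (M:ℝ) ≤ 2 * (q:ℝ) ^ ((2 + 2 * Nat.clog 2 m) * D) := by
    exact_mod_cast hM.le
  have h1 := Real.log_le_log hMpos hM'
  rw [Real.log_mul (by norm_num) (by positivity), Real.log_pow] at h1
  push_cast at h1
  have hlog2 : Real.log 2 ≤ 0.7 := by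
    have := Real.log_two_lt_d9
    linarith
  have hA : (2 + 2 * ((Nat.clog 2 m : ℕ) : ℝ)) ≤ 4 + 2.9 * l := by linarith
  have hA0 : (0:ℝ) ≤ 2 + 2 * ((Nat.clog 2 m : ℕ) : ℝ) := by positivity
  have hprod : (2 + 2 * ((Nat.clog 2 m : ℕ) : ℝ)) * (D : ℝ) * Real.log q ≤
      (4 + 2.9 * l) * (8 * l) * (3 + 3 * l) := by
    apply mul_le_mul _ hlogq hlogq0 (by positivity)
    exact mul_le_mul hA h8l (Nat.cast_nonneg _) (by positivity)
  have hpoly : 0.7 + (4 + 2.9 * l) * (8 * l) * (3 + 3 * l) ≤ 100 * l * (1 + l) ^ 2 := by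
    nlinarith [mul_nonneg hl0 hl0, mul_nonneg (mul_nonneg hl0 hl0) hl0,
      mul_nonneg (by linarith : (0:ℝ) ≤ l - 1/8) hl0,
      mul_nonneg (by linarith : (0:ℝ) ≤ l - 1/8) (mul_nonneg hl0 hl0)]
  linarith

/-- The main bound. -/
theorem log_coveringNumber_le {K L : Set E} (hK : IsSymBody K) (hL : IsSymBody L) :
    Real.log (coveringNumber K L) ≤
      100 * Real.log (coveringNumber (polarBody L) ((32:ℝ)⁻¹ • polarBody K)) *
        (1 + Real.log (coveringNumber (polarBody L) ((32:ℝ)⁻¹ • polarBody K))) ^ 2 := by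
  have hbody := hK.polarBody.smul (by norm_num : (0:ℝ) < (32:ℝ)⁻¹)
  obtain ⟨ε, hε, hball⟩ := hbody.exists_ball_subset
  obtain ⟨t, ht1, ht2⟩ := exists_cover_card_eq (exists_finite_cover hL.polarBody.isCompact hε hball)
  rw [← ht1]
  have hm : 1 ≤ t.card := by
    have h0 := ht2 (zero_mem_polarBody L)
    simp only [Set.mem_iUnion, exists_prop] at h0
    obtain ⟨c, hc, _⟩ := h0
    exact Finset.card_pos.mpr ⟨c, hc⟩
  have hlt : coveringNumber K L <
      2 * (t.card * (2 * t.card + 1) ^ 2 + 1) ^ ((2 + 2 * Nat.clog 2 t.card) *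
        ⌊8 * Real.log t.card⌋₊) :=
    coveringNumber_lt_of_separated hL fun P hP hsep =>
      separated_card_lt hK hL ht2 hP hsep (card_bound_pow hm)
        (fun _ hd => le_floor_of_pow_le hm hd)
  exact final_numeric hm rfl rfl hlt

/-- The dual form. -/
theorem log_coveringNumber_polar_le {K L : Set E} (hK : IsSymBody K) (hL : IsSymBody L) :
    Real.log (coveringNumber (polarBody L) ((32:ℝ) • polarBody K)) ≤
      100 * Real.log (coveringNumber K L) * (1 + Real.log (coveringNumber K L)) ^ 2 := by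
  have h := log_coveringNumber_le hL.polarBody (hK.polarBody.smul (by norm_num : (0:ℝ) < 32))
  rw [polarBody_smul (by norm_num : (0:ℝ) < 32), polarBody_polarBody hK, polarBody_polarBody hL,
    coveringNumber_smul _ _ (by norm_num : (32:ℝ)⁻¹ ≠ 0)] at h
  exact h

end Vale.Agent.P126
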