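import Vale.Agent.P126.Packing

/-! Counting the sets that are contained in most members of a flat mixture of small sets. -/

namespace Vale.Agent.P126

open Finset

variable {α : Type*} [DecidableEq α]

/-- Markov inequality for one member of the family. -/
lemma majority_markov {𝓖 : Finset (Finset α)} {f : Finset α} {w : α → ℝ} {lam : Finset α → ℝ}
    {b : ℝ} (hb : 0 < b) (hw : ∀ v ∈ f, 0 ≤ w v) (ha : 0 < ∑ v ∈ f, w v)
    (hl0 : ∀ G, 0 ≤ lam G) (hl1 : ∑ G ∈ 𝓖, lam G = 1) (hl2 : ∀ G ∈ 𝓖, lam G ≤ 1 / b)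
    (hl3 : ∀ v ∈ f, ∑ G ∈ 𝓖 with v ∉ G, lam G ≤ 1 / 4) :
    b / 2 ≤ ((𝓖.filter (fun G => ∑ v ∈ f \ G, w v ≤ (1/2) * ∑ v ∈ f, w v)).card : ℝ) := by
  classical
  set a : ℝ := ∑ v ∈ f, w v with haa
  set c : Finset α → ℝ := fun G => ∑ v ∈ f \ G, w v with hc
  have hc0 : ∀ G, 0 ≤ c G := fun G =>
    Finset.sum_nonneg (fun v hv => hw v (Finset.mem_sdiff.mp hv).1)
  have hcite : ∀ G, c G = ∑ v ∈ f, if v ∉ G then w v else 0 := by
    intro G
    simp only [hc]
    rw [Finset.sdiff_eq_filter, Finset.sum_filter]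
  have h1 : ∑ G ∈ 𝓖, lam G * c G ≤ a / 4 := by
    have h2 : ∑ G ∈ 𝓖, lam G * c G = ∑ v ∈ f, w v * ∑ G ∈ 𝓖 with v ∉ G, lam G := by
      simp only [hcite]
      simp only [Finset.mul_sum]
      rw [Finset.sum_comm]
      apply Finset.sum_congr rfl
      intro v _
      rw [Finset.sum_filter]
      apply Finset.sum_congr rfl
      intro G _
      by_cases hv : v ∈ G
      · simp [hv]
      · simp [hv, mul_comm]
    rw [h2]
    calc ∑ v ∈ f, w v * ∑ G ∈ 𝓖 with v ∉ G, lam G ≤ ∑ v ∈ f, w v * (1/4) :=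
          Finset.sum_le_sum (fun v hv => mul_le_mul_of_nonneg_left (hl3 v hv) (hw v hv))
      _ = a / 4 := by rw [← Finset.sum_mul]; ring
  set T : Finset (Finset α) := 𝓖.filter (fun G => c G ≤ (1/2) * a) with hT
  have hsplit : ∑ G ∈ T, lam G + ∑ G ∈ 𝓖.filter (fun G => ¬ c G ≤ (1/2) * a), lam G = 1 := by
    rw [Finset.sum_filter_add_sum_filter_not, hl1]
  have h3 : (∑ G ∈ 𝓖.filter (fun G => ¬ c G ≤ (1/2) * a), lam G) * ((1/2) * a) ≤ a / 4 := by
    refine le_trans ?_ h1
    rw [Finset.sum_mul]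
    refine le_trans (Finset.sum_le_sum (g := fun G => lam G * c G) ?_) ?_
    · intro G hG
      apply mul_le_mul_of_nonneg_left _ (hl0 G)
      exact (not_le.mp (Finset.mem_filter.mp hG).2).le
    · apply Finset.sum_le_sum_of_subset_of_nonneg (Finset.filter_subset _ _)
      intro G _ _
      exact mul_nonneg (hl0 G) (hc0 G)
  have h4 : ∑ G ∈ 𝓖.filter (fun G => ¬ c G ≤ (1/2) * a), lam G ≤ 1 / 2 := by
    by_contra hcon
    have hcon' := not_le.mp hcon
    have : (1/2 : ℝ) * ((1/2) * a) < (∑ G ∈ 𝓖.filter (fun G => ¬ c G ≤ (1/2) * a), lam G) *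
        ((1/2) * a) := mul_lt_mul_of_pos_right hcon' (by positivity)
    linarith
  have h5 : (1/2 : ℝ) ≤ ∑ G ∈ T, lam G := by linarith
  have h6 : ∑ G ∈ T, lam G ≤ ∑ _G ∈ T, (1 / b) :=
    Finset.sum_le_sum (fun G hG => hl2 G (Finset.mem_filter.mp hG).1)
  rw [Finset.sum_const, nsmul_eq_mul] at h6
  have h7 : (1/2 : ℝ) ≤ T.card * (1 / b) := h5.trans h6
  rw [mul_one_div, le_div_iff₀ hb] at h7
  linarith

/-- The count of majority sets. -/
theorem majority_bound (S : Finset α) {𝓗 𝓖 : Finset (Finset α)} (hS : ∀ F ∈ 𝓗, F ⊆ S)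
    (hne : 𝓗.Nonempty) (hdown : ∀ F ∈ 𝓗, ∀ G, G ⊆ F → G ∈ 𝓗) {d : ℕ}
    (hG : ∀ G ∈ 𝓖, G.card ≤ d) {b : ℝ} (hb : 0 < b)
    (hlam : ∀ f ∈ 𝓗, ∃ lam : Finset α → ℝ, (∀ G, 0 ≤ lam G) ∧ (∑ G ∈ 𝓖, lam G = 1) ∧
      (∀ G ∈ 𝓖, lam G ≤ 1 / b) ∧ ∀ v ∈ f, ∑ G ∈ 𝓖 with v ∉ G, lam G ≤ 1 / 4) :
    Real.log 𝓗.card ≤ 10 * (Real.log (8 * 𝓖.card / b) + d * Real.log 2) := by
  classical
  have hcardpos : (0 : ℝ) < 𝓗.card := by exact_mod_cast Finset.card_pos.mpr hne
  set L : ℝ := Real.log 𝓗.card with hLdef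
  have hL0 : 0 ≤ L := Real.log_natCast_nonneg _
  have hexpL : Real.exp L = 𝓗.card := Real.exp_log hcardpos
  have hlog2 : (0:ℝ) < Real.log 2 := Real.log_pos (by norm_num)
  -- the family is large
  have hGb : b ≤ 𝓖.card := by
    obtain ⟨f, hf⟩ := hne
    obtain ⟨lam, _, h1, h2, _⟩ := hlam f hf
    have h3 : ∑ G ∈ 𝓖, lam G ≤ ∑ _G ∈ 𝓖, (1 / b) := Finset.sum_le_sum h2
    rw [Finset.sum_const, nsmul_eq_mul, h1, mul_one_div, le_div_iff₀ hb] at h3
    linarith
  have hGpos : (0:ℝ) < 𝓖.card := lt_of_lt_of_le hb hGb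
  have hratio : 0 < 8 * (𝓖.card : ℝ) / b := by positivity
  have hlogr : 0 ≤ Real.log (8 * 𝓖.card / b) := by
    apply Real.log_nonneg
    rw [le_div_iff₀ hb]
    linarith
  have hd0 : (0:ℝ) ≤ d := Nat.cast_nonneg _
  rcases hL0.eq_or_lt with hLz | hLpos
  · rw [← hLz]
    have : 0 ≤ d * Real.log 2 := by positivity
    linarith
  obtain ⟨h, h1, h2, h3, h4⟩ := exists_surprisal_weights S 𝓗 hS hne hdown
  rw [← hLdef] at h2 h3
  let good : Finset (Finset α) := 𝓗.filter (fun F => L / 5 ≤ faceSum h F)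
  have hgsub : good ⊆ 𝓗 := Finset.filter_subset _ _
  have hgcard : (𝓗.card : ℝ) ≤ 4 * good.card := by
    have hs : ∑ F ∈ 𝓗, faceSum h F ≤ good.card * L + (𝓗.card - good.card) * (L / 5) := by
      rw [← Finset.sum_filter_add_sum_filter_not 𝓗 (fun F => L / 5 ≤ faceSum h F)]
      have hc : ((𝓗.filter (fun F => ¬ L / 5 ≤ faceSum h F)).card : ℝ) = 𝓗.card - good.card := by
        have := Finset.card_filter_add_card_filter_not (s := 𝓗) (fun F => L / 5 ≤ faceSum h F)
        rw [← this]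
        push_cast
        ring
      have h5 : ∑ F ∈ good, faceSum h F ≤ ∑ _F ∈ good, L :=
        Finset.sum_le_sum (fun F hF => h3 F (hgsub hF))
      have h6 : ∑ F ∈ 𝓗.filter (fun F => ¬ L / 5 ≤ faceSum h F), faceSum h F ≤
          ∑ _F ∈ 𝓗.filter (fun F => ¬ L / 5 ≤ faceSum h F), (L / 5) := by
        apply Finset.sum_le_sum
        intro F hF
        exact (not_le.mp (Finset.mem_filter.mp hF).2).le
      rw [Finset.sum_const, nsmul_eq_mul] at h5 h6
      rw [hc] at h6
      exact add_le_add h5 h6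
    have h7 : (2/5 : ℝ) * 𝓗.card * L ≤ ∑ F ∈ 𝓗, faceSum h F := h2
    have h8 : ((1/5 : ℝ) * 𝓗.card) * L ≤ ((4/5 : ℝ) * good.card) * L := by
      nlinarith
    have h9 := le_of_mul_le_mul_right h8 hLpos
    linarith
  -- the relation between faces and members
  let rel : Finset α → Finset α → Prop := fun f G => ∑ v ∈ f \ G, h f v ≤ (1/2) * faceSum h f
  -- lower bound on the degree of the faces
  have hdegf : ∀ f ∈ good, b / 2 ≤ ((𝓖.filter (rel f)).card : ℝ) := by
    intro f hf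
    obtain ⟨hf1, hf2⟩ := Finset.mem_filter.mp hf
    obtain ⟨lam, hl0, hl1, hl2, hl3⟩ := hlam f hf1
    exact majority_markov hb (fun v hv => hlog2.le.trans (h1 f hf1 v hv))
      (lt_of_lt_of_le (by positivity) hf2) hl0 hl1 hl2 hl3
  -- upper bound on the degree of the members
  have hmom := fun C => (h4 C).trans hexpL.ge
  have hdegG : ∀ G ∈ 𝓖, ((good.filter (fun f => rel f G)).card : ℝ) * Real.exp (L / 10) ≤
      Real.exp L * 2 ^ d := by
    intro G hG'
    have hm := moment_sum (Δ := 𝓗) (N := Real.exp L) hmom G (x := 1) zero_le_one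
    simp only [one_pow, mul_one] at hm
    have h5 : ((good.filter (fun f => rel f G)).card : ℝ) * Real.exp (L / 10) ≤
        ∑ F ∈ 𝓗, Real.exp (∑ v ∈ F ∩ G, h F v) := by
      calc ((good.filter (fun f => rel f G)).card : ℝ) * Real.exp (L / 10)
          = ∑ _f ∈ good.filter (fun f => rel f G), Real.exp (L / 10) := by
            rw [Finset.sum_const, nsmul_eq_mul]
        _ ≤ ∑ f ∈ good.filter (fun f => rel f G), Real.exp (∑ v ∈ f ∩ G, h f v) := by
            apply Finset.sum_le_sum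
            intro f hf
            obtain ⟨hf1, hf2⟩ := Finset.mem_filter.mp hf
            apply Real.exp_le_exp.mpr
            have h6 := (Finset.mem_filter.mp hf1).2
            have h7 := faceSum_split h f G
            have h8 : ∑ v ∈ f \ G, h f v ≤ (1/2) * faceSum h f := hf2
            linarith
        _ ≤ ∑ F ∈ 𝓗, Real.exp (∑ v ∈ F ∩ G, h F v) := by
            apply Finset.sum_le_sum_of_subset_of_nonneg
            · exact (Finset.filter_subset _ _).trans hgsub
            · intro _ _ _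
              exact (Real.exp_pos _).le
    refine h5.trans (hm.trans ?_)
    apply mul_le_mul_of_nonneg_left _ (Real.exp_pos _).le
    have : (1 + 1 : ℝ) = 2 := by norm_num
    rw [this]
    exact pow_le_pow_right₀ (by norm_num) (hG G hG')
  -- double counting
  have hdc : (good.card : ℝ) * (b / 2) ≤ 𝓖.card * (2 ^ d * Real.exp ((9/10) * L)) := by
    have h5 : (good.card : ℝ) * (b / 2) ≤ ∑ f ∈ good, ((𝓖.filter (rel f)).card : ℝ) := by
      calc (good.card : ℝ) * (b / 2) = ∑ _f ∈ good, (b / 2) := by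
            rw [Finset.sum_const, nsmul_eq_mul]
        _ ≤ _ := Finset.sum_le_sum hdegf
    have h6 : ∑ f ∈ good, ((𝓖.filter (rel f)).card : ℝ) =
        ∑ G ∈ 𝓖, ((good.filter (fun f => rel f G)).card : ℝ) := by
      have := Finset.sum_card_bipartiteAbove_eq_sum_card_bipartiteBelow (s := good) (t := 𝓖) rel
      simp only [Finset.bipartiteAbove, Finset.bipartiteBelow] at this
      exact_mod_cast this
    have h7 : ∀ G ∈ 𝓖, ((good.filter (fun f => rel f G)).card : ℝ) ≤
        2 ^ d * Real.exp ((9/10) * L) := by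
      intro G hG'
      have h8 := hdegG G hG'
      have h9 : Real.exp L = Real.exp ((9/10) * L) * Real.exp (L / 10) := by
        rw [← Real.exp_add]
        congr 1
        ring
      rw [h9] at h8
      have h10 : ((good.filter (fun f => rel f G)).card : ℝ) * Real.exp (L / 10) ≤
          (2 ^ d * Real.exp ((9/10) * L)) * Real.exp (L / 10) := by
        calc _ ≤ _ := h8
          _ = _ := by ring
      exact le_of_mul_le_mul_right h10 (Real.exp_pos _)
    rw [h6] at h5
    refine h5.trans ?_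
    calc ∑ G ∈ 𝓖, ((good.filter (fun f => rel f G)).card : ℝ)
        ≤ ∑ _G ∈ 𝓖, (2 ^ d * Real.exp ((9/10) * L)) := Finset.sum_le_sum h7
      _ = _ := by rw [Finset.sum_const, nsmul_eq_mul]
  -- the conclusion
  have hfin : Real.exp (L / 10) ≤ (8 * 𝓖.card / b) * 2 ^ d := by
    have h5 : Real.exp L * (b / 8) ≤ 𝓖.card * (2 ^ d * Real.exp ((9/10) * L)) := by
      rw [hexpL]
      have : (𝓗.card : ℝ) * (b / 8) ≤ (4 * good.card) * (b / 8) :=
        mul_le_mul_of_nonneg_right hgcard (by positivity)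
      calc _ ≤ _ := this
        _ = (good.card : ℝ) * (b / 2) := by ring
        _ ≤ _ := hdc
    have h9 : Real.exp L = Real.exp (L / 10) * Real.exp ((9/10) * L) := by
      rw [← Real.exp_add]
      congr 1
      ring
    rw [h9] at h5
    have h10 : (Real.exp (L / 10) * (b / 8)) * Real.exp ((9/10) * L) ≤
        (𝓖.card * 2 ^ d) * Real.exp ((9/10) * L) := by
      calc _ = Real.exp (L / 10) * Real.exp ((9/10) * L) * (b / 8) := by ring
        _ ≤ _ := h5
        _ = _ := by ring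
    have h11 := le_of_mul_le_mul_right h10 (Real.exp_pos _)
    have h12 : (8 * (𝓖.card : ℝ) / b) * 2 ^ d = (𝓖.card * 2 ^ d) / (b / 8) := by
      rw [div_mul_eq_mul_div, div_div_eq_mul_div]
      ring
    rw [h12, le_div_iff₀ (by positivity)]
    exact h11
  have h5 := Real.log_le_log (Real.exp_pos _) hfin
  rw [Real.log_exp, Real.log_mul hratio.ne' (by positivity), Real.log_pow] at h5
  linarith

end Vale.Agent.P126
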