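import Mathlib

/-! A finite form of the minimax theorem. -/

namespace Vale.Agent.P126

open Finset

/-- Minimax for finitely many linear functionals on a compact convex set: if every mixture of
the functionals reaches the level `A` somewhere on `Y`, then a single point of `Y` lies above the
level `A` for all the functionals. -/
theorem finite_minimax {E : Type*} [NormedAddCommGroup E] [InnerProductSpace ℝ E]
    {β : Type*} [Fintype β] {Y : Set E} (hYc : IsCompact Y) (hYconv : Convex ℝ Y)
    (hYne : Y.Nonempty) (f : β → E) (A : ℝ)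
    (h : ∀ π : β → ℝ, (∀ b, 0 ≤ π b) → ∑ b, π b = 1 →
      ∃ y ∈ Y, A ≤ ∑ b, π b * inner ℝ (f b) y) :
    ∃ y ∈ Y, ∀ b, A ≤ inner ℝ (f b) y := by
  classical
  let Φ : E →L[ℝ] (β → ℝ) := ContinuousLinearMap.pi (fun b => innerSL ℝ (f b))
  have hΦ : ∀ y b, Φ y b = inner ℝ (f b) y := fun y b => rfl
  let S : Set (β → ℝ) := Φ '' Y
  let P : Set (β → ℝ) := {w | ∀ b, A ≤ w b}
  have hSc : IsCompact S := hYc.image Φ.continuous
  have hSconv : Convex ℝ S := hYconv.linear_image Φ.toLinearMap
  have hPclosed : IsClosed P := by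
    have : P = ⋂ b, {w : β → ℝ | A ≤ w b} := by
      ext w; simp [P]
    rw [this]
    exact isClosed_iInter (fun b => isClosed_le continuous_const (continuous_apply b))
  have hPconv : Convex ℝ P := by
    intro w hw w' hw' a c ha hc hac b
    have h1 := hw b
    have h2 := hw' b
    simp only [Pi.add_apply, Pi.smul_apply, smul_eq_mul]
    have h3 : a * A ≤ a * w b := mul_le_mul_of_nonneg_left h1 ha
    have h4 : c * A ≤ c * w' b := mul_le_mul_of_nonneg_left h2 hc
    have h5 : a * A + c * A = A := by rw [← add_mul, hac, one_mul]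
    linarith
  by_contra hcon
  push Not at hcon
  have hdisj : Disjoint S P := by
    rw [Set.disjoint_left]
    rintro _ ⟨y, hy, rfl⟩ hP
    obtain ⟨b, hb⟩ := hcon y hy
    have := hP b
    rw [hΦ] at this
    linarith
  obtain ⟨ℓ, u, v, h1, h2, h3⟩ := geometric_hahn_banach_compact_closed hSconv hSc hPconv hPclosed hdisj
  -- coefficients of the functional
  let c : β → ℝ := fun b => ℓ (Pi.single b 1)
  have hℓ : ∀ w : β → ℝ, ℓ w = ∑ b, c b * w b := by
    intro w
    have hw : w = ∑ b, w b • (Pi.single b (1:ℝ) : β → ℝ) := by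
      ext i
      simp [Finset.sum_apply, Pi.single_apply]
    conv_lhs => rw [hw]
    rw [map_sum]
    apply Finset.sum_congr rfl
    intro b _
    rw [map_smul, smul_eq_mul, mul_comm]
  have hone : (fun _ => A : β → ℝ) ∈ P := fun b => le_refl _
  have hc0 : ∀ b, 0 ≤ c b := by
    intro b
    by_contra hneg
    push Not at hneg
    -- go far in the direction of the coordinate
    let s : ℝ := (ℓ (fun _ => A) - v + 1) / (- c b)
    have hs : 0 ≤ s ∨ s < 0 := le_or_gt 0 s
    have hs1 : ℓ (fun _ => A) - v > 0 := by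
      have := h3 _ hone
      linarith
    have hspos : 0 < s := div_pos (by linarith) (by linarith)
    have hw : (fun i => A + if i = b then s else 0) ∈ P := by
      intro i
      by_cases hi : i = b
      · simp only [hi, if_true]; linarith
      · simp only [hi, if_false]; linarith
    have h4 := h3 _ hw
    have h5 : ℓ (fun i => A + if i = b then s else 0) = ℓ (fun _ => A) + s * c b := by
      have : (fun i => A + if i = b then s else 0) = (fun _ => A) + s • (Pi.single b (1:ℝ) : β → ℝ) := by
        ext i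
        by_cases hi : i = b <;> simp [hi]
      rw [this, map_add, map_smul, smul_eq_mul]
    rw [h5] at h4
    have h6 : s * c b = - (ℓ (fun _ => A) - v + 1) := by
      have hcb : -c b ≠ 0 := by
        have := hneg.ne
        intro hh
        apply this
        linarith
      simp only [s]
      rw [div_mul_eq_mul_div, div_eq_iff hcb]
      ring
    rw [h6] at h4
    linarith
  obtain ⟨y₀, hy₀⟩ := hYne
  have hsum : 0 < ∑ b, c b := by
    have h4 : ℓ (Φ y₀) < u := h1 _ ⟨y₀, hy₀, rfl⟩
    have h5 := h3 _ hone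
    by_contra hnp
    have hzero : ∀ b, c b = 0 := by
      intro b
      have h6 : ∑ b, c b = 0 := le_antisymm (not_lt.mp hnp) (Finset.sum_nonneg (fun b _ => hc0 b))
      exact (Finset.sum_eq_zero_iff_of_nonneg (fun b _ => hc0 b)).mp h6 b (Finset.mem_univ b)
    rw [hℓ] at h4 h5
    simp only [hzero, zero_mul, Finset.sum_const_zero] at h4 h5
    linarith
  let π : β → ℝ := fun b => c b / ∑ b, c b
  have hπ0 : ∀ b, 0 ≤ π b := fun b => div_nonneg (hc0 b) hsum.le
  have hπ1 : ∑ b, π b = 1 := by
    simp only [π]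
    rw [← Finset.sum_div, div_self hsum.ne']
  obtain ⟨y, hy, hyA⟩ := h π hπ0 hπ1
  have h4 : ℓ (Φ y) < u := h1 _ ⟨y, hy, rfl⟩
  have h5 : v < ℓ (fun _ => A) := h3 _ hone
  rw [hℓ] at h4 h5
  have h6 : ∑ b, c b * (fun _ => A : β → ℝ) b = A * ∑ b, c b := by
    rw [Finset.mul_sum]
    apply Finset.sum_congr rfl
    intro b _
    ring
  rw [h6] at h5
  have h7 : ∑ b, π b * inner ℝ (f b) y = (∑ b, c b * Φ y b) / ∑ b, c b := by
    rw [Finset.sum_div]
    apply Finset.sum_congr rfl
    intro b _
    simp only [π, hΦ]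
    ring
  rw [h7, le_div_iff₀ hsum] at hyA
  linarith

end Vale.Agent.P126
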