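import Vale.Agent.P126.Rounds
import Vale.Agent.P126.LowDim

/-! The entropy of one solid body against another one. -/

namespace Vale.Agent.P126

open scoped Pointwise
open Finset

set_option linter.unusedSectionVars false

variable {ι : Type*} [Fintype ι] [DecidableEq ι]

/-- All the supports. -/
lemma exists_supports {K L : Set (EuclideanSpace ℝ ι)} {t : Finset (EuclideanSpace ℝ ι)}
    (c : Ctx K L t) {d₀ : ℕ} (hd₀ : 16 * Real.log t.card + 2 ≤ d₀) :
    ∃ T : Finset (Finset ι),
      (T.card : ℝ) ≤ (32 * (t.card:ℝ) * 2 ^ d₀) ^ 10 * (t.card * d₀ + 1) ∧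
      (∀ f ∈ T, f.card ≤ d₀) ∧ ∀ x ∈ K, ∃ f ∈ T, restr fᶜ x ∈ (169:ℝ) • L := by
  classical
  have hM0 : (1:ℝ) ≤ t.card := by exact_mod_cast c.card_pos
  have hsupp : ∀ x ∈ K, ∃ τ : Finset ι, τ.card ≤ d₀ ∧ restr τᶜ x ∈ (16:ℝ) • L := by
    intro x hx
    obtain ⟨τ, h1, h2⟩ := essential_support c hx
    refine ⟨τ, ?_, h2⟩
    have : (τ.card : ℝ) ≤ d₀ := h1.trans hd₀
    exact_mod_cast this
  obtain ⟨W, hWc, hW⟩ := exists_universe c hsupp
  let 𝓖₀ : Finset (Finset ι) := W.powerset.filter (fun G => G.card ≤ d₀)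
  have h𝓖₀d : ∀ G ∈ 𝓖₀, G.card ≤ d₀ := fun G hG => (Finset.mem_filter.mp hG).2
  set Q : ℝ := (32 * (t.card:ℝ) * 2 ^ d₀) ^ 10 with hQ
  have hbase : (1:ℝ) ≤ 32 * (t.card:ℝ) * 2 ^ d₀ := by
    have h2 : (1:ℝ) ≤ 2 ^ d₀ := one_le_pow₀ (by norm_num)
    nlinarith
  have hQ1 : 2 * (t.card:ℝ) ≤ Q := by
    have h1 : 32 * (t.card:ℝ) * 2 ^ d₀ ≤ (32 * (t.card:ℝ) * 2 ^ d₀) ^ 10 :=
      le_self_pow₀ hbase (by norm_num)
    have h2 : (1:ℝ) ≤ 2 ^ d₀ := one_le_pow₀ (by norm_num)
    have h3 : 2 * (t.card:ℝ) ≤ 32 * (t.card:ℝ) * 2 ^ d₀ := by nlinarith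
    exact h3.trans h1
  have hQ0 : 0 ≤ Q := by positivity
  obtain ⟨𝓗, h𝓗c, h𝓗⟩ := rounds c d₀ hQ1 le_rfl 𝓖₀.card 𝓖₀ le_rfl h𝓖₀d
  have hlog : Nat.log 2 𝓖₀.card ≤ W.card := by
    have h1 : 𝓖₀.card ≤ 2 ^ W.card := by
      calc 𝓖₀.card ≤ W.powerset.card := Finset.card_le_card (Finset.filter_subset _ _)
        _ = 2 ^ W.card := Finset.card_powerset W
    calc Nat.log 2 𝓖₀.card ≤ Nat.log 2 (2 ^ W.card) := Nat.log_mono_right h1
      _ = W.card := Nat.log_pow (by norm_num) _
  refine ⟨𝓗.filter (fun f => f.card ≤ d₀), ?_, fun f hf => (Finset.mem_filter.mp hf).2, ?_⟩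
  · have h1 : ((𝓗.filter (fun f => f.card ≤ d₀)).card : ℝ) ≤ 𝓗.card := by
      exact_mod_cast Finset.card_le_card (Finset.filter_subset _ _)
    refine h1.trans (h𝓗c.trans ?_)
    apply mul_le_mul_of_nonneg_left _ hQ0
    have h2 : (Nat.log 2 𝓖₀.card : ℝ) ≤ W.card := by exact_mod_cast hlog
    have h3 : (W.card : ℝ) ≤ t.card * d₀ := by exact_mod_cast hWc
    linarith
  · intro x hx
    set x' : EuclideanSpace ℝ ι := restr W x with hx'
    have hx'K : x' ∈ K := c.sK.restr hx W
    obtain ⟨τ, hτc, hτ⟩ := hsupp x' hx'K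
    have hGmem : τ ∩ W ∈ 𝓖₀ := Finset.mem_filter.mpr
      ⟨Finset.mem_powerset.mpr Finset.inter_subset_right,
        (Finset.card_le_card Finset.inter_subset_left).trans hτc⟩
    have hGeq : restr (τ ∩ W)ᶜ x' = restr τᶜ x' := by
      ext i
      simp only [restr_apply, Finset.mem_compl, Finset.mem_inter, hx']
      by_cases h1 : i ∈ τ <;> by_cases h2 : i ∈ W <;> simp [h1, h2]
    obtain ⟨f, hf, hfG, hfL⟩ := h𝓗 x' hx'K _ hGmem (by rw [hGeq]; exact hτ)
    refine ⟨f, Finset.mem_filter.mpr ⟨hf, (Finset.card_le_card hfG).trans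
      (h𝓖₀d _ hGmem)⟩, ?_⟩
    have hfW : f ⊆ W := hfG.trans Finset.inter_subset_right
    have hsplit : restr fᶜ x = restr fᶜ x' + restr Wᶜ x := by
      ext i
      simp only [PiLp.add_apply, restr_apply, Finset.mem_compl, hx']
      by_cases h1 : i ∈ W
      · by_cases h2 : i ∈ f <;> simp [h1, h2]
      · have h2 : i ∉ f := fun h => h1 (hfW h)
        simp [h1, h2]
    rw [hsplit]
    have := add_mem_smul c.hL.convex (by norm_num : (0:ℝ) ≤ 152) (by norm_num : (0:ℝ) ≤ 17)
      hfL (hW x hx)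
    norm_num at this
    exact this

lemma log_le_log_of_natCast_le {N : ℕ} {B : ℝ} (hB : 1 ≤ B) (h : (N:ℝ) ≤ B) :
    Real.log N ≤ Real.log B := by
  by_cases hN : N = 0
  · rw [hN]
    simpa using Real.log_nonneg hB
  · apply Real.log_le_log _ h
    exact_mod_cast Nat.pos_of_ne_zero hN

/-- Numerical part of the final bound. -/
lemma core_numbers {lm M : ℝ} {d₀ : ℕ} (hlm : Real.log 2 ≤ lm) (hd₀ : (d₀:ℝ) ≤ 16 * lm + 3)
    (hM1 : 1 ≤ M) (hlM : Real.log M = lm) :
    Real.log ((32 * M * 2 ^ d₀) ^ 10 * (M * d₀ + 1) * Real.exp (600 * (lm + 500 * (d₀:ℝ)))) ≤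
      7000000 * lm := by
  have hlog2a := Real.log_two_gt_d9
  have hlog2b := Real.log_two_lt_d9
  have hl0 : 0 < lm := by linarith
  have h32 : Real.log 32 = 5 * Real.log 2 := by
    rw [show (32:ℝ) = 2 ^ 5 by norm_num, Real.log_pow]
    norm_num
  have hd0 : (0:ℝ) ≤ d₀ := Nat.cast_nonneg _
  have hd19 : (d₀:ℝ) ≤ 21 * lm := by linarith
  have hMpos : 0 < M := by linarith
  have h1 : Real.log ((32 * M * 2 ^ d₀) ^ 10) ≤ 270 * lm := by
    rw [Real.log_pow, Real.log_mul (by positivity) (by positivity),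
      Real.log_mul (by norm_num) hMpos.ne', Real.log_pow, h32, hlM]
    push_cast
    have h2 : (d₀ : ℝ) * Real.log 2 ≤ d₀ * 1 :=
      mul_le_mul_of_nonneg_left (by linarith) hd0
    nlinarith
  have h2 : Real.log (M * d₀ + 1) ≤ 22 * lm := by
    have h3 : M * d₀ + 1 ≤ M * (d₀ + 1) := by nlinarith
    have h4 : Real.log (M * ((d₀:ℝ) + 1)) = lm + Real.log (d₀ + 1) := by
      rw [Real.log_mul hMpos.ne' (by positivity), hlM]
    have h5 : Real.log ((d₀:ℝ) + 1) ≤ d₀ := by
      have := Real.log_le_sub_one_of_pos (by positivity : (0:ℝ) < d₀ + 1)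
      linarith
    have h6 := Real.log_le_log (by positivity) h3
    linarith
  have hpos1 : (0:ℝ) < (32 * M * 2 ^ d₀) ^ 10 := by positivity
  have hpos2 : (0:ℝ) < M * d₀ + 1 := by positivity
  rw [Real.log_mul (mul_pos hpos1 hpos2).ne' (Real.exp_pos _).ne', Real.log_mul hpos1.ne' hpos2.ne',
    Real.log_exp]
  nlinarith

/-- The main estimate, for a cover with at least two elements. -/
theorem core_two {K L : Set (EuclideanSpace ℝ ι)} {t : Finset (EuclideanSpace ℝ ι)}
    (c : Ctx K L t) (ht : 2 ≤ t.card) :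
    Real.log (coveringNumber K ((170:ℝ) • L)) ≤ 7000000 * Real.log t.card := by
  classical
  set M : ℝ := (t.card : ℝ) with hM
  have hM1 : (1:ℝ) ≤ M := by
    rw [hM]
    exact_mod_cast c.card_pos
  set lm : ℝ := Real.log M with hlm
  have hlm2 : Real.log 2 ≤ lm := by
    apply Real.log_le_log (by norm_num)
    rw [hM]
    exact_mod_cast ht
  have hlm0 : 0 ≤ lm := (Real.log_pos (by norm_num)).le.trans hlm2
  set d : ℝ := 16 * lm + 2 with hd
  have hd0 : 0 ≤ d := by positivity
  set d₀ : ℕ := ⌈d⌉₊ with hd₀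
  have hdle : d ≤ d₀ := Nat.le_ceil d
  have hdge : (d₀:ℝ) ≤ 16 * lm + 3 := by
    have := Nat.ceil_lt_add_one hd0
    linarith
  obtain ⟨T, hTc, hTd, hT⟩ := exists_supports c hdle
  have hld := fun f => low_dim c f
  choose P hPlog hP using hld
  set E : ℝ := 600 * (lm + 500 * (d₀:ℝ)) with hE
  have hPc : ∀ f ∈ T, ((P f).card : ℝ) ≤ Real.exp E := by
    intro f hf
    by_cases hne : (P f).card = 0
    · rw [hne]
      simpa using (Real.exp_pos E).le
    · have hpos : (0:ℝ) < (P f).card := by exact_mod_cast Nat.pos_of_ne_zero hne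
      rw [← Real.log_le_iff_le_exp hpos]
      refine (hPlog f).trans ?_
      apply mul_le_mul_of_nonneg_left _ (by norm_num)
      have : (f.card : ℝ) ≤ d₀ := by exact_mod_cast hTd f hf
      linarith
  set Pall : Finset (EuclideanSpace ℝ ι) := T.biUnion P with hPall
  have hcov : K ⊆ ⋃ p ∈ Pall, p +ᵥ ((170:ℝ) • L) := by
    intro x hx
    obtain ⟨f, hf, hfL⟩ := hT x hx
    obtain ⟨p, hp, hpL⟩ := hP f x hx
    simp only [Set.mem_iUnion, exists_prop]
    refine ⟨p, Finset.mem_biUnion.mpr ⟨f, hf, hp⟩, ?_⟩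
    refine Set.mem_vadd_set.mpr ⟨(restr f x - p) + restr fᶜ x, ?_, ?_⟩
    · have h1 : restr f x - p ∈ (1:ℝ) • L := by rwa [one_smul]
      have := add_mem_smul c.hL.convex (by norm_num : (0:ℝ) ≤ 1) (by norm_num : (0:ℝ) ≤ 169) h1 hfL
      norm_num at this
      exact this
    · have : restr f x + restr fᶜ x = x := by
        ext i
        simp only [PiLp.add_apply, restr_apply, Finset.mem_compl]
        by_cases h : i ∈ f <;> simp [h]
      simp only [vadd_eq_add]
      calc p + (restr f x - p + restr fᶜ x) = restr f x + restr fᶜ x := by abel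
        _ = x := this
  have hN : coveringNumber K ((170:ℝ) • L) ≤ Pall.card := coveringNumber_le hcov
  have hPallc : (Pall.card : ℝ) ≤ T.card * Real.exp E := by
    have h1 : (Pall.card : ℝ) ≤ ∑ f ∈ T, ((P f).card : ℝ) := by
      exact_mod_cast Finset.card_biUnion_le
    refine h1.trans ?_
    calc ∑ f ∈ T, ((P f).card : ℝ) ≤ ∑ _f ∈ T, Real.exp E := Finset.sum_le_sum hPc
      _ = _ := by rw [Finset.sum_const, nsmul_eq_mul]
  have hB : (coveringNumber K ((170:ℝ) • L) : ℝ) ≤
      (32 * M * 2 ^ d₀) ^ 10 * (M * d₀ + 1) * Real.exp E := by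
    calc (coveringNumber K ((170:ℝ) • L) : ℝ) ≤ Pall.card := by exact_mod_cast hN
      _ ≤ T.card * Real.exp E := hPallc
      _ ≤ _ := mul_le_mul_of_nonneg_right hTc (Real.exp_pos _).le
  have hB1 : (1:ℝ) ≤ (32 * M * 2 ^ d₀) ^ 10 * (M * d₀ + 1) * Real.exp E := by
    have h1 : (1:ℝ) ≤ (32 * M * 2 ^ d₀) ^ 10 := by
      apply one_le_pow₀
      have h2 : (1:ℝ) ≤ 2 ^ d₀ := one_le_pow₀ (by norm_num)
      nlinarith
    have h3 : (1:ℝ) ≤ M * d₀ + 1 := by
      have : 0 ≤ M * d₀ := by positivity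
      linarith
    have h4 : (1:ℝ) ≤ Real.exp E := by
      apply Real.one_le_exp
      positivity
    have h5 : (1:ℝ) ≤ (32 * M * 2 ^ d₀) ^ 10 * (M * d₀ + 1) := by nlinarith
    nlinarith
  exact (log_le_log_of_natCast_le hB1 hB).trans (core_numbers hlm2 hdge hM1 rfl)

/-- The main estimate. -/
theorem core_all {K L : Set (EuclideanSpace ℝ ι)} {t : Finset (EuclideanSpace ℝ ι)}
    (c : Ctx K L t) :
    Real.log (coveringNumber K ((170:ℝ) • L)) ≤ 7000000 * Real.log t.card := by
  classical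
  by_cases ht : 2 ≤ t.card
  · exact core_two c ht
  · -- a single translate: the first body lies in a small dilate of the second one
    have hle : t.card ≤ 1 := by omega
    have hsub : K ⊆ (170:ℝ) • L := by
      intro u hu
      apply mem_smul_of_inner_le c.hL (by norm_num)
      intro y hy
      by_contra hcon
      push Not at hcon
      have hne : y ≠ -y := by
        intro h
        have h2 := congrArg (fun w => (inner ℝ u w : ℝ)) h
        simp only [inner_neg_right] at h2
        linarith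
      have h2 : (({y, -y} : Finset (EuclideanSpace ℝ ι)).card) ≤ t.card := by
        apply c.card_le (Y := id)
        · intro a ha
          rcases Finset.mem_insert.mp ha with rfl | ha'
          · exact hy
          · rw [Finset.mem_singleton.mp ha']
            exact polarBody_neg_mem c.hL hy
        · intro a ha a' ha' hne'
          refine ⟨u, hu, ?_⟩
          rcases Finset.mem_insert.mp ha with rfl | ha1
          · rcases Finset.mem_insert.mp ha' with rfl | ha2
            · exact absurd rfl hne'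
            · rw [Finset.mem_singleton.mp ha2]
              left
              simp only [id, sub_neg_eq_add, inner_add_right]
              linarith
          · rcases Finset.mem_insert.mp ha' with rfl | ha2
            · rw [Finset.mem_singleton.mp ha1]
              right
              simp only [id, sub_neg_eq_add, inner_add_right]
              linarith
            · rw [Finset.mem_singleton.mp ha1, Finset.mem_singleton.mp ha2] at hne'
              exact absurd rfl hne'
      rw [Finset.card_pair hne] at h2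
      omega
    have h1 : K ⊆ ⋃ p ∈ ({0} : Finset (EuclideanSpace ℝ ι)), p +ᵥ ((170:ℝ) • L) := by
      intro u hu
      simp only [Finset.mem_singleton, Set.iUnion_iUnion_eq_left]
      exact Set.mem_vadd_set.mpr ⟨u, hsub hu, by simp⟩
    have h2 : coveringNumber K ((170:ℝ) • L) ≤ 1 := coveringNumber_le h1
    have h3 := log_nat_mono h2
    simp only [Nat.cast_one, Real.log_one] at h3
    have h4 := Real.log_natCast_nonneg t.card
    linarith

/-- The right inequality for solid bodies, at the scale of the cover. -/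
theorem core_solid {K L : Set (EuclideanSpace ℝ ι)} (hK : IsSymBody K) (hL : IsSymBody L)
    (sK : Solid K) (sL : Solid L) :
    Real.log (coveringNumber K ((170:ℝ) • L)) ≤
      7000000 * Real.log (coveringNumber (polarBody L) ((3:ℝ)⁻¹ • polarBody K)) := by
  have hP : IsSymBody ((3:ℝ)⁻¹ • polarBody K) := hK.polarBody.smul (by norm_num)
  obtain ⟨ε, hε, hball⟩ := hP.exists_ball_subset
  obtain ⟨t, ht, hcov⟩ := exists_cover_card_eq
    (exists_finite_cover hL.polarBody.isCompact hε hball)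
  have c : Ctx K L t := ⟨hK, hL, sK, sL, hcov⟩
  rw [← ht]
  exact core_all c

/-- The right inequality for solid bodies. -/
theorem right_solid {K L : Set (EuclideanSpace ℝ ι)} (hK : IsSymBody K) (hL : IsSymBody L)
    (sK : Solid K) (sL : Solid L) :
    Real.log (coveringNumber K L) ≤
      7000000 * Real.log (coveringNumber (polarBody L) ((510:ℝ)⁻¹ • polarBody K)) := by
  have h170 : (0:ℝ) < (170:ℝ)⁻¹ := by norm_num
  have h1 := core_solid hK (hL.smul h170) sK (sL.smul h170)
  have h2 : (170:ℝ) • ((170:ℝ)⁻¹ • L) = L := by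
    rw [smul_smul]
    norm_num
  rw [h2, polarBody_smul h170, inv_inv] at h1
  have h3 : (3:ℝ)⁻¹ • polarBody K = (170:ℝ) • ((510:ℝ)⁻¹ • polarBody K) := by
    rw [smul_smul]
    norm_num
  rw [h3, coveringNumber_smul _ _ (by norm_num)] at h1
  exact h1

/-- The left inequality for solid bodies. -/
theorem left_solid {K L : Set (EuclideanSpace ℝ ι)} (hK : IsSymBody K) (hL : IsSymBody L)
    (sK : Solid K) (sL : Solid L) :
    Real.log (coveringNumber (polarBody L) ((510:ℝ) • polarBody K)) ≤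
      7000000 * Real.log (coveringNumber K L) := by
  have hP : IsSymBody ((510:ℝ) • polarBody K) := hK.polarBody.smul (by norm_num)
  have sP : Solid ((510:ℝ) • polarBody K) := (solid_polarBody sK).smul (by norm_num)
  have h1 := right_solid hL.polarBody hP (solid_polarBody sL) sP
  rw [polarBody_smul (by norm_num), polarBody_polarBody hK, polarBody_polarBody hL] at h1
  rw [coveringNumber_smul _ _ (by norm_num)] at h1
  exact h1

end Vale.Agent.P126
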