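import Vale.Agent.P126.Pairs

/-! Both inequalities for all pairs of almost unconditional bodies in a common basis. -/

namespace Vale.Agent.P126

open scoped Pointwise
open Finset

set_option linter.unusedSectionVars false

section Coordinates

variable {ι : Type*} [Fintype ι] [DecidableEq ι]

lemma fin_cover {A B : Set (EuclideanSpace ℝ ι)} (hA : IsSymBody A) (hB : IsSymBody B) :
    ∃ t : Finset (EuclideanSpace ℝ ι), A ⊆ ⋃ x ∈ t, x +ᵥ B := by
  obtain ⟨ε, hε, hball⟩ := hB.exists_ball_subset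
  exact exists_finite_cover hA.isCompact hε hball

lemma smul_inv_subset_of_subset_smul {A B : Set (EuclideanSpace ℝ ι)} {C : ℝ} (hC : 0 < C)
    (h : A ⊆ C • B) : C⁻¹ • A ⊆ B := by
  rintro _ ⟨z, hz, rfl⟩
  obtain ⟨w, hw, rfl⟩ := Set.mem_smul_set.mp (h hz)
  simp only [smul_smul, inv_mul_cancel₀ hC.ne', one_smul]
  exact hw

lemma polar_inv_subset {A B : Set (EuclideanSpace ℝ ι)} {C : ℝ} (hC : 0 < C) (h : A ⊆ C • B) :
    C⁻¹ • polarBody B ⊆ polarBody A := by
  rw [← polarBody_smul hC]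
  exact polarBody_anti h

/-- The right inequality for pairs of almost unconditional bodies. -/
lemma pairs_right {K L Kt Lt : Set (EuclideanSpace ℝ ι)} (hK : IsSymBody K) (hL : IsSymBody L)
    (hKt : IsSymBody Kt) (hLt : IsSymBody Lt) (sKt : Solid Kt) (sLt : Solid Lt) {C : ℝ}
    (hC : 1 ≤ C) (h1 : K ⊆ Kt) (h2 : Kt ⊆ C • K) (h3 : L ⊆ Lt) (h4 : Lt ⊆ C • L) :
    Real.log (coveringNumber K L) ≤
      7000000 * Real.log (coveringNumber (polarBody L) ((510 * C ^ 2)⁻¹ • polarBody K)) := by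
  have hC0 : 0 < C := by linarith
  have hCi : 0 < C⁻¹ := inv_pos.mpr hC0
  have hLd : IsSymBody (C⁻¹ • Lt) := hLt.smul hCi
  have sLd : Solid (C⁻¹ • Lt) := sLt.smul hCi
  have hLdL : C⁻¹ • Lt ⊆ L := smul_inv_subset_of_subset_smul hC0 h4
  have hmain := right_solid hKt hLd sKt sLd
  rw [polarBody_smul hCi, inv_inv] at hmain
  -- the left side
  have step1 : coveringNumber K L ≤ coveringNumber Kt (C⁻¹ • Lt) :=
    (coveringNumber_mono_left h1 (fin_cover hKt hL)).trans
      (coveringNumber_mono_right hLdL (fin_cover hKt hLd))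
  -- the right side
  have hPL : IsSymBody (polarBody L) := hL.polarBody
  have hPLt : IsSymBody (polarBody Lt) := hLt.polarBody
  have hPK : IsSymBody (polarBody K) := hK.polarBody
  have hPKt : IsSymBody (polarBody Kt) := hKt.polarBody
  have step2 : coveringNumber (C • polarBody Lt) ((510:ℝ)⁻¹ • polarBody Kt) ≤
      coveringNumber (C • polarBody L) ((510:ℝ)⁻¹ • polarBody Kt) :=
    coveringNumber_mono_left (Set.smul_set_mono (polarBody_anti h3))
      (fin_cover (hPL.smul hC0) (hPKt.smul (by norm_num)))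
  have hinc : C • ((510 * C ^ 2)⁻¹ • polarBody K) ⊆ (510:ℝ)⁻¹ • polarBody Kt := by
    have h5 : C • ((510 * C ^ 2)⁻¹ • polarBody K) = (510:ℝ)⁻¹ • (C⁻¹ • polarBody K) := by
      rw [smul_smul, smul_smul]
      congr 1
      field_simp
    rw [h5]
    exact Set.smul_set_mono (polar_inv_subset hC0 h2)
  have step3 : coveringNumber (C • polarBody L) ((510:ℝ)⁻¹ • polarBody Kt) ≤
      coveringNumber (C • polarBody L) (C • ((510 * C ^ 2)⁻¹ • polarBody K)) :=
    coveringNumber_mono_right hinc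
      (fin_cover (hPL.smul hC0) ((hPK.smul (by positivity)).smul hC0))
  rw [coveringNumber_smul _ _ hC0.ne'] at step3
  exact (log_nat_mono step1).trans (hmain.trans
    (mul_le_mul_of_nonneg_left (log_nat_mono (step2.trans step3)) (by norm_num)))

/-- The left inequality for pairs of almost unconditional bodies. -/
lemma pairs_left {K L Kt Lt : Set (EuclideanSpace ℝ ι)} (hK : IsSymBody K) (hL : IsSymBody L)
    (hKt : IsSymBody Kt) (hLt : IsSymBody Lt) (sKt : Solid Kt) (sLt : Solid Lt) {C : ℝ}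
    (hC : 1 ≤ C) (h1 : K ⊆ Kt) (h2 : Kt ⊆ C • K) (h3 : L ⊆ Lt) (h4 : Lt ⊆ C • L) :
    (1/7000000 : ℝ) * Real.log (coveringNumber (polarBody L) ((510 * C ^ 2) • polarBody K)) ≤
      Real.log (coveringNumber K L) := by
  have hC0 : 0 < C := by linarith
  have hCi : 0 < C⁻¹ := inv_pos.mpr hC0
  have hKd : IsSymBody (C⁻¹ • Kt) := hKt.smul hCi
  have sKd : Solid (C⁻¹ • Kt) := sKt.smul hCi
  have hKdK : C⁻¹ • Kt ⊆ K := smul_inv_subset_of_subset_smul hC0 h2
  have hmain := left_solid hKd hLt sKd sLt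
  rw [polarBody_smul hCi, inv_inv] at hmain
  have step1 : coveringNumber (C⁻¹ • Kt) Lt ≤ coveringNumber K L :=
    (coveringNumber_mono_left hKdK (fin_cover hK hLt)).trans
      (coveringNumber_mono_right h3 (fin_cover hK hL))
  have hPL : IsSymBody (polarBody L) := hL.polarBody
  have hPLt : IsSymBody (polarBody Lt) := hLt.polarBody
  have hPK : IsSymBody (polarBody K) := hK.polarBody
  have hPKt : IsSymBody (polarBody Kt) := hKt.polarBody
  have hsub : polarBody L ⊆ C • polarBody Lt := by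
    intro y hy
    refine Set.mem_smul_set.mpr ⟨C⁻¹ • y, polar_inv_subset hC0 h4 (Set.smul_mem_smul_set hy), ?_⟩
    rw [smul_smul, mul_inv_cancel₀ hC0.ne', one_smul]
  have step2 : coveringNumber (polarBody L) ((510 * C ^ 2) • polarBody K) ≤
      coveringNumber (C • polarBody Lt) ((510 * C ^ 2) • polarBody K) :=
    coveringNumber_mono_left hsub (fin_cover (hPLt.smul hC0) (hPK.smul (by positivity)))
  have step3 : coveringNumber (C • polarBody Lt) ((510 * C ^ 2) • polarBody K) ≤
      coveringNumber (C • polarBody Lt) ((510 * C ^ 2) • polarBody Kt) :=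
    coveringNumber_mono_right (Set.smul_set_mono (polarBody_anti h1))
      (fin_cover (hPLt.smul hC0) (hPKt.smul (by positivity)))
  have h5 : (510 * C ^ 2) • polarBody Kt = C • ((510:ℝ) • (C • polarBody Kt)) := by
    rw [smul_smul, smul_smul]
    congr 1
    ring
  rw [h5, coveringNumber_smul _ _ hC0.ne'] at step3
  have h6 := log_nat_mono (step2.trans step3)
  have h7 := log_nat_mono step1
  linarith

/-- Both inequalities, in coordinates. -/
theorem uncond_pairs {K L : Set (EuclideanSpace ℝ ι)} (hK : IsSymBody K) (hL : IsSymBody L) {C : ℝ}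
    (hC : 1 ≤ C)
    (huK : ∀ x ∈ K, ∀ u : EuclideanSpace ℝ ι, (∀ i, |u i| = |x i|) → u ∈ C • K)
    (huL : ∀ x ∈ L, ∀ u : EuclideanSpace ℝ ι, (∀ i, |u i| = |x i|) → u ∈ C • L) :
    (1/7000000 : ℝ) * Real.log (coveringNumber (polarBody L) ((510 * C ^ 2) • polarBody K)) ≤
        Real.log (coveringNumber K L) ∧
      Real.log (coveringNumber K L) ≤
        7000000 * Real.log (coveringNumber (polarBody L) ((510 * C ^ 2)⁻¹ • polarBody K)) := by
  obtain ⟨hKt, sKt, h1, h2⟩ := hull_props hK hC huK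
  obtain ⟨hLt, sLt, h3, h4⟩ := hull_props hL hC huL
  exact ⟨pairs_left hK hL hKt hLt sKt sLt hC h1 h2 h3 h4,
    pairs_right hK hL hKt hLt sKt sLt hC h1 h2 h3 h4⟩

end Coordinates

section Basis

variable {n : ℕ}

lemma uncond_image (b : Module.Basis (Fin n) ℝ (EuclideanSpace ℝ (Fin n)))
    {K : Set (EuclideanSpace ℝ (Fin n))} {C : ℝ}
    (hu : ∀ x ∈ K, ∀ u, (∀ i, |b.repr u i| = |b.repr x i|) → u ∈ C • K) :
    ∀ x ∈ coordEquiv b '' K, ∀ u : EuclideanSpace ℝ (Fin n), (∀ i, |u i| = |x i|) →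
      u ∈ C • (coordEquiv b '' K) := by
  set Φ := coordEquiv b with hΦ
  rintro _ ⟨x, hx, rfl⟩ u hux
  rw [← image_smul_set_linear]
  refine ⟨Φ.symm u, hu x hx _ ?_, by simp⟩
  intro i
  have h1 := hux i
  have h2 : coordEquiv b (Φ.symm u) i = u i := by
    rw [← hΦ]
    simp
  rw [coordEquiv_apply] at h2
  rw [h2, h1]
  simp [hΦ]

/-- Both inequalities for a pair of bodies almost unconditional in a common basis. -/
theorem pairs_basis (b : Module.Basis (Fin n) ℝ (EuclideanSpace ℝ (Fin n)))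
    {K L : Set (EuclideanSpace ℝ (Fin n))} (hK : IsSymBody K) (hL : IsSymBody L) {C : ℝ}
    (hC : 1 ≤ C)
    (huK : ∀ x ∈ K, ∀ u, (∀ i, |b.repr u i| = |b.repr x i|) → u ∈ C • K)
    (huL : ∀ x ∈ L, ∀ u, (∀ i, |b.repr u i| = |b.repr x i|) → u ∈ C • L) :
    (1/7000000 : ℝ) * Real.log (coveringNumber (polarBody L) ((510 * C ^ 2) • polarBody K)) ≤
        Real.log (coveringNumber K L) ∧
      Real.log (coveringNumber K L) ≤
        7000000 * Real.log (coveringNumber (polarBody L) ((510 * C ^ 2)⁻¹ • polarBody K)) := by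
  set Φ := coordEquiv b with hΦ
  have hmain := uncond_pairs (hK.image Φ) (hL.image Φ) hC (uncond_image b huK) (uncond_image b huL)
  have hNL : coveringNumber (Φ '' K) (Φ '' L) = coveringNumber K L := coveringNumber_image Φ K L
  have hinner := inner_contra Φ
  have hN2 : ∀ a : ℝ, coveringNumber (polarBody (Φ '' L)) (a • polarBody (Φ '' K)) =
      coveringNumber (polarBody L) (a • polarBody K) := by
    intro a
    rw [polarBody_image hinner, polarBody_image hinner, ← image_smul_set_linear,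
      coveringNumber_image]
  rw [hNL, hN2, hN2] at hmain
  exact hmain

end Basis

end Vale.Agent.P126
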