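import Vale.Agent.P126.Defs

/-! Elementary facts on polars and covering numbers. -/

namespace Vale.Agent.P126

open scoped Pointwise
open Metric

set_option linter.unusedSectionVars false

variable {E : Type*} [NormedAddCommGroup E] [InnerProductSpace ℝ E]

lemma IsSymBody.nonempty {K : Set E} (hK : IsSymBody K) : K.Nonempty := by
  obtain ⟨x, hx⟩ := hK.interior_nonempty
  exact ⟨x, interior_subset hx⟩

lemma IsSymBody.zero_mem {K : Set E} (hK : IsSymBody K) : (0 : E) ∈ K := by
  obtain ⟨x, hx⟩ := hK.nonempty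
  have := hK.convex hx (hK.neg_mem x hx) (by norm_num : (0:ℝ) ≤ 1/2) (by norm_num : (0:ℝ) ≤ 1/2)
    (by norm_num)
  simpa using this

lemma IsSymBody.exists_ball_subset {K : Set E} (hK : IsSymBody K) :
    ∃ ε > 0, ball (0 : E) ε ⊆ K := by
  obtain ⟨x, hx⟩ := hK.interior_nonempty
  obtain ⟨ε, hε, hsub⟩ := Metric.isOpen_iff.mp isOpen_interior x hx
  refine ⟨ε, hε, ?_⟩
  intro y hy
  have hy' : ‖y‖ < ε := by simpa using hy
  have h1 : x + y ∈ K := by
    apply interior_subset
    apply hsub
    simpa [dist_eq_norm] using hy'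
  have h2 : x - y ∈ K := by
    apply interior_subset
    apply hsub
    simpa [dist_eq_norm] using hy'
  have h3 : -(x - y) ∈ K := hK.neg_mem _ h2
  have := hK.convex h1 h3 (by norm_num : (0:ℝ) ≤ 1/2) (by norm_num : (0:ℝ) ≤ 1/2) (by norm_num)
  have heq : (1/2 : ℝ) • (x + y) + (1/2 : ℝ) • (-(x - y)) = y := by module
  rwa [heq] at this

lemma IsSymBody.exists_norm_le {K : Set E} (hK : IsSymBody K) :
    ∃ R > 0, ∀ x ∈ K, ‖x‖ ≤ R := by
  obtain ⟨R, hR⟩ := hK.isCompact.isBounded.exists_norm_le
  refine ⟨max R 1, by positivity, fun x hx => (hR x hx).trans (le_max_left _ _)⟩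

lemma polarBody_convex (K : Set E) : Convex ℝ (polarBody K) := by
  intro y hy y' hy' a b ha hb hab x hx
  have h1 := hy x hx
  have h2 := hy' x hx
  rw [inner_add_right, inner_smul_right, inner_smul_right]
  nlinarith [h1, h2]

lemma polarBody_isClosed (K : Set E) : IsClosed (polarBody K) := by
  have : polarBody K = ⋂ x ∈ K, {y | inner ℝ x y ≤ (1:ℝ)} := by
    ext y; simp [polarBody]
  rw [this]
  apply isClosed_biInter
  intro x _
  exact isClosed_le (by fun_prop) continuous_const

lemma polarBody_neg_mem {K : Set E} (hK : IsSymBody K) {y : E} (hy : y ∈ polarBody K) :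
    -y ∈ polarBody K := by
  intro x hx
  have := hy (-x) (hK.neg_mem x hx)
  simpa [inner_neg_left, inner_neg_right] using this

lemma zero_mem_polarBody (K : Set E) : (0 : E) ∈ polarBody K := by
  intro x _
  simp

lemma abs_inner_le_one {K : Set E} (hK : IsSymBody K) {x y : E} (hx : x ∈ K)
    (hy : y ∈ polarBody K) : |inner ℝ x y| ≤ (1:ℝ) := by
  rw [abs_le]
  constructor
  · have := hy (-x) (hK.neg_mem x hx)
    rw [inner_neg_left] at this
    linarith
  · exact hy x hx

/-- The polar of a symmetric body is bounded. -/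
lemma polarBody_norm_le {K : Set E} {ε : ℝ} (hε : 0 < ε) (hK : ball (0 : E) ε ⊆ K) {y : E}
    (hy : y ∈ polarBody K) : ‖y‖ ≤ 2 / ε := by
  by_cases hy0 : y = 0
  · subst hy0
    simp; positivity
  have hn : 0 < ‖y‖ := norm_pos_iff.mpr hy0
  have hx : (ε / 2 / ‖y‖) • y ∈ K := by
    apply hK
    rw [mem_ball_zero_iff, norm_smul, Real.norm_of_nonneg (by positivity)]
    field_simp
    linarith
  have := hy _ hx
  rw [inner_smul_left, real_inner_self_eq_norm_sq] at this
  simp only [conj_trivial] at this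
  have h2 : ε / 2 / ‖y‖ * ‖y‖ ^ 2 = ε / 2 * ‖y‖ := by field_simp
  rw [h2] at this
  rw [le_div_iff₀ hε]
  linarith

lemma IsSymBody.polarBody [FiniteDimensional ℝ E] {K : Set E} (hK : IsSymBody K) :
    IsSymBody (polarBody K) := by
  refine ⟨polarBody_convex K, ?_, ?_, fun y hy => polarBody_neg_mem hK hy⟩
  · obtain ⟨ε, hε, hsub⟩ := hK.exists_ball_subset
    have hbd : Bornology.IsBounded (Vale.Agent.P126.polarBody K) := by
      rw [isBounded_iff_forall_norm_le]
      exact ⟨2 / ε, fun y hy => polarBody_norm_le hε hsub hy⟩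
    have : ProperSpace E := FiniteDimensional.proper ℝ E
    exact Metric.isCompact_of_isClosed_isBounded (polarBody_isClosed K) hbd
  · obtain ⟨R, hR, hbd⟩ := hK.exists_norm_le
    have hball : ball (0 : E) (1 / R) ⊆ Vale.Agent.P126.polarBody K := by
      intro y hy x hx
      have hy' : ‖y‖ < 1 / R := by simpa using hy
      calc inner ℝ x y ≤ ‖x‖ * ‖y‖ := real_inner_le_norm x y
        _ ≤ R * (1 / R) := by
          apply mul_le_mul (hbd x hx) hy'.le (norm_nonneg _) hR.le
        _ = 1 := by field_simp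
    refine ⟨0, ?_⟩
    rw [mem_interior]
    exact ⟨ball (0 : E) (1 / R), hball, isOpen_ball, by simp [hR]⟩

/-- Separation: a point outside a symmetric body is strictly separated by a polar vector. -/
lemma exists_polar_gt_one [FiniteDimensional ℝ E] {L : Set E} (hL : IsSymBody L) {z : E}
    (hz : z ∉ L) : ∃ y ∈ polarBody L, 1 < inner ℝ z y := by
  have : CompleteSpace E := FiniteDimensional.complete ℝ E
  obtain ⟨f, u, hu, hf⟩ := geometric_hahn_banach_closed_point hL.convex hL.isCompact.isClosed hz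
  have h0 : 0 < u := by
    have := hu 0 hL.zero_mem
    simpa using this
  -- represent `f` by a vector
  let w : E := (InnerProductSpace.toDual ℝ E).symm f
  have hw : ∀ a : E, inner ℝ a w = f a := by
    intro a
    rw [real_inner_comm]
    exact InnerProductSpace.toDual_symm_apply (𝕜 := ℝ)
  refine ⟨(1 / u) • w, ?_, ?_⟩
  · intro x hx
    rw [inner_smul_right, hw]
    have := hu x hx
    rw [one_div, inv_mul_le_iff₀ h0]
    linarith
  · rw [inner_smul_right, hw, one_div, lt_inv_mul_iff₀ h0]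
    linarith

/-- Bipolar theorem for symmetric bodies. -/
lemma polarBody_polarBody [FiniteDimensional ℝ E] {K : Set E} (hK : IsSymBody K) : polarBody (polarBody K) = K := by
  ext x
  constructor
  · intro hx
    by_contra hxK
    obtain ⟨y, hy, hxy⟩ := exists_polar_gt_one hK hxK
    have := hx y hy
    rw [real_inner_comm] at this
    linarith
  · intro hx y hy
    rw [real_inner_comm]
    exact hy x hx

lemma polarBody_smul {K : Set E} {a : ℝ} (ha : 0 < a) :
    polarBody (a • K) = a⁻¹ • polarBody K := by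
  ext y
  constructor
  · intro hy
    refine Set.mem_smul_set.mpr ⟨a • y, ?_, ?_⟩
    · intro x hx
      have := hy (a • x) (Set.smul_mem_smul_set hx)
      rw [inner_smul_left] at this
      rw [inner_smul_right]
      simpa using this
    · rw [smul_smul, inv_mul_cancel₀ ha.ne', one_smul]
  · rintro hy x hx
    obtain ⟨u, hu, rfl⟩ := Set.mem_smul_set.mp hy
    obtain ⟨v, hv, rfl⟩ := Set.mem_smul_set.mp hx
    rw [inner_smul_left, inner_smul_right]
    have := hu v hv
    simp only [conj_trivial]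
    rw [← mul_assoc, mul_inv_cancel₀ ha.ne', one_mul]
    exact this

lemma IsSymBody.smul {K : Set E} (hK : IsSymBody K) {a : ℝ} (ha : 0 < a) : IsSymBody (a • K) := by
  refine ⟨hK.convex.smul a, hK.isCompact.smul a, ?_, ?_⟩
  · obtain ⟨x, hx⟩ := hK.interior_nonempty
    refine ⟨a • x, ?_⟩
    rw [interior_smul₀ ha.ne']
    exact Set.smul_mem_smul_set hx
  · intro x hx
    obtain ⟨u, hu, rfl⟩ := Set.mem_smul_set.mp hx
    rw [← smul_neg]
    exact Set.smul_mem_smul_set (hK.neg_mem u hu)

/-- The covering numbers are invariant under a common dilation. -/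
lemma coveringNumber_smul (A B : Set E) {a : ℝ} (ha : a ≠ 0) :
    coveringNumber (a • A) (a • B) = coveringNumber A B := by
  classical
  have key : ∀ (A B : Set E) (a : ℝ), a ≠ 0 →
      {k : ℕ | ∃ t : Finset E, t.card = k ∧ A ⊆ ⋃ x ∈ t, x +ᵥ B} ⊆
      {k : ℕ | ∃ t : Finset E, t.card = k ∧ a • A ⊆ ⋃ x ∈ t, x +ᵥ (a • B)} := by
    rintro A B a ha k ⟨t, rfl, hcov⟩
    refine ⟨t.image (fun x => a • x), ?_, ?_⟩
    · exact Finset.card_image_of_injective _ (smul_right_injective E ha)
    · rintro _ ⟨z, hz, rfl⟩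
      have := hcov hz
      simp only [Set.mem_iUnion] at this
      obtain ⟨x, hx, hzx⟩ := this
      obtain ⟨b, hb, rfl⟩ := Set.mem_vadd_set.mp hzx
      simp only [Set.mem_iUnion]
      refine ⟨a • x, Finset.mem_image_of_mem _ hx, ?_⟩
      refine Set.mem_vadd_set.mpr ⟨a • b, Set.smul_mem_smul_set hb, ?_⟩
      simp [smul_add]
  unfold coveringNumber
  congr 1
  apply Set.Subset.antisymm
  · have := key (a • A) (a • B) a⁻¹ (inv_ne_zero ha)
    simpa [smul_smul, inv_mul_cancel₀ ha] using this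
  · exact key A B a ha

/-- A finite cover exists when `A` is compact and `B` contains a ball around the origin. -/
lemma exists_finite_cover {A B : Set E} (hA : IsCompact A) {ε : ℝ} (hε : 0 < ε)
    (hB : ball (0 : E) ε ⊆ B) : ∃ t : Finset E, A ⊆ ⋃ x ∈ t, x +ᵥ B := by
  classical
  obtain ⟨s, _, hsf, hcov⟩ := hA.finite_cover_balls hε
  refine ⟨hsf.toFinset, ?_⟩
  intro z hz
  have := hcov hz
  simp only [Set.mem_iUnion, exists_prop] at this
  obtain ⟨x, hx, hzx⟩ := this
  simp only [Set.mem_iUnion, exists_prop]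
  refine ⟨x, hsf.mem_toFinset.mpr hx, ?_⟩
  refine Set.mem_vadd_set.mpr ⟨z - x, hB ?_, by simp⟩
  simpa [dist_eq_norm] using hzx

/-- The covering number is attained when some finite cover exists. -/
lemma exists_cover_card_eq {A B : Set E} (h : ∃ t : Finset E, A ⊆ ⋃ x ∈ t, x +ᵥ B) :
    ∃ t : Finset E, t.card = coveringNumber A B ∧ A ⊆ ⋃ x ∈ t, x +ᵥ B := by
  obtain ⟨t, ht⟩ := h
  have hne : {k : ℕ | ∃ t : Finset E, t.card = k ∧ A ⊆ ⋃ x ∈ t, x +ᵥ B}.Nonempty :=
    ⟨t.card, t, rfl, ht⟩
  exact Nat.sInf_mem hne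

lemma coveringNumber_le {A B : Set E} {t : Finset E} (h : A ⊆ ⋃ x ∈ t, x +ᵥ B) :
    coveringNumber A B ≤ t.card :=
  Nat.sInf_le ⟨t, rfl, h⟩

end Vale.Agent.P126
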