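import Vale.Agent.P126.Transfer
import Vale.Agent.P126.Minimax

/-! Restrictions of vectors to subsets of coordinates, and the separation lemma. -/

namespace Vale.Agent.P126

open scoped Pointwise
open Finset

set_option linter.unusedSectionVars false

variable {ι : Type*} [Fintype ι] [DecidableEq ι]

/-- Restriction of a vector to a set of coordinates. -/
noncomputable def restr (σ : Finset ι) (x : EuclideanSpace ℝ ι) : EuclideanSpace ℝ ι :=
  WithLp.toLp 2 (fun i => if i ∈ σ then x i else 0)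

@[simp] lemma restr_apply (σ : Finset ι) (x : EuclideanSpace ℝ ι) (i : ι) :
    restr σ x i = if i ∈ σ then x i else 0 := by
  simp [restr]

/-- Coordinatewise absolute value. -/
noncomputable def absV (x : EuclideanSpace ℝ ι) : EuclideanSpace ℝ ι :=
  WithLp.toLp 2 (fun i => |x i|)

@[simp] lemma absV_apply (x : EuclideanSpace ℝ ι) (i : ι) : absV x i = |x i| := by
  simp [absV]

lemma absV_nonneg (x : EuclideanSpace ℝ ι) (i : ι) : 0 ≤ absV x i := by
  simp

lemma abs_restr_le (σ : Finset ι) (x : EuclideanSpace ℝ ι) (i : ι) : |restr σ x i| ≤ |x i| := by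
  simp only [restr_apply]
  by_cases hi : i ∈ σ
  · simp [hi]
  · simp only [hi, if_false, abs_zero]
    exact abs_nonneg _

lemma Solid.restr {K : Set (EuclideanSpace ℝ ι)} (hs : Solid K) {x : EuclideanSpace ℝ ι}
    (hx : x ∈ K) (σ : Finset ι) : restr σ x ∈ K :=
  hs x hx _ (abs_restr_le σ x)

lemma Solid.absV {K : Set (EuclideanSpace ℝ ι)} (hs : Solid K) {x : EuclideanSpace ℝ ι}
    (hx : x ∈ K) : absV x ∈ K :=
  hs x hx _ (fun i => by simp)

lemma Solid.of_absV {K : Set (EuclideanSpace ℝ ι)} (hs : Solid K) {x : EuclideanSpace ℝ ι}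
    (hx : Vale.Agent.P126.absV x ∈ K) : x ∈ K :=
  hs _ hx _ (fun i => by simp)

lemma Solid.smul {L : Set (EuclideanSpace ℝ ι)} (hs : Solid L) {a : ℝ} (ha : 0 < a) :
    Solid (a • L) := by
  rintro _ ⟨z, hz, rfl⟩ u hu
  refine Set.mem_smul_set.mpr ⟨a⁻¹ • u, hs z hz _ ?_, by rw [smul_smul, mul_inv_cancel₀ ha.ne', one_smul]⟩
  intro i
  have h1 := hu i
  simp only [PiLp.smul_apply, smul_eq_mul, abs_mul, abs_of_pos ha, abs_of_pos (inv_pos.mpr ha)] at h1 ⊢
  rw [inv_mul_le_iff₀ ha]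
  exact h1

lemma inner_le_of_mem_smul {L : Set (EuclideanSpace ℝ ι)} {a : ℝ} (ha : 0 ≤ a)
    {z y : EuclideanSpace ℝ ι} (hz : z ∈ a • L) (hy : y ∈ polarBody L) : inner ℝ z y ≤ a := by
  obtain ⟨w, hw, rfl⟩ := Set.mem_smul_set.mp hz
  rw [inner_smul_left]
  simp only [conj_trivial]
  have := hy w hw
  nlinarith

lemma mem_smul_of_inner_le {L : Set (EuclideanSpace ℝ ι)} (hL : IsSymBody L) {a : ℝ} (ha : 0 < a)
    {z : EuclideanSpace ℝ ι} (h : ∀ y ∈ polarBody L, inner ℝ z y ≤ a) : z ∈ a • L := by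
  refine Set.mem_smul_set.mpr ⟨a⁻¹ • z, ?_, by rw [smul_smul, mul_inv_cancel₀ ha.ne', one_smul]⟩
  rw [← polarBody_polarBody hL]
  intro y hy
  rw [real_inner_comm, inner_smul_left]
  simp only [conj_trivial]
  have := h y hy
  rw [inv_mul_le_iff₀ ha]
  linarith

lemma add_mem_smul {L : Set (EuclideanSpace ℝ ι)} (hconv : Convex ℝ L) {a b : ℝ} (ha : 0 ≤ a)
    (hb : 0 ≤ b) {x y : EuclideanSpace ℝ ι} (hx : x ∈ a • L) (hy : y ∈ b • L) :
    x + y ∈ (a + b) • L := by
  rw [hconv.add_smul ha hb]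
  exact Set.add_mem_add hx hy

/-- Solid-body context: `t` is a cover of the polar of `L` by translates of a third of the polar
of `K`. -/
structure Ctx (K L : Set (EuclideanSpace ℝ ι)) (t : Finset (EuclideanSpace ℝ ι)) : Prop where
  hK : IsSymBody K
  hL : IsSymBody L
  sK : Solid K
  sL : Solid L
  cov : polarBody L ⊆ ⋃ c ∈ t, c +ᵥ ((3:ℝ)⁻¹ • polarBody K)

lemma Ctx.sL' {K L : Set (EuclideanSpace ℝ ι)} {t : Finset (EuclideanSpace ℝ ι)} (c : Ctx K L t) :
    Solid (polarBody L) :=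
  solid_polarBody c.sL

/-- The separation lemma: points of the polar of `L` separated by points of `K` lie in different
translates of the cover. -/
lemma Ctx.card_le {K L : Set (EuclideanSpace ℝ ι)} {t : Finset (EuclideanSpace ℝ ι)}
    (c : Ctx K L t) {β : Type*} {A : Finset β} {Y : β → EuclideanSpace ℝ ι}
    (hY : ∀ a ∈ A, Y a ∈ polarBody L)
    (hsep : ∀ a ∈ A, ∀ a' ∈ A, a ≠ a' → ∃ u ∈ K, 1 ≤ inner ℝ u (Y a - Y a') ∨
      1 ≤ inner ℝ u (Y a' - Y a)) : A.card ≤ t.card := by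
  classical
  have hex : ∀ a ∈ A, ∃ e ∈ t, ∃ k ∈ polarBody K, Y a = e + (3:ℝ)⁻¹ • k := by
    intro a ha
    have := c.cov (hY a ha)
    simp only [Set.mem_iUnion, exists_prop] at this
    obtain ⟨e, he, hez⟩ := this
    obtain ⟨w, hw, hwz⟩ := Set.mem_vadd_set.mp hez
    obtain ⟨k, hk, rfl⟩ := Set.mem_smul_set.mp hw
    exact ⟨e, he, k, hk, by rw [← hwz]; simp⟩
  choose! g hg1 k hk1 hk2 using hex
  apply Finset.card_le_card_of_injOn g hg1
  intro a ha a' ha' hgg
  by_contra hne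
  obtain ⟨u, hu, hsep'⟩ := hsep a ha a' ha' hne
  have hgg' : g a = g a' := hgg
  have hdiff : Y a - Y a' = (3:ℝ)⁻¹ • (k a - k a') := by
    rw [hk2 a ha, hk2 a' ha', hgg']
    module
  have h5 := abs_le.mp (abs_inner_le_one c.hK hu (hk1 a ha))
  have h6 := abs_le.mp (abs_inner_le_one c.hK hu (hk1 a' ha'))
  have hdiff' : Y a' - Y a = (3:ℝ)⁻¹ • (k a' - k a) := by
    rw [hk2 a ha, hk2 a' ha', hgg']
    module
  rcases hsep' with h | h
  · rw [hdiff, inner_smul_right, inner_sub_right] at h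
    linarith [h5.1, h5.2, h6.1, h6.2]
  · rw [hdiff', inner_smul_right, inner_sub_right] at h
    linarith [h5.1, h5.2, h6.1, h6.2]

lemma Ctx.card_pos {K L : Set (EuclideanSpace ℝ ι)} {t : Finset (EuclideanSpace ℝ ι)}
    (c : Ctx K L t) : 0 < t.card := by
  have h0 : (0 : EuclideanSpace ℝ ι) ∈ polarBody L := zero_mem_polarBody L
  have := c.cov h0
  simp only [Set.mem_iUnion, exists_prop] at this
  obtain ⟨e, he, _⟩ := this
  exact Finset.card_pos.mpr ⟨e, he⟩

end Vale.Agent.P126
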