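import Vale.Agent.P126.Box

/-! A volumetric packing bound for diagonal images of solid bodies. -/

namespace Vale.Agent.P126

open scoped Pointwise
open Finset MeasureTheory

set_option linter.unusedSectionVars false

variable {ι : Type*} [Fintype ι] [DecidableEq ι]

/-- Abstract counting by volume. -/
lemma vol_pack {M : Set (ι → ℝ)} (hMm : MeasurableSet M) (hM0 : volume M ≠ 0)
    (hMt : volume M ≠ ⊤) {g : ι → ℝ} (hg : ∀ i, 0 < g i) {P : Finset (ι → ℝ)}
    (hsub : ∀ p ∈ P, ∀ u ∈ M, ∃ w ∈ M, ∀ i, p i + u i = g i * w i)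
    (hdisj : ∀ p ∈ P, ∀ p' ∈ P, p ≠ p' → ∀ u ∈ M, ∀ u' ∈ M, p + u ≠ p' + u') :
    (P.card : ℝ) ≤ ∏ i, g i := by
  let T : Module.End ℝ (ι → ℝ) := Matrix.toLin' (Matrix.diagonal g)
  have hT : ∀ w : ι → ℝ, T w = fun i => g i * w i := by
    intro w
    ext i
    simp [T, Matrix.toLin'_apply, Matrix.mulVec_diagonal]
  have hdet : LinearMap.det T = ∏ i, g i := by
    simp [T, LinearMap.det_toLin']
  have hprodpos : 0 < ∏ i, g i := Finset.prod_pos (fun i _ => hg i)
  let U : (ι → ℝ) → Set (ι → ℝ) := fun p => (fun h => -p + h) ⁻¹' M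
  have hUm : ∀ p, MeasurableSet (U p) := fun p =>
    (measurable_const_add (-p)) hMm
  have hUvol : ∀ p, volume (U p) = volume M := fun p =>
    measure_preimage_add volume (-p) M
  have hUdisj : Set.PairwiseDisjoint (P : Set (ι → ℝ)) U := by
    intro p hp p' hp' hne
    rw [Function.onFun, Set.disjoint_left]
    intro z hz hz'
    apply hdisj p hp p' hp' hne (-p + z) hz (-p' + z) hz'
    abel
  have hUsub : (⋃ p ∈ P, U p) ⊆ T '' M := by
    intro z hz
    simp only [Set.mem_iUnion, exists_prop] at hz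
    obtain ⟨p, hp, hzp⟩ := hz
    obtain ⟨w, hw, hpw⟩ := hsub p hp (-p + z) hzp
    refine ⟨w, hw, ?_⟩
    rw [hT]
    ext i
    have := hpw i
    simp only [Pi.add_apply, Pi.neg_apply] at this
    simp only [← this]
    ring
  have h1 : volume (⋃ p ∈ P, U p) = (P.card : ENNReal) * volume M := by
    rw [measure_biUnion_finset hUdisj (fun p _ => hUm p)]
    simp only [hUvol, Finset.sum_const, nsmul_eq_mul]
  have h2 : volume (T '' M) = ENNReal.ofReal (∏ i, g i) * volume M := by
    rw [Measure.addHaar_image_linearMap, hdet, abs_of_pos hprodpos]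
  have h3 : (P.card : ENNReal) * volume M ≤ ENNReal.ofReal (∏ i, g i) * volume M := by
    rw [← h1, ← h2]
    exact measure_mono hUsub
  have h4 : (P.card : ENNReal) ≤ ENNReal.ofReal (∏ i, g i) :=
    (ENNReal.mul_le_mul_iff_left hM0 hMt).mp h3
  have h5 : ENNReal.ofReal (P.card : ℝ) ≤ ENNReal.ofReal (∏ i, g i) := by
    simpa using h4
  exact (ENNReal.ofReal_le_ofReal_iff hprodpos.le).mp h5

/-- The thickened section of `A` along the coordinates of `σ`. -/
def thick (A : Set (EuclideanSpace ℝ ι)) (σ : Finset ι) : Set (ι → ℝ) :=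
  {f | WithLp.toLp 2 (fun i => if i ∈ σ then f i else 0) ∈ A ∧ ∀ i, i ∉ σ → |f i| ≤ 1}

lemma continuous_restrict_toLp (σ : Finset ι) :
    Continuous (fun f : ι → ℝ =>
      (WithLp.toLp 2 (fun i => if i ∈ σ then f i else 0) : EuclideanSpace ℝ ι)) := by
  apply (PiLp.continuous_toLp 2 (fun _ : ι => ℝ)).comp
  apply continuous_pi
  intro i
  by_cases hi : i ∈ σ
  · simp only [hi, if_true]
    exact continuous_apply i
  · simp only [hi, if_false]
    exact continuous_const

lemma thick_isClosed {A : Set (EuclideanSpace ℝ ι)} (hA : IsClosed A) (σ : Finset ι) :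
    IsClosed (thick A σ) := by
  have h1 : thick A σ = (fun f : ι → ℝ =>
      (WithLp.toLp 2 (fun i => if i ∈ σ then f i else 0) : EuclideanSpace ℝ ι)) ⁻¹' A ∩
      ⋂ i, {f | i ∉ σ → |f i| ≤ 1} := by
    ext f
    simp [thick]
  rw [h1]
  apply (hA.preimage (continuous_restrict_toLp σ)).inter
  apply isClosed_iInter
  intro i
  by_cases hi : i ∈ σ
  · simp [hi]
  · simp only [hi, not_false_eq_true, forall_const]
    exact isClosed_le (by fun_prop) continuous_const

lemma thick_volume_ne_zero {A : Set (EuclideanSpace ℝ ι)} (hA : IsSymBody A) (σ : Finset ι) :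
    volume (thick A σ) ≠ 0 := by
  obtain ⟨ρ, hρ, hball⟩ := hA.exists_ball_subset
  let V : Set (ι → ℝ) := (fun f : ι → ℝ =>
      (WithLp.toLp 2 (fun i => if i ∈ σ then f i else 0) : EuclideanSpace ℝ ι)) ⁻¹'
        Metric.ball 0 ρ ∩ Metric.ball 0 1
  have hVo : IsOpen V :=
    (Metric.isOpen_ball.preimage (continuous_restrict_toLp σ)).inter Metric.isOpen_ball
  have h0 : (0 : ι → ℝ) ∈ V := by
    constructor
    · simp only [Set.mem_preimage]
      have : (WithLp.toLp 2 (fun i => if i ∈ σ then (0 : ι → ℝ) i else 0) :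
          EuclideanSpace ℝ ι) = 0 := by
        ext i
        simp
      rw [this]
      simpa using hρ
    · simp
  have hVpos : 0 < volume V := hVo.measure_pos volume ⟨0, h0⟩
  have hsub : V ⊆ thick A σ := by
    rintro f ⟨hf1, hf2⟩
    refine ⟨hball hf1, fun i _ => ?_⟩
    have h3 : ‖f‖ < 1 := by simpa using hf2
    have h4 : ‖f i‖ ≤ ‖f‖ := norm_le_pi_norm f i
    have h5 : ‖f i‖ = |f i| := Real.norm_eq_abs _
    linarith
  exact (lt_of_lt_of_le hVpos (measure_mono hsub)).ne'

lemma thick_volume_ne_top {A : Set (EuclideanSpace ℝ ι)} (hA : IsSymBody A) (σ : Finset ι) :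
    volume (thick A σ) ≠ ⊤ := by
  obtain ⟨R, hR, hRb⟩ := hA.exists_norm_le
  have hbd : Bornology.IsBounded (thick A σ) := by
    rw [isBounded_iff_forall_norm_le]
    refine ⟨max R 1, ?_⟩
    intro f hf
    rw [pi_norm_le_iff_of_nonneg (by positivity)]
    intro i
    rw [Real.norm_eq_abs]
    by_cases hi : i ∈ σ
    · have h1 := hRb _ hf.1
      have h2 := PiLp.norm_apply_le
        (WithLp.toLp 2 (fun i => if i ∈ σ then f i else 0) : EuclideanSpace ℝ ι) i
      simp only [hi, if_true, Real.norm_eq_abs] at h2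
      exact (h2.trans h1).trans (le_max_left _ _)
    · exact (hf.2 i hi).trans (le_max_right _ _)
  exact hbd.measure_lt_top.ne

/-- Packing bound: points of the form `g · q` with `q ∈ A` supported on `σ`, pairwise not
in a common translate of `2 A`, are at most `∏_{i ∈ σ} 2 g_i` many. -/
theorem packing_bound {A : Set (EuclideanSpace ℝ ι)} (hA : IsSymBody A) (hs : Solid A)
    {σ : Finset ι} {g : ι → ℝ} (hg : ∀ i, 1 ≤ g i) {P : Finset (EuclideanSpace ℝ ι)}
    (hP : ∀ p ∈ P, ∃ q ∈ A, (∀ i, i ∉ σ → q i = 0) ∧ ∀ i, p i = g i * q i)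
    (hsep : ∀ p ∈ P, ∀ p' ∈ P, p ≠ p' → p - p' ∉ (2:ℝ) • A) :
    (P.card : ℝ) ≤ ∏ i ∈ σ, (2 * g i) := by
  classical
  let G : ι → ℝ := fun i => if i ∈ σ then 2 * g i else 1
  have hG : ∀ i, 0 < G i := by
    intro i
    have := hg i
    by_cases hi : i ∈ σ <;> simp [G, hi] <;> linarith
  let P' : Finset (ι → ℝ) := P.image (fun p => p.ofLp)
  have hinj : Function.Injective (fun p : EuclideanSpace ℝ ι => p.ofLp) := WithLp.ofLp_injective 2
  have hcard : P'.card = P.card := Finset.card_image_of_injective _ hinj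
  have hprod : ∏ i, G i = ∏ i ∈ σ, (2 * g i) := by
    simp only [G]
    rw [Finset.prod_ite_mem, Finset.univ_inter]
  rw [← hcard, ← hprod]
  apply vol_pack ((thick_isClosed hA.isCompact.isClosed σ).measurableSet)
    (thick_volume_ne_zero hA σ) (thick_volume_ne_top hA σ) hG
  · -- translates stay in the dilation
    intro p' hp' u hu
    obtain ⟨p, hp, rfl⟩ := Finset.mem_image.mp hp'
    obtain ⟨q, hq, hq0, hpq⟩ := hP p hp
    let w : ι → ℝ := fun i => (p i + u i) / G i
    refine ⟨w, ⟨?_, ?_⟩, ?_⟩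
    · -- the section of `w` lies in `A`
      let u' : EuclideanSpace ℝ ι := WithLp.toLp 2 (fun i => if i ∈ σ then u i else 0)
      let u'' : EuclideanSpace ℝ ι := WithLp.toLp 2 (fun i => if i ∈ σ then u i / g i else 0)
      have hu' : u' ∈ A := hu.1
      have hu'' : u'' ∈ A := by
        apply hs u' hu'
        intro i
        simp only [u', u'']
        by_cases hi : i ∈ σ
        · simp only [hi, if_true, PiLp.toLp_apply]
          rw [abs_div]
          apply div_le_self (abs_nonneg _)
          rw [abs_of_pos (by linarith [hg i])]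
          exact hg i
        · simp [hi]
      have hc := hA.convex hq hu'' (by norm_num : (0:ℝ) ≤ 1/2) (by norm_num : (0:ℝ) ≤ 1/2)
        (by norm_num)
      have heq : (WithLp.toLp 2 (fun i => if i ∈ σ then w i else 0) : EuclideanSpace ℝ ι) =
          (1/2 : ℝ) • q + (1/2 : ℝ) • u'' := by
        ext i
        have hgi : g i ≠ 0 := by linarith [hg i]
        by_cases hi : i ∈ σ
        · simp only [w, G, u'', hi, if_true, PiLp.add_apply, PiLp.smul_apply, smul_eq_mul,
            PiLp.toLp_apply, hpq i]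
          field_simp
        · simp only [u'', hi, if_false, PiLp.add_apply, PiLp.smul_apply, smul_eq_mul,
            PiLp.toLp_apply, hq0 i hi]
          ring
      rw [heq]
      exact hc
    · intro i hi
      have hp0 : p i = 0 := by rw [hpq i, hq0 i hi, mul_zero]
      simp only [w, G, hi, if_false, hp0, zero_add, div_one]
      exact hu.2 i hi
    · intro i
      have := (hG i).ne'
      simp only [w]
      field_simp
  · -- disjointness
    intro p₁ hp₁ p₂ hp₂ hne u hu u' hu' heq
    obtain ⟨p, hp, rfl⟩ := Finset.mem_image.mp hp₁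
    obtain ⟨p'', hp'', rfl⟩ := Finset.mem_image.mp hp₂
    have hne' : p ≠ p'' := fun h => hne (by rw [h])
    apply hsep p hp p'' hp'' hne'
    obtain ⟨q, hq, hq0, hpq⟩ := hP p hp
    obtain ⟨q', hq', hq0', hpq'⟩ := hP p'' hp''
    have h0 : ∀ i, i ∉ σ → p i = 0 := fun i hi => by rw [hpq i, hq0 i hi, mul_zero]
    have h0' : ∀ i, i ∉ σ → p'' i = 0 := fun i hi => by rw [hpq' i, hq0' i hi, mul_zero]
    let a : EuclideanSpace ℝ ι := WithLp.toLp 2 (fun i => if i ∈ σ then u i else 0)
    let a' : EuclideanSpace ℝ ι := WithLp.toLp 2 (fun i => if i ∈ σ then u' i else 0)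
    have ha : a ∈ A := hu.1
    have ha' : a' ∈ A := hu'.1
    have hmem := hA.convex ha' (hA.neg_mem a ha) (by norm_num : (0:ℝ) ≤ 1/2)
      (by norm_num : (0:ℝ) ≤ 1/2) (by norm_num)
    refine Set.mem_smul_set.mpr ⟨_, hmem, ?_⟩
    ext i
    have hi := congrFun heq i
    simp only [Pi.add_apply] at hi
    by_cases his : i ∈ σ
    · simp only [a, a', his, if_true, PiLp.smul_apply, PiLp.add_apply, PiLp.neg_apply,
        PiLp.sub_apply, smul_eq_mul, PiLp.toLp_apply]
      linarith
    · simp only [a, a', his, if_false, PiLp.smul_apply, PiLp.add_apply, PiLp.neg_apply,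
        PiLp.sub_apply, smul_eq_mul, PiLp.toLp_apply, h0 i his, h0' i his]
      ring

end Vale.Agent.P126
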