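import Vale.Agent.P126.Forward
import Vale.Agent.P126.Lozanovskii
import Vale.Agent.P126.VolumePack

/-! Reverse inequality: the entropy of the `ℓ¹` ball against the polar of a solid body is
controlled by the entropy of the body against the cube. -/

namespace Vale.Agent.P126

open scoped Pointwise
open Finset

set_option linter.unusedSectionVars false

variable {ι : Type*} [Fintype ι] [DecidableEq ι]

lemma solid_polarBody {K : Set (EuclideanSpace ℝ ι)} (hs : Solid K) : Solid (polarBody K) := by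
  intro y hy z hz x hx
  let w : EuclideanSpace ℝ ι := WithLp.toLp 2 (fun i => if 0 ≤ y i then |x i| else - |x i|)
  have hw : w ∈ K := by
    apply hs x hx
    intro i
    by_cases hi : 0 ≤ y i <;> simp [w, hi]
  have h1 := hy w hw
  refine le_trans ?_ h1
  rw [inner_eq_sum, inner_eq_sum]
  apply Finset.sum_le_sum
  intro i _
  have h2 : w i * y i = |x i| * |y i| := by
    by_cases hi : 0 ≤ y i
    · simp [w, hi, abs_of_nonneg hi]
    · have hi' : y i < 0 := not_le.mp hi
      simp [w, hi, abs_of_neg hi']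
  rw [h2]
  calc x i * z i ≤ |x i * z i| := le_abs_self _
    _ = |x i| * |z i| := abs_mul _ _
    _ ≤ |x i| * |y i| := mul_le_mul_of_nonneg_left (hz i) (abs_nonneg _)

lemma mem_vadd_cube_iff {c x : EuclideanSpace ℝ ι} : x ∈ c +ᵥ cube ι ↔ ∀ i, |x i - c i| ≤ 1 := by
  constructor
  · intro h i
    obtain ⟨b, hb, rfl⟩ := Set.mem_vadd_set.mp h
    simpa using hb i
  · intro h
    refine Set.mem_vadd_set.mpr ⟨x - c, fun i => by simpa using h i, by simp⟩

/-- Points of the body that are separated in some coordinate are at most as many as the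
translates of the cube covering the body. -/
lemma card_le_of_cube_separated {K : Set (EuclideanSpace ℝ ι)} {t : Finset (EuclideanSpace ℝ ι)}
    (hcov : K ⊆ ⋃ c ∈ t, c +ᵥ cube ι) {β : Type*} {A : Finset β}
    {v : β → EuclideanSpace ℝ ι} (hv : ∀ a ∈ A, v a ∈ K)
    (hsep : ∀ a ∈ A, ∀ a' ∈ A, a ≠ a' → ∃ i, 2 < |v a i - v a' i|) : A.card ≤ t.card := by
  have hex : ∀ a ∈ A, ∃ c ∈ t, v a ∈ c +ᵥ cube ι := by
    intro a ha
    have := hcov (hv a ha)
    simpa only [Set.mem_iUnion, exists_prop] using this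
  choose! g hg1 hg2 using hex
  apply Finset.card_le_card_of_injOn g hg1
  intro a ha a' ha' hgg
  by_contra hne
  obtain ⟨i, hi⟩ := hsep a ha a' ha' hne
  have h1 := mem_vadd_cube_iff.mp (hg2 a ha) i
  have h2 := mem_vadd_cube_iff.mp (hg2 a' ha') i
  have hgg' : g a = g a' := hgg
  rw [hgg'] at h1
  have h3 := abs_sub_le (v a i) (g a' i) (v a' i)
  rw [abs_sub_comm (g a' i) (v a' i)] at h3
  linarith

/-- Maximal separated families. -/
lemma exists_maximal_separated {Q L : Set (EuclideanSpace ℝ ι)}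
    (h0 : (0 : EuclideanSpace ℝ ι) ∈ L) (hneg : ∀ x ∈ L, -x ∈ L) {B : ℝ}
    (hB : ∀ P : Finset (EuclideanSpace ℝ ι), (∀ p ∈ P, p ∈ Q) →
      (∀ p ∈ P, ∀ p' ∈ P, p ≠ p' → p - p' ∉ L) → (P.card : ℝ) ≤ B) :
    ∃ P : Finset (EuclideanSpace ℝ ι), (∀ p ∈ P, p ∈ Q) ∧
      (∀ z ∈ Q, ∃ p ∈ P, z - p ∈ L) ∧ (P.card : ℝ) ≤ B := by
  classical
  let S : Set ℕ := {k | ∃ P : Finset (EuclideanSpace ℝ ι), (∀ p ∈ P, p ∈ Q) ∧
    (∀ p ∈ P, ∀ p' ∈ P, p ≠ p' → p - p' ∉ L) ∧ P.card = k}
  have hne : S.Nonempty := ⟨0, ∅, by simp, by simp, by simp⟩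
  have hbdd : BddAbove S := ⟨⌈B⌉₊, by
    rintro k ⟨P, h1, h2, rfl⟩
    have := hB P h1 h2
    exact_mod_cast this.trans (Nat.le_ceil B)⟩
  obtain ⟨P, h1, h2, h3⟩ := Nat.sSup_mem hne hbdd
  have hmax : ∀ k ∈ S, k ≤ P.card := by
    intro k hk
    rw [h3]
    exact le_csSup hbdd hk
  refine ⟨P, h1, ?_, hB P h1 h2⟩
  intro z hz
  by_contra hc
  push Not at hc
  have hzP : z ∉ P := by
    intro hzP
    have := hc z hzP
    rw [sub_self] at this
    exact this h0
  have hins : (insert z P).card ∈ S := by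
    refine ⟨insert z P, ?_, ?_, rfl⟩
    · intro p hp
      rcases Finset.mem_insert.mp hp with rfl | hp'
      · exact hz
      · exact h1 p hp'
    · intro p hp p' hp' hne'
      rcases Finset.mem_insert.mp hp with rfl | hp1
      · rcases Finset.mem_insert.mp hp' with rfl | hp2
        · exact absurd rfl hne'
        · exact hc p' hp2
      · rcases Finset.mem_insert.mp hp' with rfl | hp2
        · intro hmem
          apply hc p hp1
          have := hneg _ hmem
          simpa using this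
        · exact h2 p hp1 p' hp2 hne'
  have := hmax _ hins
  rw [Finset.card_insert_of_notMem hzP] at this
  omega

/-- Covering the diagonal image of a section of a solid body by translates of its double. -/
lemma cover_diagonal {A : Set (EuclideanSpace ℝ ι)} (hA : IsSymBody A) (hs : Solid A)
    (σ : Finset ι) {g : ι → ℝ} (hg : ∀ i, 1 ≤ g i) :
    ∃ P : Finset (EuclideanSpace ℝ ι), (P.card : ℝ) ≤ ∏ i ∈ σ, (2 * g i) ∧
      ∀ y : EuclideanSpace ℝ ι, (∃ q ∈ A, (∀ i, i ∉ σ → q i = 0) ∧ ∀ i, y i = g i * q i) →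
        ∃ p ∈ P, y - p ∈ (2:ℝ) • A := by
  have h0 : (0 : EuclideanSpace ℝ ι) ∈ (2:ℝ) • A := by
    have := Set.smul_mem_smul_set (a := (2:ℝ)) hA.zero_mem
    simpa using this
  have hneg : ∀ x ∈ (2:ℝ) • A, -x ∈ (2:ℝ) • A := (hA.smul (by norm_num)).neg_mem
  obtain ⟨P, _, h2, h3⟩ := exists_maximal_separated (Q := {y | ∃ q ∈ A, (∀ i, i ∉ σ → q i = 0) ∧
    ∀ i, y i = g i * q i}) h0 hneg (B := ∏ i ∈ σ, (2 * g i))
    (fun P hP hsep => packing_bound hA hs hg hP hsep)
  exact ⟨P, h3, fun y hy => h2 y hy⟩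

/-- A grid in the box spanned by a point of the body. -/
lemma witness_bound {K : Set (EuclideanSpace ℝ ι)} (hs : Solid K)
    {t : Finset (EuclideanSpace ℝ ι)} (hcov : K ⊆ ⋃ c ∈ t, c +ᵥ cube ι) {σ : Finset ι}
    {c x : EuclideanSpace ℝ ι} (hx : x ∈ K) (hx0 : ∀ i, 0 ≤ x i) (hσ : ∀ i ∈ σ, 3 ≤ x i)
    (hc : x ∈ c +ᵥ cube ι) :
    ∏ i ∈ σ, (2 * (|c i| + 1)) ≤ (10:ℝ) ^ σ.card * t.card := by
  classical
  let g : ι → ℕ := fun i => ⌊x i / 3⌋₊
  let Gr : Finset (ι → ℕ) :=
    Fintype.piFinset (fun i => if i ∈ σ then Finset.range (g i + 1) else {0})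
  let v : (ι → ℕ) → EuclideanSpace ℝ ι := fun e => WithLp.toLp 2 (fun i => 3 * (e i : ℝ))
  have hmem : ∀ e ∈ Gr, ∀ i, (i ∈ σ → e i ≤ g i) ∧ (i ∉ σ → e i = 0) := by
    intro e he i
    have := Fintype.mem_piFinset.mp he i
    constructor
    · intro hi
      simp only [hi, if_true, Finset.mem_range] at this
      omega
    · intro hi
      simpa [hi] using this
  have hvK : ∀ e ∈ Gr, v e ∈ K := by
    intro e he
    apply hs x hx
    intro i
    obtain ⟨h1, h2⟩ := hmem e he i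
    simp only [v, PiLp.toLp_apply]
    rw [abs_of_nonneg (by positivity), abs_of_nonneg (hx0 i)]
    by_cases hi : i ∈ σ
    · have h3 : (e i : ℝ) ≤ g i := by exact_mod_cast h1 hi
      have h4 : (g i : ℝ) ≤ x i / 3 := Nat.floor_le (by have := hx0 i; positivity)
      linarith
    · rw [h2 hi]
      simpa using hx0 i
  have hGrcard : Gr.card ≤ t.card := by
    apply card_le_of_cube_separated hcov hvK
    intro e _ e' _ hne
    obtain ⟨i, hi⟩ := Function.ne_iff.mp hne
    refine ⟨i, ?_⟩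
    simp only [v, PiLp.toLp_apply]
    have h1 : (1:ℝ) ≤ |(e i : ℝ) - (e' i : ℝ)| := by
      have : (1:ℤ) ≤ |(e i : ℤ) - (e' i : ℤ)| := by
        apply Int.one_le_abs
        omega
      exact_mod_cast this
    have h2 : 3 * (e i : ℝ) - 3 * (e' i : ℝ) = 3 * ((e i : ℝ) - (e' i : ℝ)) := by ring
    rw [h2, abs_mul, abs_of_pos (by norm_num : (0:ℝ) < 3)]
    linarith
  have hcard2 : Gr.card = ∏ i ∈ σ, (g i + 1) := by
    simp only [Gr, Fintype.card_piFinset]
    have : ∀ i, (if i ∈ σ then Finset.range (g i + 1) else {0}).card =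
        if i ∈ σ then g i + 1 else 1 := by
      intro i
      by_cases hi : i ∈ σ <;> simp [hi]
    simp only [this]
    rw [Finset.prod_ite_mem, Finset.univ_inter]
  have hterm : ∀ i ∈ σ, 2 * (|c i| + 1) ≤ 10 * ((g i + 1 : ℕ) : ℝ) := by
    intro i hi
    have h1 := mem_vadd_cube_iff.mp hc i
    have h2 : |c i| ≤ x i + 1 := by
      have h3 := (abs_le.mp h1)
      rw [abs_le]
      have := hx0 i
      constructor <;> linarith [h3.1, h3.2]
    have h3 : x i / 3 < (g i : ℝ) + 1 := Nat.lt_floor_add_one _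
    have h4 := hσ i hi
    push_cast
    linarith
  calc ∏ i ∈ σ, (2 * (|c i| + 1)) ≤ ∏ i ∈ σ, (10 * ((g i + 1 : ℕ) : ℝ)) := by
        apply Finset.prod_le_prod
        · intro i _
          positivity
        · exact hterm
    _ = (10:ℝ) ^ σ.card * ((∏ i ∈ σ, (g i + 1) : ℕ) : ℝ) := by
        rw [Finset.prod_mul_distrib, Finset.prod_const]
        push_cast
        rfl
    _ ≤ (10:ℝ) ^ σ.card * t.card := by
        apply mul_le_mul_of_nonneg_left _ (by positivity)
        rw [← hcard2]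
        exact_mod_cast hGrcard

open Classical in
/-- Faces at height three. -/
noncomputable def facesThree (K : Set (EuclideanSpace ℝ ι)) : Finset (Finset ι) :=
  (Finset.univ : Finset (Finset ι)).filter (fun σ => (3:ℝ) • ind σ ∈ K)

lemma mem_facesThree {K : Set (EuclideanSpace ℝ ι)} {σ : Finset ι} :
    σ ∈ facesThree K ↔ (3:ℝ) • ind σ ∈ K := by
  simp [facesThree]

lemma facesThree_card_le {K : Set (EuclideanSpace ℝ ι)} {t : Finset (EuclideanSpace ℝ ι)}
    (hcov : K ⊆ ⋃ c ∈ t, c +ᵥ cube ι) : (facesThree K).card ≤ t.card := by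
  apply card_le_of_cube_separated hcov (v := fun σ => (3:ℝ) • ind σ)
  · intro σ hσ
    exact mem_facesThree.mp hσ
  · intro σ _ σ' _ hne
    have : ∃ i, ¬ (i ∈ σ ↔ i ∈ σ') := by
      by_contra hc
      push Not at hc
      exact hne (Finset.ext hc)
    obtain ⟨i, hi⟩ := this
    refine ⟨i, ?_⟩
    simp only [PiLp.smul_apply, smul_eq_mul, ind_apply]
    by_cases h1 : i ∈ σ <;> by_cases h2 : i ∈ σ' <;> simp [h1, h2] at hi ⊢ <;> norm_num

lemma two_pow_card_le {K : Set (EuclideanSpace ℝ ι)} (hs : Solid K)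
    {t : Finset (EuclideanSpace ℝ ι)} (hcov : K ⊆ ⋃ c ∈ t, c +ᵥ cube ι) {σ : Finset ι}
    (hσ : σ ∈ facesThree K) : 2 ^ σ.card ≤ t.card := by
  rw [← Finset.card_powerset]
  refine le_trans (Finset.card_le_card ?_) (facesThree_card_le hcov)
  intro G hG
  have hG' := Finset.mem_powerset.mp hG
  rw [mem_facesThree] at hσ ⊢
  apply hs _ hσ
  intro i
  simp only [PiLp.smul_apply, smul_eq_mul, ind_apply, abs_mul]
  apply mul_le_mul_of_nonneg_left _ (abs_nonneg _)
  by_cases hi : i ∈ G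
  · simp [hi, hG' hi]
  · simp only [hi, if_false, abs_zero]
    exact abs_nonneg _

/-- Pointwise decomposition of a point of the `ℓ¹` ball. -/
lemma decompose_point {A : Set (EuclideanSpace ℝ ι)} (hA : IsSymBody A) (hs : Solid A)
    {σ : Finset ι} {y x x' p : EuclideanSpace ℝ ι} (hx0 : ∀ i, 0 ≤ x i)
    (hσ : ∀ i, i ∈ σ ↔ 3 ≤ x i) (hx' : x' ∈ A) (hy : ∀ i, y i = x i * x' i)
    (hp : (WithLp.toLp 2 (fun i => if i ∈ σ then y i else 0) : EuclideanSpace ℝ ι) - p ∈
      (2:ℝ) • A) : y ∈ p +ᵥ ((5:ℝ) • A) := by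
  set y₁ : EuclideanSpace ℝ ι := WithLp.toLp 2 (fun i => if i ∈ σ then y i else 0) with hy₁
  let y₂ : EuclideanSpace ℝ ι := WithLp.toLp 2 (fun i => if i ∈ σ then 0 else y i / 3)
  have hy₂ : y₂ ∈ A := by
    apply hs x' hx'
    intro i
    by_cases hi : i ∈ σ
    · simp [y₂, hi]
    · have h1 : x i < 3 := not_le.mp (fun h => hi ((hσ i).mpr h))
      have h2 := hx0 i
      simp only [y₂, hi, if_false, PiLp.toLp_apply]
      rw [hy i, abs_div, abs_mul, abs_of_nonneg h2, abs_of_pos (by norm_num : (0:ℝ) < 3)]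
      have h3 := abs_nonneg (x' i)
      rw [div_le_iff₀ (by norm_num : (0:ℝ) < 3)]
      nlinarith
  obtain ⟨a, ha, hae⟩ := Set.mem_smul_set.mp hp
  have hcomb := hA.convex ha hy₂ (by norm_num : (0:ℝ) ≤ 2/5) (by norm_num : (0:ℝ) ≤ 3/5)
    (by norm_num)
  refine Set.mem_vadd_set.mpr ⟨_, Set.smul_mem_smul_set hcomb, ?_⟩
  have h1 : y = y₁ + (3:ℝ) • y₂ := by
    ext i
    by_cases hi : i ∈ σ
    · simp [y₁, y₂, hi]
    · simp only [hy₁, y₂, hi, if_false, PiLp.add_apply, PiLp.smul_apply, smul_eq_mul,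
        PiLp.toLp_apply]
      ring
  have h2 : y₁ = p + (2:ℝ) • a := by
    rw [hae]
    abel
  rw [h1, h2, vadd_eq_add]
  module

/-- The reverse inequality for solid bodies and the cube. -/
theorem reverse_solid {K : Set (EuclideanSpace ℝ ι)} (hK : IsSymBody K) (hs : Solid K) :
    Real.log (coveringNumber (polarBody (cube ι)) ((5:ℝ) • polarBody K)) ≤
      7 * Real.log (coveringNumber K (cube ι)) := by
  classical
  have hA : IsSymBody (polarBody K) := hK.polarBody
  have hsA : Solid (polarBody K) := solid_polarBody hs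
  obtain ⟨ε, hε, hball⟩ := (isSymBody_cube (ι := ι)).exists_ball_subset
  obtain ⟨t, htc, htcov⟩ := exists_cover_card_eq (exists_finite_cover hK.isCompact hε hball)
  have hgt : ∀ (c : EuclideanSpace ℝ ι) (i : ι), 1 ≤ |c i| + 1 := by
    intro c i
    linarith [abs_nonneg (c i)]
  have hcd := fun τ : Finset ι × EuclideanSpace ℝ ι =>
    cover_diagonal hA hsA τ.1 (g := fun i => |τ.2 i| + 1) (hgt τ.2)
  choose P hP1 hP2 using hcd
  let R : Finset (Finset ι × EuclideanSpace ℝ ι) := (facesThree K ×ˢ t).filter (fun τ =>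
    ∃ x ∈ K, (∀ i, 0 ≤ x i) ∧ (∀ i, i ∈ τ.1 ↔ 3 ≤ x i) ∧ x ∈ τ.2 +ᵥ cube ι)
  have hRcard : R.card ≤ t.card * t.card := by
    calc R.card ≤ (facesThree K ×ˢ t).card := Finset.card_filter_le _ _
      _ = (facesThree K).card * t.card := Finset.card_product _ _
      _ ≤ t.card * t.card := Nat.mul_le_mul_right _ (facesThree_card_le htcov)
  have hPbound : ∀ τ ∈ R, (P τ).card ≤ t.card ^ 5 := by
    intro τ hτ
    obtain ⟨hτ1, x, hx, hx0, hσ, hc⟩ := Finset.mem_filter.mp hτ
    have hτσ : τ.1 ∈ facesThree K := (Finset.mem_product.mp hτ1).1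
    have h1 := hP1 τ
    have h2 := witness_bound hs htcov hx hx0 (fun i hi => (hσ i).mp hi) hc
    have h3 : (2:ℝ) ^ τ.1.card ≤ t.card := by
      exact_mod_cast two_pow_card_le hs htcov hτσ
    have h4 : (10:ℝ) ^ τ.1.card ≤ (t.card : ℝ) ^ 4 := by
      calc (10:ℝ) ^ τ.1.card ≤ (16:ℝ) ^ τ.1.card := pow_le_pow_left₀ (by norm_num) (by norm_num) _
        _ = ((2:ℝ) ^ τ.1.card) ^ 4 := by
            rw [← pow_mul, mul_comm, pow_mul]
            norm_num
        _ ≤ (t.card : ℝ) ^ 4 := pow_le_pow_left₀ (by positivity) h3 _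
    have h5 : ((P τ).card : ℝ) ≤ (t.card : ℝ) ^ 5 := by
      calc ((P τ).card : ℝ) ≤ (10:ℝ) ^ τ.1.card * t.card := h1.trans h2
        _ ≤ (t.card : ℝ) ^ 4 * t.card := mul_le_mul_of_nonneg_right h4 (by positivity)
        _ = (t.card : ℝ) ^ 5 := by ring
    exact_mod_cast h5
  let C : Finset (EuclideanSpace ℝ ι) := R.biUnion P
  have hCcard : C.card ≤ t.card ^ 7 := by
    calc C.card ≤ ∑ τ ∈ R, (P τ).card := Finset.card_biUnion_le
      _ ≤ ∑ _τ ∈ R, t.card ^ 5 := Finset.sum_le_sum hPbound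
      _ = R.card * t.card ^ 5 := by simp
      _ ≤ (t.card * t.card) * t.card ^ 5 := Nat.mul_le_mul_right _ hRcard
      _ = t.card ^ 7 := by ring
  have hcover : polarBody (cube ι) ⊆ ⋃ p ∈ C, p +ᵥ ((5:ℝ) • polarBody K) := by
    intro y hy
    obtain ⟨x, hx, x', hx', hx0, hfac⟩ := lozanovskii hK hs (nw_le_of_mem_polar_cube hy)
    have hxc := htcov hx
    simp only [Set.mem_iUnion, exists_prop] at hxc
    obtain ⟨c, hc, hxc'⟩ := hxc
    let σ : Finset ι := Finset.univ.filter (fun i => 3 ≤ x i)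
    have hσ : ∀ i, i ∈ σ ↔ 3 ≤ x i := by
      intro i
      simp [σ]
    have hσ3 : σ ∈ facesThree K := by
      rw [mem_facesThree]
      apply hs x hx
      intro i
      simp only [PiLp.smul_apply, smul_eq_mul, ind_apply]
      by_cases hi : i ∈ σ
      · simp only [hi, if_true, mul_one]
        rw [abs_of_pos (by norm_num : (0:ℝ) < 3), abs_of_nonneg (hx0 i)]
        exact (hσ i).mp hi
      · simp [hi]
    have hτ : (σ, c) ∈ R := Finset.mem_filter.mpr
      ⟨Finset.mem_product.mpr ⟨hσ3, hc⟩, x, hx, hx0, hσ, hxc'⟩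
    let q : EuclideanSpace ℝ ι :=
      WithLp.toLp 2 (fun i => if i ∈ σ then x' i * x i / (|c i| + 1) else 0)
    have hq : q ∈ polarBody K := by
      apply hsA x' hx'
      intro i
      by_cases hi : i ∈ σ
      · simp only [q, hi, if_true, PiLp.toLp_apply]
        have h1 := mem_vadd_cube_iff.mp hxc' i
        have h2 : |x i| ≤ |c i| + 1 := by
          have := abs_sub_abs_le_abs_sub (x i) (c i)
          linarith
        have h3 : (0:ℝ) < |c i| + 1 := by linarith [abs_nonneg (c i)]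
        rw [abs_div, abs_mul, abs_of_pos h3, div_le_iff₀ h3]
        exact mul_le_mul_of_nonneg_left h2 (abs_nonneg _)
      · simp [q, hi]
    have hrep : ∃ q ∈ polarBody K, (∀ i, i ∉ σ → q i = 0) ∧
        ∀ i, (WithLp.toLp 2 (fun i => if i ∈ σ then y i else 0) : EuclideanSpace ℝ ι) i =
          (|c i| + 1) * q i := by
      refine ⟨q, hq, ?_, ?_⟩
      · intro i hi
        simp [q, hi]
      · intro i
        have h3 : (|c i| + 1) ≠ 0 := by
          have := abs_nonneg (c i)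
          linarith
        by_cases hi : i ∈ σ
        · simp only [q, hi, if_true, PiLp.toLp_apply, hfac i]
          field_simp
        · simp [q, hi]
    obtain ⟨p, hp, hpm⟩ := hP2 (σ, c) _ hrep
    simp only [Set.mem_iUnion, exists_prop]
    exact ⟨p, Finset.mem_biUnion.mpr ⟨(σ, c), hτ, hp⟩,
      decompose_point hA hsA hx0 hσ hx' hfac hpm⟩
  have hle := (coveringNumber_le hcover).trans hCcard
  rw [← htc]
  by_cases hzero : coveringNumber (polarBody (cube ι)) ((5:ℝ) • polarBody K) = 0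
  · rw [hzero]
    simp only [Nat.cast_zero, Real.log_zero]
    have := Real.log_natCast_nonneg t.card
    positivity
  · have h1 : (0:ℝ) < coveringNumber (polarBody (cube ι)) ((5:ℝ) • polarBody K) := by
      exact_mod_cast Nat.pos_of_ne_zero hzero
    have h2 : ((coveringNumber (polarBody (cube ι)) ((5:ℝ) • polarBody K) : ℕ) : ℝ) ≤
        (t.card : ℝ) ^ 7 := by
      exact_mod_cast hle
    have h3 := Real.log_le_log h1 h2
    rw [Real.log_pow] at h3
    exact_mod_cast h3

end Vale.Agent.P126
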