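import Vale.Agent.P126.Universe
import Vale.Agent.P126.Majority

/-! Reducing a family of candidate supports, round after round, to majority sets. -/

namespace Vale.Agent.P126

open scoped Pointwise
open Finset

set_option linter.unusedSectionVars false

variable {ι : Type*} [Fintype ι] [DecidableEq ι]

lemma smul_mono_of_body {L : Set (EuclideanSpace ℝ ι)} (hL : IsSymBody L) {a b : ℝ} (ha : 0 ≤ a)
    (hb : 0 < b) (hab : a ≤ b) {x : EuclideanSpace ℝ ι} (hx : x ∈ a • L) : x ∈ b • L := by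
  obtain ⟨l, hl, rfl⟩ := Set.mem_smul_set.mp hx
  refine Set.mem_smul_set.mpr ⟨(a / b) • l, ?_, ?_⟩
  · exact hL.convex.smul_mem_of_zero_mem hL.zero_mem hl
      ⟨div_nonneg ha hb.le, (div_le_one hb).mpr hab⟩
  · rw [smul_smul]
    congr 1
    field_simp

open Classical in
/-- Sets lying in most members of a flat mixture of the family. -/
noncomputable def majSets (𝓖 : Finset (Finset ι)) (b : ℝ) : Finset (Finset ι) :=
  univ.filter (fun f => ∃ lam : Finset ι → ℝ, (∀ G, 0 ≤ lam G) ∧ (∑ G ∈ 𝓖, lam G = 1) ∧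
    (∀ G ∈ 𝓖, lam G ≤ 1 / b) ∧ ∀ v ∈ f, ∑ G ∈ 𝓖 with v ∉ G, lam G ≤ 1 / 4)

lemma mem_majSets {𝓖 : Finset (Finset ι)} {b : ℝ} {f : Finset ι} :
    f ∈ majSets 𝓖 b ↔ ∃ lam : Finset ι → ℝ, (∀ G, 0 ≤ lam G) ∧ (∑ G ∈ 𝓖, lam G = 1) ∧
      (∀ G ∈ 𝓖, lam G ≤ 1 / b) ∧ ∀ v ∈ f, ∑ G ∈ 𝓖 with v ∉ G, lam G ≤ 1 / 4 := by
  simp [majSets]

lemma majSets_bound {𝓖 : Finset (Finset ι)} {d : ℕ} (hG : ∀ G ∈ 𝓖, G.card ≤ d) {b : ℝ}
    (hb : 0 < b) (hb2 : b ≤ 𝓖.card) :
    (majSets 𝓖 b).Nonempty ∧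
    Real.log (majSets 𝓖 b).card ≤ 10 * (Real.log (8 * 𝓖.card / b) + d * Real.log 2) := by
  have hcpos : (0:ℝ) < 𝓖.card := lt_of_lt_of_le hb hb2
  have hne : (majSets 𝓖 b).Nonempty := by
    refine ⟨∅, mem_majSets.mpr ⟨fun _ => 1 / 𝓖.card, fun _ => by positivity, ?_, ?_, ?_⟩⟩
    · rw [Finset.sum_const, nsmul_eq_mul]
      field_simp
    · intro _ _
      exact one_div_le_one_div_of_le hb hb2
    · intro v hv
      simp at hv
  refine ⟨hne, majority_bound (univ : Finset ι) (fun _ _ => Finset.subset_univ _) hne ?_ hG hb ?_⟩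
  · intro F hF G hGF
    obtain ⟨lam, h0, h1, h2, h3⟩ := mem_majSets.mp hF
    exact mem_majSets.mpr ⟨lam, h0, h1, h2, fun v hv => h3 v (hGF hv)⟩
  · intro f hf
    exact mem_majSets.mp hf

/-- The case of a mixture of `b`-subsets with small pairings. -/
lemma dep_case {K L : Set (EuclideanSpace ℝ ι)} {t : Finset (EuclideanSpace ℝ ι)}
    (c : Ctx K L t) {x : EuclideanSpace ℝ ι} (hx0 : ∀ i, 0 ≤ x i) {𝓖 : Finset (Finset ι)}
    {b : ℕ} (hb : 1 ≤ b) {β : Type*} [Fintype β] (B : β → Finset (Finset ι))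
    (hB : ∀ j, B j ⊆ 𝓖) (hBc : ∀ j, (B j).card = b) (π : β → ℝ) (hπ0 : ∀ j, 0 ≤ π j)
    (hπ1 : ∑ j, π j = 1)
    (hless : ∀ y ∈ polarBody L, ∑ j, π j * inner ℝ ((b:ℝ)⁻¹ • ∑ G' ∈ B j, restr G'ᶜ x) y < 34)
    {G : Finset ι} (hGx : restr Gᶜ x ∈ (16:ℝ) • L) :
    ∃ f ∈ majSets 𝓖 (b:ℝ), f ⊆ G ∧ restr fᶜ x ∈ (152:ℝ) • L := by
  classical
  have hb0 : (0:ℝ) < b := by exact_mod_cast hb
  set z : EuclideanSpace ℝ ι := ∑ j, π j • ((b:ℝ)⁻¹ • ∑ G' ∈ B j, restr G'ᶜ x) with hz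
  have hzin : ∀ y, inner ℝ z y = ∑ j, π j * inner ℝ ((b:ℝ)⁻¹ • ∑ G' ∈ B j, restr G'ᶜ x) y := by
    intro y
    rw [hz, sum_inner]
    apply Finset.sum_congr rfl
    intro j _
    rw [inner_smul_left]
    simp
  have hz34 : z ∈ (34:ℝ) • L := by
    apply mem_smul_of_inner_le c.hL (by norm_num)
    intro y hy
    rw [hzin]
    exact (hless y hy).le
  -- the weights on the family
  set lam : Finset ι → ℝ := fun G' => ∑ j, π j * (if G' ∈ B j then (b:ℝ)⁻¹ else 0) with hlam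
  have hl0 : ∀ G', 0 ≤ lam G' := by
    intro G'
    apply Finset.sum_nonneg
    intro j _
    apply mul_nonneg (hπ0 j)
    split_ifs
    · positivity
    · exact le_refl _
  have hl1 : ∑ G' ∈ 𝓖, lam G' = 1 := by
    simp only [hlam]
    rw [Finset.sum_comm]
    rw [← hπ1]
    apply Finset.sum_congr rfl
    intro j _
    rw [← Finset.mul_sum, Finset.sum_ite_mem, Finset.inter_eq_right.mpr (hB j),
      Finset.sum_const, hBc j, nsmul_eq_mul]
    field_simp
  have hl2 : ∀ G' ∈ 𝓖, lam G' ≤ 1 / (b:ℝ) := by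
    intro G' _
    calc lam G' ≤ ∑ j, π j * (b:ℝ)⁻¹ := by
          apply Finset.sum_le_sum
          intro j _
          apply mul_le_mul_of_nonneg_left _ (hπ0 j)
          split_ifs
          · exact le_refl _
          · positivity
      _ = 1 / (b:ℝ) := by rw [← Finset.sum_mul, hπ1, one_mul, one_div]
  set w : ι → ℝ := fun v => ∑ G' ∈ 𝓖 with v ∉ G', lam G' with hw
  have hw0 : ∀ v, 0 ≤ w v := fun v => Finset.sum_nonneg (fun G' _ => hl0 G')
  have hzv : ∀ v, z v = x v * w v := by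
    intro v
    have h1 : z v = ∑ j, π j * ((b:ℝ)⁻¹ * ∑ G' ∈ B j, restr G'ᶜ x v) := by
      rw [hz, WithLp.ofLp_sum]
      simp only [Finset.sum_apply, WithLp.ofLp_smul, Pi.smul_apply, smul_eq_mul, WithLp.ofLp_sum]
    have h2 : ∀ j, (∑ G' ∈ B j, restr G'ᶜ x v) =
        x v * ∑ G' ∈ 𝓖, (if G' ∈ B j then (if v ∉ G' then 1 else 0) else 0) := by
      intro j
      rw [Finset.sum_ite_mem, Finset.inter_eq_right.mpr (hB j), Finset.mul_sum]
      apply Finset.sum_congr rfl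
      intro G' _
      simp only [restr_apply, Finset.mem_compl]
      by_cases hv : v ∈ G' <;> simp [hv]
    rw [h1]
    simp only [h2]
    simp only [hw, hlam]
    rw [Finset.sum_filter, Finset.mul_sum]
    have h3 : ∀ G' ∈ 𝓖, x v * (if v ∉ G' then ∑ j, π j * (if G' ∈ B j then (b:ℝ)⁻¹ else 0) else 0) =
        ∑ j, π j * ((b:ℝ)⁻¹ * (x v * (if G' ∈ B j then (if v ∉ G' then 1 else 0) else 0))) := by
      intro G' _
      by_cases hv : v ∈ G'
      · simp [hv]
      · simp only [hv, not_false_eq_true, if_true]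
        rw [Finset.mul_sum]
        apply Finset.sum_congr rfl
        intro j _
        by_cases hj : G' ∈ B j <;> simp [hj]
        ring
    rw [Finset.sum_congr rfl h3, Finset.sum_comm]
    apply Finset.sum_congr rfl
    intro j _
    rw [← Finset.mul_sum, ← Finset.mul_sum, ← Finset.mul_sum]
  refine ⟨G.filter (fun v => w v < 1/4), ?_, Finset.filter_subset _ _, ?_⟩
  · refine mem_majSets.mpr ⟨lam, hl0, hl1, hl2, ?_⟩
    intro v hv
    exact (Finset.mem_filter.mp hv).2.le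
  · set f : Finset ι := G.filter (fun v => w v < 1/4) with hf
    set D : Finset ι := G.filter (fun v => 1/4 ≤ w v) with hD
    have h4z : (4:ℝ) • z ∈ (136:ℝ) • L := by
      obtain ⟨l, hl, hlz⟩ := Set.mem_smul_set.mp hz34
      refine Set.mem_smul_set.mpr ⟨l, hl, ?_⟩
      rw [← hlz, smul_smul]
      norm_num
    have hDL : restr D x ∈ (136:ℝ) • L := by
      apply (c.sL.smul (by norm_num : (0:ℝ) < 136)) _ h4z
      intro v
      simp only [restr_apply, PiLp.smul_apply, smul_eq_mul]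
      by_cases hv : v ∈ D
      · rw [if_pos hv]
        have hv' : 1/4 ≤ w v := (Finset.mem_filter.mp hv).2
        rw [hzv, abs_of_nonneg (hx0 v), abs_of_nonneg (by have := hx0 v; positivity)]
        have := hx0 v
        nlinarith
      · rw [if_neg hv, abs_zero]
        exact abs_nonneg _
    have hsplit : restr fᶜ x = restr Gᶜ x + restr D x := by
      ext v
      simp only [PiLp.add_apply, restr_apply, Finset.mem_compl, hf, hD, Finset.mem_filter]
      by_cases h1 : v ∈ G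
      · by_cases h2 : w v < 1/4
        · have h3 : ¬ (1/4 ≤ w v) := not_le.mpr h2
          simp [h1, h2]
        · have h3 : 1/4 ≤ w v := not_lt.mp h2
          simp [h1, h3]
      · simp [h1]
    rw [hsplit]
    have := add_mem_smul c.hL.convex (by norm_num : (0:ℝ) ≤ 16) (by norm_num : (0:ℝ) ≤ 136) hGx hDL
    norm_num at this
    exact this

/-- The test for two candidate supports. -/
lemma sep_test {K L : Set (EuclideanSpace ℝ ι)} {t : Finset (EuclideanSpace ℝ ι)}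
    (c : Ctx K L t) {x y : EuclideanSpace ℝ ι} (hy : y ∈ polarBody L) {G G' : Finset ι}
    (hGx : restr Gᶜ x ∈ (16:ℝ) • L) (h17 : 17 ≤ inner ℝ (restr G'ᶜ x) y) :
    1 ≤ inner ℝ (restr (G \ G') x) (restr G y - restr G' y) := by
  classical
  rw [inner_restr_sdiff]
  rw [inner_restr_left] at h17
  have h1 : restr (G'ᶜ ∩ Gᶜ) x ∈ (16:ℝ) • L := by
    apply (c.sL.smul (by norm_num : (0:ℝ) < 16)) _ hGx
    intro v
    simp only [restr_apply, Finset.mem_inter, Finset.mem_compl]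
    by_cases h2 : v ∈ G <;> by_cases h3 : v ∈ G' <;> simp [h2, h3]
  have h2 := inner_le_of_mem_smul (by norm_num) h1 hy
  rw [inner_restr_left] at h2
  have h3 : ∑ v ∈ G'ᶜ, x v * y v = ∑ v ∈ G \ G', x v * y v + ∑ v ∈ G'ᶜ ∩ Gᶜ, x v * y v := by
    rw [← Finset.sum_union]
    · apply Finset.sum_congr _ (fun _ _ => rfl)
      ext v
      simp only [Finset.mem_compl, Finset.mem_union, Finset.mem_sdiff, Finset.mem_inter]
      tauto
    · rw [Finset.disjoint_left]
      intro v hv hv'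
      exact (Finset.mem_compl.mp (Finset.mem_inter.mp hv').2) (Finset.mem_sdiff.mp hv).1
  linarith

/-- The candidate supports with a pairing are few. -/
lemma nondep_card {K L : Set (EuclideanSpace ℝ ι)} {t : Finset (EuclideanSpace ℝ ι)}
    (c : Ctx K L t) {𝓖 𝓝 : Finset (Finset ι)} (hsub : 𝓝 ⊆ 𝓖) {b : ℕ} (hb : 1 ≤ b)
    (h𝓝 : ∀ G ∈ 𝓝, ∃ x ∈ K, restr Gᶜ x ∈ (16:ℝ) • L ∧ ∃ y ∈ polarBody L,
      ∀ B : Finset (Finset ι), B ⊆ 𝓖 → B.card = b →
        34 * (b:ℝ) ≤ ∑ G' ∈ B, inner ℝ (restr G'ᶜ x) y) :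
    𝓝.card ≤ t.card * b := by
  classical
  have hb0 : (0:ℝ) < b := by exact_mod_cast hb
  choose! x hx hxG y hy hyB using h𝓝
  let Bad : Finset ι → Finset (Finset ι) := fun G =>
    𝓖.filter (fun G' => inner ℝ (restr G'ᶜ (x G)) (y G) < (17:ℝ))
  have hBad : ∀ G ∈ 𝓝, (Bad G).card < b := by
    intro G hG
    by_contra hcon
    obtain ⟨B, hB, hBc⟩ := Finset.exists_subset_card_eq (not_lt.mp hcon)
    have h1 := hyB G hG B (hB.trans (Finset.filter_subset _ _)) hBc
    have h2 : ∑ G' ∈ B, inner ℝ (restr G'ᶜ (x G)) (y G) ≤ ∑ _G' ∈ B, (17:ℝ) :=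
      Finset.sum_le_sum (fun G' hG' => (Finset.mem_filter.mp (hB hG')).2.le)
    rw [Finset.sum_const, nsmul_eq_mul, hBc] at h2
    linarith
  let rel : Finset ι → Finset ι → Prop := fun G G' => G = G' ∨ (G' ∈ Bad G ∧ G ∈ Bad G')
  obtain ⟨I, hI, hind, hcard⟩ := exists_independent 𝓝 rel (fun _ _ => Or.inl rfl)
    (by
      rintro G G' (h | ⟨h1, h2⟩)
      · exact Or.inl h.symm
      · exact Or.inr ⟨h2, h1⟩)
    (D := (b:ℝ))
    (by
      intro G' hG' T _ hT
      have hsub : T ⊆ insert G' (Bad G') := by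
        intro G hG
        rcases hT G hG with h | ⟨_, h2⟩
        · rw [h]
          exact Finset.mem_insert_self _ _
        · exact Finset.mem_insert_of_mem h2
      have h1 := Finset.card_le_card hsub
      have h2 := Finset.card_insert_le G' (Bad G')
      have h3 := hBad G' hG'
      have : T.card ≤ b := by omega
      exact_mod_cast this)
  have hsepone : ∀ G ∈ 𝓝, ∀ G' ∈ 𝓝, G' ∉ Bad G →
      1 ≤ inner ℝ (restr (G \ G') (x G)) (restr G (y G) - restr G' (y G')) := by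
    intro G hG G' hG' h
    have h17 : 17 ≤ inner ℝ (restr G'ᶜ (x G)) (y G) := by
      by_contra hc
      exact h (Finset.mem_filter.mpr ⟨hsub hG', not_le.mp hc⟩)
    have h2 := sep_test c (hy G hG) (hxG G hG) h17
    have h3 : inner ℝ (restr (G \ G') (x G)) (restr G (y G) - restr G' (y G')) =
        inner ℝ (restr (G \ G') (x G)) (restr G (y G) - restr G' (y G)) := by
      rw [inner_restr_sdiff]
      rw [inner_eq_sum, sum_eq_sum_ite (G \ G')]
      apply Finset.sum_congr rfl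
      intro v _
      by_cases h4 : v ∈ G <;> by_cases h5 : v ∈ G' <;> simp [h4, h5]
    rw [h3]
    exact h2
  have hIc : I.card ≤ t.card := by
    apply c.card_le (Y := fun G => restr G (y G)) (fun G hG => c.sL'.restr (hy G (hI hG)) G)
    intro G hG G' hG' hne
    have hnr := hind G hG G' hG' hne
    simp only [rel, not_or, not_and_or] at hnr
    rcases hnr.2 with h | h
    · exact ⟨restr (G \ G') (x G), c.sK.restr (hx G (hI hG)) _,
        Or.inl (hsepone G (hI hG) G' (hI hG') h)⟩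
    · exact ⟨restr (G' \ G) (x G'), c.sK.restr (hx G' (hI hG')) _,
        Or.inr (hsepone G' (hI hG') G (hI hG) h)⟩
  have h1 : (𝓝.card : ℝ) ≤ t.card * b := by
    refine hcard.trans ?_
    apply mul_le_mul_of_nonneg_right _ hb0.le
    exact_mod_cast hIc
  exact_mod_cast h1

/-- One round of the reduction. -/
lemma one_round {K L : Set (EuclideanSpace ℝ ι)} {t : Finset (EuclideanSpace ℝ ι)}
    (c : Ctx K L t) (𝓖 : Finset (Finset ι)) {b : ℕ} (hb : 1 ≤ b) :
    ∃ 𝓝 ⊆ 𝓖, 𝓝.card ≤ t.card * b ∧ ∀ x ∈ K, ∀ G ∈ 𝓖, restr Gᶜ x ∈ (16:ℝ) • L →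
      G ∈ 𝓝 ∨ ∃ f ∈ majSets 𝓖 (b:ℝ), f ⊆ G ∧ restr fᶜ x ∈ (152:ℝ) • L := by
  classical
  have hb0 : (0:ℝ) < b := by exact_mod_cast hb
  let P : Finset ι → Prop := fun G => ∃ x ∈ K, restr Gᶜ x ∈ (16:ℝ) • L ∧ ∃ y ∈ polarBody L,
      ∀ B : Finset (Finset ι), B ⊆ 𝓖 → B.card = b →
        34 * (b:ℝ) ≤ ∑ G' ∈ B, inner ℝ (restr G'ᶜ x) y
  refine ⟨𝓖.filter P, Finset.filter_subset _ _, ?_, ?_⟩
  · exact nondep_card c (Finset.filter_subset _ _) hb (fun G hG => (Finset.mem_filter.mp hG).2)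
  · intro x hx G hG hGx
    set xh : EuclideanSpace ℝ ι := absV x with hxh
    have hxhK : xh ∈ K := c.sK.absV hx
    have hdom : ∀ σ : Finset ι, ∀ v, |restr σ x v| = |restr σ xh v| := by
      intro σ v
      simp only [restr_apply]
      by_cases hv : v ∈ σ <;> simp [hv, hxh]
    have hGxh : restr Gᶜ xh ∈ (16:ℝ) • L :=
      (c.sL.smul (by norm_num)) _ hGx _ (fun v => (hdom Gᶜ v).ge)
    by_cases hP : ∃ y ∈ polarBody L, ∀ B : Finset (Finset ι), B ⊆ 𝓖 → B.card = b →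
        34 * (b:ℝ) ≤ ∑ G' ∈ B, inner ℝ (restr G'ᶜ xh) y
    · exact Or.inl (Finset.mem_filter.mpr ⟨hG, xh, hxhK, hGxh, hP⟩)
    · right
      have hmix : ∃ π : ↥(Finset.powersetCard b 𝓖) → ℝ, (∀ j, 0 ≤ π j) ∧ (∑ j, π j = 1) ∧
          ∀ y ∈ polarBody L, ∑ j, π j * inner ℝ ((b:ℝ)⁻¹ • ∑ G' ∈ j.1, restr G'ᶜ xh) y < 34 := by
        by_contra hcon
        push Not at hcon
        obtain ⟨y, hy, hyj⟩ := finite_minimax c.hL.polarBody.isCompact (polarBody_convex L)
          ⟨0, zero_mem_polarBody L⟩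
          (fun j : ↥(Finset.powersetCard b 𝓖) => (b:ℝ)⁻¹ • ∑ G' ∈ j.1, restr G'ᶜ xh) 34
          (fun π hπ0 hπ1 => hcon π hπ0 hπ1)
        apply hP
        refine ⟨y, hy, fun B hB hBc => ?_⟩
        have h1 := hyj ⟨B, Finset.mem_powersetCard.mpr ⟨hB, hBc⟩⟩
        simp only at h1
        rw [inner_smul_left, sum_inner] at h1
        simp only [conj_trivial] at h1
        rw [inv_mul_eq_div, le_div_iff₀ hb0] at h1
        exact h1
      obtain ⟨π, hπ0, hπ1, hless⟩ := hmix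
      obtain ⟨f, hf, hfG, hfL⟩ := dep_case c (absV_nonneg x) hb
        (fun j : ↥(Finset.powersetCard b 𝓖) => j.1)
        (fun j => (Finset.mem_powersetCard.mp j.2).1) (fun j => (Finset.mem_powersetCard.mp j.2).2)
        π hπ0 hπ1 hless hGxh
      exact ⟨f, hf, hfG, (c.sL.smul (by norm_num)) _ hfL _ (fun v => (hdom fᶜ v).le)⟩

/-- The reduction, run on a whole family. -/
theorem rounds {K L : Set (EuclideanSpace ℝ ι)} {t : Finset (EuclideanSpace ℝ ι)}
    (c : Ctx K L t) (d₀ : ℕ) {Q : ℝ} (hQ1 : 2 * (t.card:ℝ) ≤ Q)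
    (hQ2 : (32 * (t.card:ℝ) * 2 ^ d₀) ^ 10 ≤ Q) :
    ∀ (n : ℕ) (𝓖 : Finset (Finset ι)), 𝓖.card ≤ n → (∀ G ∈ 𝓖, G.card ≤ d₀) →
      ∃ 𝓗 : Finset (Finset ι), (𝓗.card : ℝ) ≤ Q * ((Nat.log 2 𝓖.card : ℝ) + 1) ∧
        ∀ x ∈ K, ∀ G ∈ 𝓖, restr Gᶜ x ∈ (16:ℝ) • L →
          ∃ f ∈ 𝓗, f ⊆ G ∧ restr fᶜ x ∈ (152:ℝ) • L := by
  classical
  have hM := c.card_pos
  have hM0 : (0:ℝ) < t.card := by exact_mod_cast hM
  have hQ0 : 0 ≤ Q := by linarith
  intro n
  induction n with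
  | zero =>
    intro 𝓖 h𝓖 _
    have : 𝓖 = ∅ := Finset.card_eq_zero.mp (Nat.le_zero.mp h𝓖)
    subst this
    exact ⟨∅, by simp; positivity, by simp⟩
  | succ n ih =>
    intro 𝓖 h𝓖 hd
    by_cases hsmall : 𝓖.card < 2 * t.card
    · refine ⟨𝓖, ?_, ?_⟩
      · have h1 : (𝓖.card : ℝ) ≤ 2 * t.card := by exact_mod_cast hsmall.le
        have h2 : (0:ℝ) ≤ Nat.log 2 𝓖.card := Nat.cast_nonneg _
        nlinarith
      · intro x _ G hG hGx
        exact ⟨G, hG, subset_rfl, smul_mono_of_body c.hL (by norm_num) (by norm_num)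
          (by norm_num) hGx⟩
    · push Not at hsmall
      set b : ℕ := 𝓖.card / (2 * t.card) with hbdef
      have hb1 : 1 ≤ b := by
        rw [hbdef]
        exact (Nat.one_le_div_iff (by omega)).mpr hsmall
      have hb2 : 2 * t.card * b ≤ 𝓖.card := Nat.mul_div_le _ _
      have hb3 : 𝓖.card < 2 * t.card * (b + 1) := by
        rw [hbdef]
        exact Nat.lt_mul_div_succ _ (by omega)
      obtain ⟨𝓝, h𝓝sub, h𝓝c, h𝓝⟩ := one_round c 𝓖 hb1
      have h𝓝2 : 2 * 𝓝.card ≤ 𝓖.card := by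
        calc 2 * 𝓝.card ≤ 2 * (t.card * b) := Nat.mul_le_mul_left _ h𝓝c
          _ = 2 * t.card * b := by ring
          _ ≤ _ := hb2
      have hG2 : 2 ≤ 𝓖.card := by omega
      obtain ⟨𝓗', h𝓗'c, h𝓗'⟩ := ih 𝓝 (by omega) (fun G hG => hd G (h𝓝sub hG))
      have hb0 : (0:ℝ) < b := by exact_mod_cast hb1
      have hbG : (b:ℝ) ≤ 𝓖.card := by
        have : b ≤ 𝓖.card := by
          calc b ≤ 2 * t.card * b := Nat.le_mul_of_pos_left _ (by omega)
            _ ≤ _ := hb2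
        exact_mod_cast this
      obtain ⟨hmne, hmlog⟩ := majSets_bound hd hb0 hbG
      have hmc : ((majSets 𝓖 (b:ℝ)).card : ℝ) ≤ Q := by
        refine le_trans ?_ hQ2
        have hmpos : (0:ℝ) < (majSets 𝓖 (b:ℝ)).card := by
          exact_mod_cast Finset.card_pos.mpr hmne
        have hpos : (0:ℝ) < 32 * (t.card:ℝ) * 2 ^ d₀ := by positivity
        apply (Real.log_le_log_iff hmpos (by positivity)).mp
        refine hmlog.trans ?_
        rw [Real.log_pow, Real.log_mul (by positivity) (by positivity), Real.log_pow]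
        push_cast
        have hr : 8 * (𝓖.card:ℝ) / b ≤ 32 * t.card := by
          rw [div_le_iff₀ hb0]
          have h3 : (𝓖.card:ℝ) ≤ 2 * t.card * (b + 1) := by exact_mod_cast hb3.le
          have h4 : (1:ℝ) ≤ b := by exact_mod_cast hb1
          nlinarith
        have := Real.log_le_log (by have : (0:ℝ) < 𝓖.card := by linarith
                                    positivity) hr
        linarith
      refine ⟨𝓗' ∪ majSets 𝓖 (b:ℝ), ?_, ?_⟩
      · have h1 : ((𝓗' ∪ majSets 𝓖 (b:ℝ)).card : ℝ) ≤ 𝓗'.card + (majSets 𝓖 (b:ℝ)).card := by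
          exact_mod_cast Finset.card_union_le _ _
        have h2 : Nat.log 2 𝓝.card + 1 ≤ Nat.log 2 𝓖.card := by
          rcases Nat.eq_zero_or_pos 𝓝.card with h0 | hp
          · rw [h0]
            simp only [Nat.log_zero_right, zero_add]
            exact Nat.log_pos (by norm_num) hG2
          · have h3 : Nat.log 2 (𝓝.card * 2) = Nat.log 2 𝓝.card + 1 :=
              Nat.log_mul_base (by norm_num) (by omega)
            rw [← h3]
            exact Nat.log_mono_right (by omega)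
        have h3 : ((Nat.log 2 𝓝.card : ℝ) + 1) ≤ (Nat.log 2 𝓖.card : ℝ) := by
          exact_mod_cast h2
        have h4 : Q * ((Nat.log 2 𝓝.card : ℝ) + 1) ≤ Q * (Nat.log 2 𝓖.card : ℝ) :=
          mul_le_mul_of_nonneg_left h3 hQ0
        linarith
      · intro x hx G hG hGx
        rcases h𝓝 x hx G hG hGx with h | ⟨f, hf, hfG, hfL⟩
        · obtain ⟨f, hf, hfG, hfL⟩ := h𝓗' x hx G h hGx
          exact ⟨f, Finset.mem_union_left _ hf, hfG, hfL⟩
        · exact ⟨f, Finset.mem_union_right _ hf, hfG, hfL⟩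

end Vale.Agent.P126
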