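import Vale.Agent.P126.Code

/-! Essential supports: every point of a solid body is, up to a dilate of the other body,
supported on few coordinates. -/

namespace Vale.Agent.P126

open scoped Pointwise
open Finset

set_option linter.unusedSectionVars false

variable {ι : Type*} [Fintype ι] [DecidableEq ι]

lemma inner_restr_left (σ : Finset ι) (x y : EuclideanSpace ℝ ι) :
    inner ℝ (restr σ x) y = ∑ v ∈ σ, x v * y v := by
  rw [inner_eq_sum, sum_eq_sum_ite σ]
  apply Finset.sum_congr rfl
  intro i _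
  by_cases hi : i ∈ σ <;> simp [hi]

lemma inner_restr_sdiff (D D' : Finset ι) (x y : EuclideanSpace ℝ ι) :
    inner ℝ (restr (D \ D') x) (restr D y - restr D' y) = ∑ v ∈ D \ D', x v * y v := by
  rw [inner_restr_left]
  apply Finset.sum_congr rfl
  intro v hv
  have h1 := (Finset.mem_sdiff.mp hv).1
  have h2 := (Finset.mem_sdiff.mp hv).2
  simp [h1, h2]

/-- A point of the polar with large pairing after deleting any few coordinates gives a large
separated family in the polar. -/
lemma spread_bound {K L : Set (EuclideanSpace ℝ ι)} {t : Finset (EuclideanSpace ℝ ι)}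
    (c : Ctx K L t) {x y : EuclideanSpace ℝ ι} (hx : x ∈ K) (hx0 : ∀ i, 0 ≤ x i) {e : ℕ}
    (he : 1 ≤ e) (hy : y ∈ polarBody L)
    (hS : ∀ S : Finset ι, S.card ≤ e → 8 ≤ inner ℝ (restr Sᶜ x) y) :
    (e : ℝ) ≤ 8 * Real.log t.card := by
  classical
  have he0 : (0:ℝ) < e := by exact_mod_cast he
  have hŷ : absV y ∈ polarBody L := c.sL'.absV hy
  set q : ι → ℝ := fun v => x v * |y v| with hq
  have hq0 : ∀ v, 0 ≤ q v := fun v => mul_nonneg (hx0 v) (abs_nonneg _)
  have hqS : ∀ S : Finset ι, S.card ≤ e → 8 ≤ ∑ v ∈ Sᶜ, q v := by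
    intro S hSc
    refine (hS S hSc).trans ?_
    rw [inner_restr_left]
    apply Finset.sum_le_sum
    intro v _
    exact mul_le_mul_of_nonneg_left (le_abs_self _) (hx0 v)
  set q' : ι → ℝ := fun v => min (q v) (8 / e) with hq'
  have hq'0 : ∀ v, 0 ≤ q' v := fun v => le_min (hq0 v) (by positivity)
  have hA8 : 8 ≤ ∑ v, q' v := by
    set T : Finset ι := univ.filter (fun v => 8 / (e:ℝ) < q v) with hT
    by_cases hTc : e ≤ T.card
    · have h1 : ∑ v ∈ T, (8 / (e:ℝ)) ≤ ∑ v ∈ T, q' v := by
        apply Finset.sum_le_sum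
        intro v hv
        have := (Finset.mem_filter.mp hv).2
        exact le_min this.le (le_refl _)
      rw [Finset.sum_const, nsmul_eq_mul] at h1
      have h2 : ∑ v ∈ T, q' v ≤ ∑ v, q' v :=
        Finset.sum_le_sum_of_subset_of_nonneg (Finset.subset_univ _) (fun v _ _ => hq'0 v)
      have h3 : (e:ℝ) ≤ T.card := by exact_mod_cast hTc
      have h4 : (8:ℝ) ≤ T.card * (8 / e) := by
        rw [mul_div_assoc', le_div_iff₀ he0]
        nlinarith
      linarith
    · have h1 := hqS T (by omega)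
      have h2 : ∑ v ∈ Tᶜ, q v = ∑ v ∈ Tᶜ, q' v := by
        apply Finset.sum_congr rfl
        intro v hv
        have hv' : v ∉ T := Finset.mem_compl.mp hv
        have : q v ≤ 8 / e := by
          by_contra hc
          exact hv' (Finset.mem_filter.mpr ⟨Finset.mem_univ v, not_le.mp hc⟩)
        simp only [hq']
        rw [min_eq_left this]
      have h3 : ∑ v ∈ Tᶜ, q' v ≤ ∑ v, q' v :=
        Finset.sum_le_sum_of_subset_of_nonneg (Finset.subset_univ _) (fun v _ _ => hq'0 v)
      linarith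
  set A : ℝ := ∑ v, q' v with hA
  have hA0 : 0 < A := by linarith
  set q'' : ι → ℝ := fun v => (8 / A) * q' v with hq''
  have hr0 : 0 < 8 / A := by positivity
  have hr1 : 8 / A ≤ 1 := by
    rw [div_le_one hA0]
    exact hA8
  have hq''0 : ∀ v, 0 ≤ q'' v := fun v => mul_nonneg hr0.le (hq'0 v)
  have hq''le : ∀ v, q'' v ≤ q' v := by
    intro v
    have := hq'0 v
    simp only [hq'']
    nlinarith
  have hq''8 : ∑ v, q'' v = 8 := by
    simp only [hq'']
    rw [← Finset.mul_sum, ← hA]
    field_simp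
  have hq''atom : ∀ v, q'' v ≤ 8 / (e:ℝ) := fun v => (hq''le v).trans (min_le_right _ _)
  have hq''q : ∀ v, q'' v ≤ q v := fun v => (hq''le v).trans (min_le_left _ _)
  obtain ⟨D, hDcard, hDsep⟩ := exists_code q'' hq''0 hq''8 he0 hq''atom
  set y'' : EuclideanSpace ℝ ι := WithLp.toLp 2 (fun v => q'' v / x v) with hy''
  have hy''apply : ∀ v, y'' v = q'' v / x v := by
    intro v
    simp [hy'']
  have hy''mem : y'' ∈ polarBody L := by
    apply c.sL' _ hŷ
    intro v
    rw [hy''apply, absV_apply, abs_abs, abs_of_nonneg (div_nonneg (hq''0 v) (hx0 v))]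
    by_cases hv : x v = 0
    · simp [hv]
    · have hv0 : 0 < x v := lt_of_le_of_ne (hx0 v) (Ne.symm hv)
      rw [div_le_iff₀ hv0]
      have := hq''q v
      simp only [hq] at this
      linarith
  have hprod : ∀ v, x v * y'' v = q'' v := by
    intro v
    rw [hy''apply]
    by_cases hv : x v = 0
    · have h1 := hq''q v
      have h2 := hq''0 v
      have h3 : q v = 0 := by simp [hq, hv]
      have h4 : q'' v = 0 := by linarith
      simp [hv, h4]
    · field_simp
  have hcard : D.card ≤ t.card := by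
    apply c.card_le (Y := fun E => restr E y'') (fun E _ => c.sL'.restr hy''mem E)
    intro E hE E' hE' hne
    have h2 := hDsep E hE E' hE' hne
    by_cases h3 : 1 ≤ ∑ v ∈ E \ E', q'' v
    · refine ⟨restr (E \ E') x, c.sK.restr hx _, Or.inl ?_⟩
      rw [inner_restr_sdiff]
      simpa only [hprod] using h3
    · refine ⟨restr (E' \ E) x, c.sK.restr hx _, Or.inr ?_⟩
      rw [inner_restr_sdiff]
      simp only [hprod]
      push Not at h3
      linarith
  have hcardpos : (0:ℝ) < D.card := lt_of_lt_of_le (Real.exp_pos _) hDcard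
  have h5 : Real.exp ((e:ℝ) / 8) ≤ t.card := hDcard.trans (by exact_mod_cast hcard)
  have h6 : (e:ℝ) / 8 ≤ Real.log t.card := by
    rw [Real.le_log_iff_exp_le]
    · exact h5
    · exact lt_of_lt_of_le (Real.exp_pos _) h5
  linarith

/-- A mixture of deletions with small pairings gives a small support. -/
lemma support_of_mixture {K L : Set (EuclideanSpace ℝ ι)} {t : Finset (EuclideanSpace ℝ ι)}
    (c : Ctx K L t) {x : EuclideanSpace ℝ ι} (hx0 : ∀ i, 0 ≤ x i) {e : ℕ}
    (π : {S : Finset ι // S.card ≤ e} → ℝ) (hπ0 : ∀ S, 0 ≤ π S) (hπ1 : ∑ S, π S = 1)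
    (hless : ∀ y ∈ polarBody L, ∑ S, π S * inner ℝ (restr S.1ᶜ x) y < 8) :
    ∃ τ : Finset ι, τ.card ≤ 2 * e ∧ restr τᶜ x ∈ (16:ℝ) • L := by
  classical
  set z : EuclideanSpace ℝ ι := ∑ S, π S • restr S.1ᶜ x with hz
  have hzin : ∀ y, inner ℝ z y = ∑ S, π S * inner ℝ (restr S.1ᶜ x) y := by
    intro y
    rw [hz, sum_inner]
    apply Finset.sum_congr rfl
    intro S _
    rw [inner_smul_left]
    simp
  have hz8 : z ∈ (8:ℝ) • L := by
    apply mem_smul_of_inner_le c.hL (by norm_num)
    intro y hy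
    rw [hzin]
    exact (hless y hy).le
  set w : ι → ℝ := fun v => ∑ S : {S : Finset ι // S.card ≤ e}, π S * (if v ∈ S.1 then 1 else 0)
    with hw
  have hzv : ∀ v, z v = x v * (1 - w v) := by
    intro v
    have h1 : z v = ∑ S : {S : Finset ι // S.card ≤ e}, π S * (restr S.1ᶜ x) v := by
      rw [hz]
      rw [WithLp.ofLp_sum]
      simp [Finset.sum_apply]
    have h2 : x v * (1 - w v) = ∑ S : {S : Finset ι // S.card ≤ e},
        (π S * x v - x v * (π S * (if v ∈ S.1 then 1 else 0))) := by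
      rw [Finset.sum_sub_distrib, ← Finset.sum_mul, hπ1, ← Finset.mul_sum]
      simp only [hw]
      ring
    rw [h1, h2]
    apply Finset.sum_congr rfl
    intro S _
    simp only [restr_apply, Finset.mem_compl]
    by_cases hv : v ∈ S.1
    · simp [hv]; ring
    · simp [hv]
  have hw0 : ∀ v, 0 ≤ w v := by
    intro v
    apply Finset.sum_nonneg
    intro S _
    apply mul_nonneg (hπ0 S)
    split_ifs <;> norm_num
  have hwsum : ∑ v, w v ≤ e := by
    have h1 : ∑ v, w v = ∑ S : {S : Finset ι // S.card ≤ e}, π S * (S.1.card : ℝ) := by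
      simp only [hw]
      rw [Finset.sum_comm]
      apply Finset.sum_congr rfl
      intro S _
      rw [← Finset.mul_sum]
      congr 1
      simp
    rw [h1]
    calc ∑ S : {S : Finset ι // S.card ≤ e}, π S * (S.1.card : ℝ)
        ≤ ∑ S : {S : Finset ι // S.card ≤ e}, π S * (e : ℝ) := by
          apply Finset.sum_le_sum
          intro S _
          apply mul_le_mul_of_nonneg_left _ (hπ0 S)
          exact_mod_cast S.2
      _ = e := by rw [← Finset.sum_mul, hπ1, one_mul]
  refine ⟨univ.filter (fun v => 1/2 ≤ w v), ?_, ?_⟩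
  · set τ : Finset ι := univ.filter (fun v => 1/2 ≤ w v) with hτ
    have h1 : ∑ _v ∈ τ, (1/2 : ℝ) ≤ ∑ v ∈ τ, w v :=
      Finset.sum_le_sum (fun v hv => (Finset.mem_filter.mp hv).2)
    have h2 : ∑ v ∈ τ, w v ≤ ∑ v, w v :=
      Finset.sum_le_sum_of_subset_of_nonneg (Finset.subset_univ _) (fun v _ _ => hw0 v)
    rw [Finset.sum_const, nsmul_eq_mul] at h1
    have h3 : (τ.card : ℝ) ≤ 2 * e := by linarith
    exact_mod_cast h3
  · have h2z : (2:ℝ) • z ∈ (16:ℝ) • L := by
      obtain ⟨l, hl, hlz⟩ := Set.mem_smul_set.mp hz8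
      refine Set.mem_smul_set.mpr ⟨l, hl, ?_⟩
      rw [← hlz, smul_smul]
      norm_num
    apply (c.sL.smul (by norm_num : (0:ℝ) < 16)) _ h2z
    intro v
    simp only [restr_apply, PiLp.smul_apply, smul_eq_mul]
    by_cases hv : v ∈ (univ.filter (fun v => 1/2 ≤ w v))ᶜ
    · rw [if_pos hv]
      have hv' : w v < 1/2 := by
        by_contra hc
        exact (Finset.mem_compl.mp hv) (Finset.mem_filter.mpr ⟨Finset.mem_univ v, not_lt.mp hc⟩)
      rw [hzv, abs_of_nonneg (hx0 v)]
      have h3 : 0 ≤ 1 - w v := by linarith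
      rw [abs_of_nonneg (by have := hx0 v; positivity)]
      have := hx0 v
      nlinarith
    · rw [if_neg hv, abs_zero]
      exact abs_nonneg _

/-- Essential support of a point of a solid body. -/
theorem essential_support {K L : Set (EuclideanSpace ℝ ι)} {t : Finset (EuclideanSpace ℝ ι)}
    (c : Ctx K L t) {x : EuclideanSpace ℝ ι} (hx : x ∈ K) :
    ∃ τ : Finset ι, (τ.card : ℝ) ≤ 16 * Real.log t.card + 2 ∧ restr τᶜ x ∈ (16:ℝ) • L := by
  classical
  set xh : EuclideanSpace ℝ ι := absV x with hxh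
  have hxhK : xh ∈ K := c.sK.absV hx
  have hxh0 : ∀ i, 0 ≤ xh i := absV_nonneg x
  set A : Finset (Finset ι) := univ.filter (fun τ => restr τᶜ xh ∈ (16:ℝ) • L) with hA
  have hAne : A.Nonempty := by
    refine ⟨univ, Finset.mem_filter.mpr ⟨Finset.mem_univ _, ?_⟩⟩
    have : restr (univ : Finset ι)ᶜ xh = 0 := by
      ext i
      simp
    rw [this]
    exact (c.hL.smul (by norm_num)).zero_mem
  obtain ⟨τ₀, hτ₀, hmin⟩ := Finset.exists_min_image A Finset.card hAne
  have hτ₀mem : restr τ₀ᶜ xh ∈ (16:ℝ) • L := (Finset.mem_filter.mp hτ₀).2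
  have hlog : 0 ≤ Real.log t.card := Real.log_natCast_nonneg _
  refine ⟨τ₀, ?_, ?_⟩
  · by_cases hd : τ₀.card ≤ 2
    · have : (τ₀.card : ℝ) ≤ 2 := by exact_mod_cast hd
      linarith
    · set e : ℕ := (τ₀.card - 1) / 2 with he
      have he1 : 1 ≤ e := by omega
      have hex : ∃ y ∈ polarBody L, ∀ S : {S : Finset ι // S.card ≤ e},
          8 ≤ inner ℝ (restr S.1ᶜ xh) y := by
        apply finite_minimax c.hL.polarBody.isCompact (polarBody_convex L)
          ⟨0, zero_mem_polarBody L⟩
        intro π hπ0 hπ1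
        by_contra hcon
        push Not at hcon
        obtain ⟨τ, hτc, hτm⟩ := support_of_mixture c hxh0 π hπ0 hπ1 hcon
        have := hmin τ (Finset.mem_filter.mpr ⟨Finset.mem_univ _, hτm⟩)
        omega
      obtain ⟨y, hy, hyS⟩ := hex
      have h1 := spread_bound c hxhK hxh0 he1 hy (fun S hS => hyS ⟨S, hS⟩)
      have h2 : τ₀.card ≤ 2 * e + 2 := by omega
      have h3 : (τ₀.card : ℝ) ≤ 2 * e + 2 := by exact_mod_cast h2
      linarith
  · apply (c.sL.smul (by norm_num : (0:ℝ) < 16)) _ hτ₀mem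
    intro v
    simp only [restr_apply]
    by_cases hv : v ∈ τ₀ᶜ
    · simp [hv, hxh]
    · simp [hv]

end Vale.Agent.P126
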