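import Vale.Agent.P126.Reverse

/-! Reduction of the general statement to the coordinate cube. -/

namespace Vale.Agent.P126

open scoped Pointwise
open Finset

set_option linter.unusedSectionVars false

section Generic

variable {E : Type*} [NormedAddCommGroup E] [InnerProductSpace ℝ E]

lemma coveringNumber_mono_left {A A' B : Set E} (h : A ⊆ A')
    (hfin : ∃ t : Finset E, A' ⊆ ⋃ x ∈ t, x +ᵥ B) :
    coveringNumber A B ≤ coveringNumber A' B := by
  obtain ⟨t, ht, hcov⟩ := exists_cover_card_eq hfin
  rw [← ht]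
  exact coveringNumber_le (h.trans hcov)

lemma coveringNumber_mono_right {A B B' : Set E} (h : B ⊆ B')
    (hfin : ∃ t : Finset E, A ⊆ ⋃ x ∈ t, x +ᵥ B) :
    coveringNumber A B' ≤ coveringNumber A B := by
  obtain ⟨t, ht, hcov⟩ := exists_cover_card_eq hfin
  rw [← ht]
  apply coveringNumber_le
  intro z hz
  have := hcov hz
  simp only [Set.mem_iUnion, exists_prop] at this ⊢
  obtain ⟨x, hx, hzx⟩ := this
  exact ⟨x, hx, Set.vadd_set_mono h hzx⟩

lemma log_nat_mono {a b : ℕ} (h : a ≤ b) : Real.log a ≤ Real.log b := by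
  by_cases ha : a = 0
  · rw [ha]
    simpa using Real.log_natCast_nonneg b
  · apply Real.log_le_log
    · exact_mod_cast Nat.pos_of_ne_zero ha
    · exact_mod_cast h

lemma coveringNumber_image (F : E ≃ₗ[ℝ] E) (A B : Set E) :
    coveringNumber (F '' A) (F '' B) = coveringNumber A B := by
  classical
  have key : ∀ (F : E ≃ₗ[ℝ] E) (A B : Set E),
      {k : ℕ | ∃ t : Finset E, t.card = k ∧ A ⊆ ⋃ x ∈ t, x +ᵥ B} ⊆
      {k : ℕ | ∃ t : Finset E, t.card = k ∧ F '' A ⊆ ⋃ x ∈ t, x +ᵥ (F '' B)} := by
    rintro F A B k ⟨t, rfl, hcov⟩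
    refine ⟨t.image F, Finset.card_image_of_injective _ F.injective, ?_⟩
    rintro _ ⟨z, hz, rfl⟩
    have := hcov hz
    simp only [Set.mem_iUnion, exists_prop] at this ⊢
    obtain ⟨x, hx, hzx⟩ := this
    obtain ⟨b, hb, rfl⟩ := Set.mem_vadd_set.mp hzx
    refine ⟨F x, Finset.mem_image_of_mem _ hx, ?_⟩
    refine Set.mem_vadd_set.mpr ⟨F b, Set.mem_image_of_mem _ hb, ?_⟩
    simp
  unfold coveringNumber
  congr 1
  apply Set.Subset.antisymm
  · have := key F.symm (F '' A) (F '' B)
    have h1 : ∀ S : Set E, F.symm '' (F '' S) = S := by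
      intro S
      rw [← Set.image_comp]
      simp
    rwa [h1, h1] at this
  · exact key F A B

lemma image_smul_set_linear (F : E ≃ₗ[ℝ] E) (a : ℝ) (S : Set E) :
    F '' (a • S) = a • (F '' S) := by
  ext y
  constructor
  · rintro ⟨_, ⟨u, hu, rfl⟩, rfl⟩
    exact ⟨F u, ⟨u, hu, rfl⟩, by simp⟩
  · rintro ⟨_, ⟨u, hu, rfl⟩, rfl⟩
    exact ⟨a • u, ⟨u, hu, rfl⟩, by simp⟩

lemma polarBody_image {Φ Ψ : E ≃ₗ[ℝ] E} (h : ∀ x y, inner ℝ (Φ x) (Ψ y) = (inner ℝ x y : ℝ))
    (A : Set E) : polarBody (Φ '' A) = Ψ '' polarBody A := by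
  ext y
  constructor
  · intro hy
    refine ⟨Ψ.symm y, ?_, by simp⟩
    intro x hx
    have := hy (Φ x) (Set.mem_image_of_mem _ hx)
    rw [← h, LinearEquiv.apply_symm_apply]
    exact this
  · rintro ⟨z, hz, rfl⟩ _ ⟨x, hx, rfl⟩
    rw [h]
    exact hz x hx

lemma polarBody_anti {A B : Set E} (h : A ⊆ B) : polarBody B ⊆ polarBody A :=
  fun _ hy x hx => hy x (h hx)

lemma IsSymBody.image [FiniteDimensional ℝ E] {K : Set E} (hK : IsSymBody K) (F : E ≃ₗ[ℝ] E) :
    IsSymBody (F '' K) := by
  let G : E ≃L[ℝ] E := F.toContinuousLinearEquiv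
  have hG : ∀ x, G x = F x := fun _ => rfl
  refine ⟨hK.convex.linear_image F.toLinearMap, hK.isCompact.image G.continuous, ?_, ?_⟩
  · obtain ⟨x, hx⟩ := hK.interior_nonempty
    refine ⟨G x, ?_⟩
    have h1 : F '' K = G.toHomeomorph '' K := rfl
    rw [h1, ← G.toHomeomorph.image_interior]
    exact Set.mem_image_of_mem _ hx
  · rintro _ ⟨x, hx, rfl⟩
    exact ⟨-x, hK.neg_mem x hx, by simp⟩

end Generic

section Hull

variable {ι : Type*} [Fintype ι] [DecidableEq ι]

/-- Multiplication by a fixed vector of scalars, as a linear map. -/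
noncomputable def diagMul (s : ι → ℝ) : EuclideanSpace ℝ ι →ₗ[ℝ] EuclideanSpace ℝ ι where
  toFun x := WithLp.toLp 2 (fun i => s i * x i)
  map_add' x y := by
    ext i
    simp [mul_add]
  map_smul' a x := by
    ext i
    simp only [PiLp.smul_apply, smul_eq_mul, RingHom.id_apply]
    ring

@[simp] lemma diagMul_apply (s : ι → ℝ) (x : EuclideanSpace ℝ ι) (i : ι) :
    diagMul s x i = s i * x i := rfl

lemma continuous_diagMul (s : ι → ℝ) : Continuous (diagMul s) :=
  LinearMap.continuous_of_finiteDimensional _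

/-- The sign images of a set. -/
def signImages (K : Set (EuclideanSpace ℝ ι)) : Set (EuclideanSpace ℝ ι) :=
  {u | ∃ x ∈ K, ∀ i, |u i| = |x i|}

/-- The closed convex hull of the sign images of an almost unconditional body. -/
theorem hull_props {K : Set (EuclideanSpace ℝ ι)} (hK : IsSymBody K) {C : ℝ} (hC : 1 ≤ C)
    (hu : ∀ x ∈ K, ∀ u : EuclideanSpace ℝ ι, (∀ i, |u i| = |x i|) → u ∈ C • K) :
    IsSymBody (closure (convexHull ℝ (signImages K))) ∧
      Solid (closure (convexHull ℝ (signImages K))) ∧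
      K ⊆ closure (convexHull ℝ (signImages K)) ∧
      closure (convexHull ℝ (signImages K)) ⊆ C • K := by
  have h1 : K ⊆ signImages K := fun x hx => ⟨x, hx, fun _ => rfl⟩
  have h2 : K ⊆ closure (convexHull ℝ (signImages K)) :=
    (h1.trans (subset_convexHull ℝ _)).trans subset_closure
  have hinv : ∀ s : ι → ℝ, (∀ i, |s i| = 1) → ∀ z ∈ closure (convexHull ℝ (signImages K)),
      diagMul s z ∈ closure (convexHull ℝ (signImages K)) := by
    intro s hs z hz
    have hsub : convexHull ℝ (signImages K) ⊆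
        (diagMul s) ⁻¹' convexHull ℝ (signImages K) := by
      apply convexHull_min
      · rintro u ⟨x, hx, hux⟩
        apply subset_convexHull
        refine ⟨x, hx, fun i => ?_⟩
        simp only [diagMul_apply]
        rw [abs_mul, hs i, one_mul, hux i]
      · exact (convex_convexHull ℝ _).linear_preimage _
    have hsub2 : closure (convexHull ℝ (signImages K)) ⊆
        (diagMul s) ⁻¹' closure (convexHull ℝ (signImages K)) := by
      apply closure_minimal
      · exact hsub.trans (Set.preimage_mono subset_closure)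
      · exact isClosed_closure.preimage (continuous_diagMul s)
    exact hsub2 hz
  have hconv : Convex ℝ (closure (convexHull ℝ (signImages K))) :=
    (convex_convexHull ℝ _).closure
  have hC0 : (0:ℝ) < C := by linarith
  have hbig : closure (convexHull ℝ (signImages K)) ⊆ C • K := by
    apply closure_minimal _ (hK.isCompact.smul C).isClosed
    apply convexHull_min _ (hK.convex.smul C)
    rintro u ⟨x, hx, hux⟩
    exact hu x hx u hux
  refine ⟨⟨hconv, (hK.isCompact.smul C).of_isClosed_subset isClosed_closure hbig, ?_, ?_⟩,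
    ?_, h2, hbig⟩
  · obtain ⟨x, hx⟩ := hK.interior_nonempty
    exact ⟨x, interior_mono h2 hx⟩
  · intro x hx
    have := hinv (fun _ => -1) (fun _ => by simp) x hx
    have heq : diagMul (fun _ => (-1:ℝ)) x = -x := by
      ext i
      simp
    rwa [heq] at this
  · apply solid_of_signs hconv
    intro x hx u hux
    let s : ι → ℝ := fun i => if u i = x i then 1 else -1
    have hs : ∀ i, |s i| = 1 := by
      intro i
      by_cases hi : u i = x i <;> simp [s, hi]
    have heq : u = diagMul s x := by
      ext i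
      by_cases hi : u i = x i
      · simp [s, hi]
      · have := (abs_eq_abs.mp (hux i)).resolve_left hi
        simp [s, this]
    rw [heq]
    exact hinv s hs x hx

/-- The two inequalities for almost unconditional bodies and the coordinate cube. -/
theorem uncond_cube {K : Set (EuclideanSpace ℝ ι)} (hK : IsSymBody K) {C : ℝ} (hC : 1 ≤ C)
    (hu : ∀ x ∈ K, ∀ u : EuclideanSpace ℝ ι, (∀ i, |u i| = |x i|) → u ∈ C • K) :
    (1/600 : ℝ) * Real.log (coveringNumber (polarBody (cube ι)) ((2000 * C) • polarBody K)) ≤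
        Real.log (coveringNumber K (cube ι)) ∧
      Real.log (coveringNumber K (cube ι)) ≤
        600 * Real.log (coveringNumber (polarBody (cube ι)) ((2000 * C)⁻¹ • polarBody K)) := by
  obtain ⟨hH, hHs, hKH, hHC⟩ := hull_props hK hC hu
  set H := closure (convexHull ℝ (signImages K)) with hHdef
  have hC0 : 0 < C := by linarith
  have hcube := isSymBody_cube (ι := ι)
  have hPK : IsSymBody (polarBody K) := hK.polarBody
  have hPcube : IsSymBody (polarBody (cube ι)) := hcube.polarBody
  -- finite covers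
  have hfin1 : ∀ {A B : Set (EuclideanSpace ℝ ι)}, IsSymBody A → IsSymBody B →
      ∃ t : Finset (EuclideanSpace ℝ ι), A ⊆ ⋃ x ∈ t, x +ᵥ B := by
    intro A B hA hB
    obtain ⟨ε, hε, hball⟩ := hB.exists_ball_subset
    exact exists_finite_cover hA.isCompact hε hball
  -- the dilated hull
  have hHs' : Solid (C⁻¹ • H) := by
    intro x hx u hux
    obtain ⟨z, hz, rfl⟩ := Set.mem_smul_set.mp hx
    refine Set.mem_smul_set.mpr ⟨C • u, hHs z hz _ ?_, ?_⟩
    · intro i
      simp only [PiLp.smul_apply, smul_eq_mul] at hux ⊢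
      have h1 := hux i
      rw [abs_mul, abs_of_pos (inv_pos.mpr hC0)] at h1
      rw [abs_mul, abs_of_pos hC0]
      rwa [le_inv_mul_iff₀ hC0] at h1
    · rw [smul_smul, inv_mul_cancel₀ hC0.ne', one_smul]
  have hHd : IsSymBody (C⁻¹ • H) := hH.smul (inv_pos.mpr hC0)
  have hHdK : C⁻¹ • H ⊆ K := by
    rintro _ ⟨z, hz, rfl⟩
    obtain ⟨w, hw, rfl⟩ := Set.mem_smul_set.mp (hHC hz)
    simp only [smul_smul, inv_mul_cancel₀ hC0.ne', one_smul]
    exact hw
  constructor
  · -- the reverse inequality
    have h1 := reverse_solid hHd hHs'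
    have h2 : Real.log (coveringNumber (C⁻¹ • H) (cube ι)) ≤
        Real.log (coveringNumber K (cube ι)) :=
      log_nat_mono (coveringNumber_mono_left hHdK (hfin1 hK hcube))
    have h3 : (5:ℝ) • polarBody (C⁻¹ • H) ⊆ (2000 * C) • polarBody K := by
      rw [polarBody_smul (inv_pos.mpr hC0), inv_inv]
      rintro _ ⟨_, ⟨y, hy, rfl⟩, rfl⟩
      have hy' : y ∈ polarBody K := polarBody_anti hKH hy
      show (5:ℝ) • C • y ∈ _
      rw [smul_smul]
      -- a dilate of a point in a convex set containing the origin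
      have ht : (5 * C) / (2000 * C) ∈ Set.Icc (0:ℝ) 1 := by
        constructor
        · positivity
        · rw [div_le_one (by positivity)]
          nlinarith
      have hm := hPK.convex.smul_mem_of_zero_mem hPK.zero_mem hy' ht
      refine ⟨_, hm, ?_⟩
      simp only [smul_smul]
      congr 1
      field_simp
    have h4 : Real.log (coveringNumber (polarBody (cube ι)) ((2000 * C) • polarBody K)) ≤
        Real.log (coveringNumber (polarBody (cube ι)) ((5:ℝ) • polarBody (C⁻¹ • H))) :=
      log_nat_mono (coveringNumber_mono_right h3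
        (hfin1 hPcube (hHd.polarBody.smul (by norm_num))))
    have h5 := Real.log_natCast_nonneg (coveringNumber K (cube ι))
    linarith
  · -- the forward inequality
    have h1 := forward_solid hH hHs
    have h2 : Real.log (coveringNumber K (cube ι)) ≤
        Real.log (coveringNumber H (cube ι)) :=
      log_nat_mono (coveringNumber_mono_left hKH (hfin1 hH hcube))
    have h3 : (2000 * C)⁻¹ • polarBody K ⊆ (2000:ℝ)⁻¹ • polarBody H := by
      rintro _ ⟨y, hy, rfl⟩
      refine ⟨C⁻¹ • y, ?_, ?_⟩
      · intro x hx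
        obtain ⟨w, hw, rfl⟩ := Set.mem_smul_set.mp (hHC hx)
        have := hy w hw
        rw [inner_smul_left, inner_smul_right]
        simp only [conj_trivial]
        rw [← mul_assoc, mul_inv_cancel₀ hC0.ne', one_mul]
        exact this
      · simp only [smul_smul]
        congr 1
        field_simp
    have h4 : Real.log (coveringNumber (polarBody (cube ι)) ((2000:ℝ)⁻¹ • polarBody H)) ≤
        Real.log (coveringNumber (polarBody (cube ι)) ((2000 * C)⁻¹ • polarBody K)) :=
      log_nat_mono (coveringNumber_mono_right h3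
        (hfin1 hPcube (hPK.smul (inv_pos.mpr (by positivity)))))
    linarith

end Hull

section Basis

variable {n : ℕ}

/-- Coordinates with respect to a basis, as a linear automorphism of Euclidean space. -/
noncomputable def coordEquiv (b : Module.Basis (Fin n) ℝ (EuclideanSpace ℝ (Fin n))) :
    EuclideanSpace ℝ (Fin n) ≃ₗ[ℝ] EuclideanSpace ℝ (Fin n) :=
  b.equivFun.trans (WithLp.linearEquiv 2 ℝ (Fin n → ℝ)).symm

@[simp] lemma coordEquiv_apply (b : Module.Basis (Fin n) ℝ (EuclideanSpace ℝ (Fin n)))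
    (x : EuclideanSpace ℝ (Fin n)) (i : Fin n) : coordEquiv b x i = b.repr x i := rfl

/-- The contragredient of a linear automorphism. -/
noncomputable def contra (Φ : EuclideanSpace ℝ (Fin n) ≃ₗ[ℝ] EuclideanSpace ℝ (Fin n)) :
    EuclideanSpace ℝ (Fin n) ≃ₗ[ℝ] EuclideanSpace ℝ (Fin n) :=
  LinearEquiv.ofLinearMap (LinearMap.adjoint Φ.symm.toLinearMap) (LinearMap.adjoint Φ.toLinearMap)
    (by
      rw [← LinearMap.adjoint_comp]
      have : Φ.toLinearMap ∘ₗ Φ.symm.toLinearMap = LinearMap.id := by
        ext x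
        simp
      rw [this, LinearMap.adjoint_id])
    (by
      rw [← LinearMap.adjoint_comp]
      have : Φ.symm.toLinearMap ∘ₗ Φ.toLinearMap = LinearMap.id := by
        ext x
        simp
      rw [this, LinearMap.adjoint_id])

lemma inner_contra (Φ : EuclideanSpace ℝ (Fin n) ≃ₗ[ℝ] EuclideanSpace ℝ (Fin n))
    (x y : EuclideanSpace ℝ (Fin n)) : inner ℝ (Φ x) (contra Φ y) = (inner ℝ x y : ℝ) := by
  have : contra Φ y = LinearMap.adjoint Φ.symm.toLinearMap y := rfl
  rw [this, LinearMap.adjoint_inner_right]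
  simp

/-- The two inequalities for a body that is almost unconditional in a basis, and the unit cube
of this basis. -/
theorem uncond_basis (b : Module.Basis (Fin n) ℝ (EuclideanSpace ℝ (Fin n)))
    {K : Set (EuclideanSpace ℝ (Fin n))} (hK : IsSymBody K) {C : ℝ} (hC : 1 ≤ C)
    (hu : ∀ x ∈ K, ∀ u, (∀ i, |b.repr u i| = |b.repr x i|) → u ∈ C • K) :
    (1/600 : ℝ) * Real.log (coveringNumber (polarBody {x | ∀ i, |b.repr x i| ≤ 1})
        ((2000 * C) • polarBody K)) ≤ Real.log (coveringNumber K {x | ∀ i, |b.repr x i| ≤ 1}) ∧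
      Real.log (coveringNumber K {x | ∀ i, |b.repr x i| ≤ 1}) ≤
        600 * Real.log (coveringNumber (polarBody {x | ∀ i, |b.repr x i| ≤ 1})
          ((2000 * C)⁻¹ • polarBody K)) := by
  set Φ := coordEquiv b with hΦ
  set L : Set (EuclideanSpace ℝ (Fin n)) := {x | ∀ i, |b.repr x i| ≤ 1} with hL
  have hLc : Φ '' L = cube (Fin n) := by
    ext y
    constructor
    · rintro ⟨x, hx, rfl⟩ i
      simpa [hΦ] using hx i
    · intro hy
      refine ⟨Φ.symm y, ?_, by simp⟩
      intro i
      have h1 := hy i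
      have h2 : coordEquiv b (Φ.symm y) i = y i := by
        rw [← hΦ]
        simp
      rw [coordEquiv_apply] at h2
      rw [h2]
      exact h1
  have hK' : IsSymBody (Φ '' K) := hK.image Φ
  have hu' : ∀ x ∈ Φ '' K, ∀ u : EuclideanSpace ℝ (Fin n), (∀ i, |u i| = |x i|) →
      u ∈ C • (Φ '' K) := by
    rintro _ ⟨x, hx, rfl⟩ u hux
    rw [← image_smul_set_linear]
    refine ⟨Φ.symm u, hu x hx _ ?_, by simp⟩
    intro i
    have h1 := hux i
    have h2 : coordEquiv b (Φ.symm u) i = u i := by
      rw [← hΦ]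
      simp
    rw [coordEquiv_apply] at h2
    rw [h2, h1]
    simp [hΦ]
  have hmain := uncond_cube hK' hC hu'
  have hNL : coveringNumber (Φ '' K) (cube (Fin n)) = coveringNumber K L := by
    rw [← hLc, coveringNumber_image]
  have hinner := inner_contra Φ
  have hPL : polarBody (cube (Fin n)) = contra Φ '' polarBody L := by
    rw [← hLc, polarBody_image hinner]
  have hPK : polarBody (Φ '' K) = contra Φ '' polarBody K := polarBody_image hinner K
  have hN2 : ∀ a : ℝ, coveringNumber (polarBody (cube (Fin n))) (a • polarBody (Φ '' K)) =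
      coveringNumber (polarBody L) (a • polarBody K) := by
    intro a
    rw [hPL, hPK, ← image_smul_set_linear, coveringNumber_image]
  rw [hNL, hN2, hN2] at hmain
  exact hmain

end Basis

end Vale.Agent.P126
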