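import Vale.Agent.P126.Support

/-! A small set of coordinates carrying all the large parts of the points of a solid body. -/

namespace Vale.Agent.P126

open scoped Pointwise
open Finset

set_option linter.unusedSectionVars false

variable {ι : Type*} [Fintype ι] [DecidableEq ι]

/-- Pairwise disjoint large blocks are few. -/
lemma card_disjoint_blocks {K L : Set (EuclideanSpace ℝ ι)} {t : Finset (EuclideanSpace ℝ ι)}
    (c : Ctx K L t) {I : Finset (Finset ι)}
    (hI : ∀ G ∈ I, ∃ x ∈ K, restr G x ∉ L)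
    (hdisj : ∀ G ∈ I, ∀ G' ∈ I, G ≠ G' → Disjoint G G') : I.card ≤ t.card := by
  classical
  have hex : ∀ G ∈ I, ∃ x ∈ K, ∃ y ∈ polarBody L, 1 < inner ℝ (restr G x) y := by
    intro G hG
    obtain ⟨x, hx, hxG⟩ := hI G hG
    obtain ⟨y, hy, hxy⟩ := exists_polar_gt_one c.hL hxG
    exact ⟨x, hx, y, hy, hxy⟩
  choose! x hx y hy hxy using hex
  apply c.card_le (Y := fun G => restr G (absV (y G)))
    (fun G hG => c.sL'.restr (c.sL'.absV (hy G hG)) G)
  intro G hG G' hG' hne
  refine ⟨restr G (absV (x G)), c.sK.restr (c.sK.absV (hx G hG)) G, Or.inl ?_⟩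
  have hdis := hdisj G hG G' hG' hne
  have h1 : inner ℝ (restr G (absV (x G))) (restr G (absV (y G)) - restr G' (absV (y G'))) =
      ∑ v ∈ G, |x G v| * |y G v| := by
    rw [inner_eq_sum, sum_eq_sum_ite G]
    apply Finset.sum_congr rfl
    intro i _
    by_cases hi : i ∈ G
    · have hi' : i ∉ G' := Finset.disjoint_left.mp hdis hi
      simp [hi, hi']
    · simp [hi]
  rw [h1]
  have h2 := hxy G hG
  rw [inner_eq_sum, sum_eq_sum_ite G (fun v => |x G v| * |y G v|)] at *
  refine le_trans h2.le (Finset.sum_le_sum ?_)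
  intro i _
  by_cases hi : i ∈ G
  · simp only [restr_apply, hi, if_true]
    rw [← abs_mul]
    exact le_abs_self _
  · simp [hi]

/-- The universe of the large blocks. -/
theorem exists_universe {K L : Set (EuclideanSpace ℝ ι)} {t : Finset (EuclideanSpace ℝ ι)}
    (c : Ctx K L t) {d₀ : ℕ}
    (hd₀ : ∀ x ∈ K, ∃ τ : Finset ι, τ.card ≤ d₀ ∧ restr τᶜ x ∈ (16:ℝ) • L) :
    ∃ W : Finset ι, W.card ≤ t.card * d₀ ∧ ∀ x ∈ K, restr Wᶜ x ∈ (17:ℝ) • L := by
  classical
  let 𝔊 : Finset (Finset ι) := univ.filter (fun G => G.card ≤ d₀ ∧ ∃ x ∈ K, restr G x ∉ L)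
  let 𝔉 : Finset (Finset (Finset ι)) := 𝔊.powerset.filter
    (fun I => ∀ G ∈ I, ∀ G' ∈ I, G ≠ G' → Disjoint G G')
  have hne : 𝔉.Nonempty := ⟨∅, by simp [𝔉]⟩
  obtain ⟨I, hI, hmax⟩ := Finset.exists_max_image 𝔉 Finset.card hne
  have hI1 : I ⊆ 𝔊 := Finset.mem_powerset.mp (Finset.mem_filter.mp hI).1
  have hI2 := (Finset.mem_filter.mp hI).2
  have hIc : I.card ≤ t.card := card_disjoint_blocks c
    (fun G hG => (Finset.mem_filter.mp (hI1 hG)).2.2) hI2
  refine ⟨I.biUnion id, ?_, ?_⟩
  · calc (I.biUnion id).card ≤ ∑ G ∈ I, G.card := Finset.card_biUnion_le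
      _ ≤ ∑ _G ∈ I, d₀ := Finset.sum_le_sum (fun G hG => (Finset.mem_filter.mp (hI1 hG)).2.1)
      _ = I.card * d₀ := by simp
      _ ≤ t.card * d₀ := Nat.mul_le_mul_right _ hIc
  · intro x hx
    set W : Finset ι := I.biUnion id with hW
    set x' : EuclideanSpace ℝ ι := restr Wᶜ x with hx'
    have hx'K : x' ∈ K := c.sK.restr hx _
    obtain ⟨τ, hτc, hτm⟩ := hd₀ x' hx'K
    set τ' : Finset ι := τ \ W with hτ'
    have hτ'c : τ'.card ≤ d₀ := (Finset.card_le_card Finset.sdiff_subset).trans hτc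
    have hτ'L : restr τ' x' ∈ L := by
      by_contra hcon
      have hmem : τ' ∈ 𝔊 := Finset.mem_filter.mpr ⟨Finset.mem_univ _, hτ'c, x', hx'K, hcon⟩
      have hdisW : ∀ G ∈ I, Disjoint τ' G := by
        intro G hG
        rw [Finset.disjoint_left]
        intro v hv hvG
        apply (Finset.mem_sdiff.mp hv).2
        exact Finset.mem_biUnion.mpr ⟨G, hG, hvG⟩
      have hnotI : τ' ∉ I := by
        intro hτI
        have := hdisW τ' hτI
        rw [disjoint_self] at this
        apply hcon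
        have h0 : restr τ' x' = 0 := by
          ext i
          have : τ' = ∅ := this
          simp [this]
        rw [h0]
        exact c.hL.zero_mem
      have hins : insert τ' I ∈ 𝔉 := by
        refine Finset.mem_filter.mpr ⟨Finset.mem_powerset.mpr (Finset.insert_subset hmem hI1), ?_⟩
        intro G hG G' hG' hGG'
        rcases Finset.mem_insert.mp hG with rfl | hG1
        · rcases Finset.mem_insert.mp hG' with rfl | hG2
          · exact absurd rfl hGG'
          · exact hdisW G' hG2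
        · rcases Finset.mem_insert.mp hG' with rfl | hG2
          · exact (hdisW G hG1).symm
          · exact hI2 G hG1 G' hG2 hGG'
      have := hmax _ hins
      rw [Finset.card_insert_of_notMem hnotI] at this
      omega
    have hsplit : x' = restr τᶜ x' + restr τ' x' := by
      ext i
      simp only [PiLp.add_apply, restr_apply, Finset.mem_compl, hτ', Finset.mem_sdiff, hx']
      by_cases h1 : i ∈ τ <;> by_cases h2 : i ∈ W <;> simp [h1, h2]
    rw [hsplit]
    have h1 : restr τ' x' ∈ (1:ℝ) • L := by rwa [one_smul]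
    have := add_mem_smul c.hL.convex (by norm_num : (0:ℝ) ≤ 16) (by norm_num : (0:ℝ) ≤ 1) hτm h1
    norm_num at this
    exact this

end Vale.Agent.P126
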