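import Mathlib

/-! Surprisal weights on a down-closed family of finite sets. -/

namespace Vale.Agent.P126

open Finset

variable {α : Type*} [DecidableEq α]

/-- numeric step for the average of the weights. -/
lemma weights_avg_step {n₀ n₁ : ℝ} (h1 : 1 ≤ n₁) (h01 : n₁ ≤ n₀) :
    (2/5 : ℝ) * (n₀ + n₁) * Real.log (n₀ + n₁) ≤
      (2/5 : ℝ) * n₀ * Real.log n₀ +
        (n₁ * Real.log ((n₀ + n₁) / n₁) + (2/5 : ℝ) * n₁ * Real.log n₁) := by
  have hn₁ : 0 < n₁ := by linarith
  have hn₀ : 0 < n₀ := by linarith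
  have hn : 0 < n₀ + n₁ := by linarith
  have h2 : Real.log ((n₀ + n₁) / n₁) = Real.log (n₀ + n₁) - Real.log n₁ :=
    Real.log_div hn.ne' hn₁.ne'
  have h3 : Real.log ((n₀ + n₁) / n₀) = Real.log (n₀ + n₁) - Real.log n₀ :=
    Real.log_div hn.ne' hn₀.ne'
  have h4 : Real.log ((n₀ + n₁) / n₀) ≤ (n₀ + n₁) / n₀ - 1 :=
    Real.log_le_sub_one_of_pos (by positivity)
  have h5 : n₀ * Real.log ((n₀ + n₁) / n₀) ≤ n₁ := by
    have : n₀ * ((n₀ + n₁) / n₀ - 1) = n₁ := by field_simp; ring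
    calc n₀ * Real.log ((n₀ + n₁) / n₀) ≤ n₀ * ((n₀ + n₁) / n₀ - 1) :=
          mul_le_mul_of_nonneg_left h4 hn₀.le
      _ = n₁ := this
  have h6 : Real.log 2 ≤ Real.log ((n₀ + n₁) / n₁) := by
    apply Real.log_le_log (by norm_num)
    rw [le_div_iff₀ hn₁]
    linarith
  have h7 : (2/3 : ℝ) ≤ Real.log 2 := by
    have := Real.log_two_gt_d9
    linarith
  have h8 : n₁ * (2/3 : ℝ) ≤ n₁ * Real.log ((n₀ + n₁) / n₁) :=
    mul_le_mul_of_nonneg_left (h7.trans h6) hn₁.le
  rw [h3] at h5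
  rw [h2] at h8 ⊢
  nlinarith [h5, h8]

/-- The faces avoiding `a`. -/
def facesOff (Δ : Finset (Finset α)) (a : α) : Finset (Finset α) := Δ.filter (fun F => a ∉ F)

/-- The link of `a`. -/
def facesLink (Δ : Finset (Finset α)) (a : α) : Finset (Finset α) :=
  (Δ.filter (fun F => a ∈ F)).image (fun F => F.erase a)

lemma facesLink_injOn (Δ : Finset (Finset α)) (a : α) :
    Set.InjOn (fun F : Finset α => F.erase a) (Δ.filter (fun F => a ∈ F) : Finset (Finset α)) := by
  intro F hF G hG hFG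
  have hF' : a ∈ F := (Finset.mem_filter.mp hF).2
  have hG' : a ∈ G := (Finset.mem_filter.mp hG).2
  have := congrArg (insert a) hFG
  simpa [Finset.insert_erase hF', Finset.insert_erase hG'] using this

lemma card_facesOff_add (Δ : Finset (Finset α)) (a : α) :
    (facesOff Δ a).card + (facesLink Δ a).card = Δ.card := by
  have hc₁ : (facesLink Δ a).card = (Δ.filter (fun F => a ∈ F)).card :=
    Finset.card_image_of_injOn (facesLink_injOn Δ a)
  rw [hc₁, add_comm]
  exact Finset.card_filter_add_card_filter_not (s := Δ) (fun F => a ∈ F)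

lemma facesOff_subset {Δ : Finset (Finset α)} {a : α} {S : Finset α}
    (hS : ∀ F ∈ Δ, F ⊆ insert a S) : ∀ F ∈ facesOff Δ a, F ⊆ S := by
  intro F hF v hv
  have hF' := Finset.mem_filter.mp hF
  rcases Finset.mem_insert.mp (hS F hF'.1 hv) with rfl | h
  · exact absurd hv hF'.2
  · exact h

lemma facesLink_subset {Δ : Finset (Finset α)} {a : α} {S : Finset α}
    (hS : ∀ F ∈ Δ, F ⊆ insert a S) : ∀ F ∈ facesLink Δ a, F ⊆ S := by
  intro F hF v hv
  obtain ⟨G, hG, rfl⟩ := Finset.mem_image.mp hF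
  have hG' := Finset.mem_filter.mp hG
  have hv' := Finset.mem_erase.mp hv
  rcases Finset.mem_insert.mp (hS G hG'.1 hv'.2) with h | h
  · exact absurd h hv'.1
  · exact h

lemma facesOff_down {Δ : Finset (Finset α)} {a : α} (hdown : ∀ F ∈ Δ, ∀ G, G ⊆ F → G ∈ Δ) :
    ∀ F ∈ facesOff Δ a, ∀ G, G ⊆ F → G ∈ facesOff Δ a := by
  intro F hF G hG
  have hF' := Finset.mem_filter.mp hF
  exact Finset.mem_filter.mpr ⟨hdown F hF'.1 G hG, fun h => hF'.2 (hG h)⟩

lemma mem_facesLink_erase {Δ : Finset (Finset α)} {a : α} {F : Finset α} (hF : F ∈ Δ)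
    (haF : a ∈ F) : F.erase a ∈ facesLink Δ a :=
  Finset.mem_image.mpr ⟨F, Finset.mem_filter.mpr ⟨hF, haF⟩, rfl⟩

lemma facesLink_down {Δ : Finset (Finset α)} {a : α} (hdown : ∀ F ∈ Δ, ∀ G, G ⊆ F → G ∈ Δ) :
    ∀ F ∈ facesLink Δ a, ∀ G, G ⊆ F → G ∈ facesLink Δ a := by
  intro F hF G hG
  obtain ⟨F', hF', rfl⟩ := Finset.mem_image.mp hF
  have hF'' := Finset.mem_filter.mp hF'
  have haG : a ∉ G := fun h => (Finset.mem_erase.mp (hG h)).1 rfl
  have hins : insert a G ⊆ F' := by
    intro v hv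
    rcases Finset.mem_insert.mp hv with rfl | h
    · exact hF''.2
    · exact (Finset.mem_erase.mp (hG h)).2
  have := mem_facesLink_erase (hdown F' hF''.1 _ hins) (Finset.mem_insert_self a G)
  rwa [Finset.erase_insert haG] at this

lemma facesLink_subset_facesOff {Δ : Finset (Finset α)} {a : α}
    (hdown : ∀ F ∈ Δ, ∀ G, G ⊆ F → G ∈ Δ) : facesLink Δ a ⊆ facesOff Δ a := by
  intro F hF
  obtain ⟨F', hF', rfl⟩ := Finset.mem_image.mp hF
  have hF'' := Finset.mem_filter.mp hF'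
  exact Finset.mem_filter.mpr ⟨hdown F' hF''.1 _ (Finset.erase_subset _ _), by simp⟩

lemma not_mem_of_mem_facesLink {Δ : Finset (Finset α)} {a : α}
    (hdown : ∀ F ∈ Δ, ∀ G, G ⊆ F → G ∈ Δ) {F : Finset α} (hF : F ∈ facesLink Δ a) : a ∉ F :=
  (Finset.mem_filter.mp (facesLink_subset_facesOff hdown hF)).2

lemma sum_faces_split (Δ : Finset (Finset α)) (a : α) (g : Finset α → ℝ) :
    ∑ F ∈ Δ, g F = ∑ F ∈ facesOff Δ a, g F + ∑ F ∈ facesLink Δ a, g (insert a F) := by
  have h1 : ∑ F ∈ facesLink Δ a, g (insert a F) =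
      ∑ F ∈ Δ.filter (fun F => a ∈ F), g (insert a (F.erase a)) := by
    unfold facesLink
    rw [Finset.sum_image (facesLink_injOn Δ a)]
  have h2 : ∑ F ∈ Δ.filter (fun F => a ∈ F), g (insert a (F.erase a)) =
      ∑ F ∈ Δ.filter (fun F => a ∈ F), g F := by
    apply Finset.sum_congr rfl
    intro F hF
    rw [Finset.insert_erase (Finset.mem_filter.mp hF).2]
  rw [h1, h2, add_comm]
  exact (Finset.sum_filter_add_sum_filter_not Δ (fun F => a ∈ F) g).symm

/-- The glued weight function. -/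
noncomputable def glueWeight (a : α) (t : ℝ) (h₀ h₁ : Finset α → α → ℝ) : Finset α → α → ℝ :=
  fun F v => if a ∈ F then (if v = a then t else h₁ (F.erase a) v) else h₀ F v

lemma glue_sum₀ (a : α) (t : ℝ) (h₀ h₁ : Finset α → α → ℝ) {F : Finset α} (hF : a ∉ F)
    (C : Finset α) : ∑ v ∈ C, glueWeight a t h₀ h₁ F v = ∑ v ∈ C, h₀ F v := by
  apply Finset.sum_congr rfl
  intro v _
  simp [glueWeight, hF]

lemma glue_sum₁ (a : α) (t : ℝ) (h₀ h₁ : Finset α → α → ℝ) {F : Finset α} (hF : a ∈ F)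
    {C : Finset α} (hC : a ∉ C) :
    ∑ v ∈ C, glueWeight a t h₀ h₁ F v = ∑ v ∈ C, h₁ (F.erase a) v := by
  apply Finset.sum_congr rfl
  intro v hv
  have : v ≠ a := fun e => hC (e ▸ hv)
  simp [glueWeight, hF, this]

lemma glue_sum₂ (a : α) (t : ℝ) (h₀ h₁ : Finset α → α → ℝ) {F : Finset α} (hF : a ∈ F)
    {C : Finset α} (hC : a ∈ C) :
    ∑ v ∈ C, glueWeight a t h₀ h₁ F v = t + ∑ v ∈ C.erase a, h₁ (F.erase a) v := by
  rw [← Finset.add_sum_erase C _ hC, glue_sum₁ a t h₀ h₁ hF (C := C.erase a) (by simp)]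
  simp [glueWeight, hF]

/-- The exponential-moment property for the glued weights. -/
lemma glue_moment {Δ : Finset (Finset α)} {a : α} (hdown : ∀ F ∈ Δ, ∀ G, G ⊆ F → G ∈ Δ)
    {h₀ h₁ : Finset α → α → ℝ} {t n₀ n₁ : ℝ} (ht : Real.exp t * n₁ = n₀ + n₁)
    (h₀4 : ∀ C : Finset α, ∑ F ∈ facesOff Δ a,
      (if C ⊆ F then Real.exp (∑ v ∈ C, h₀ F v) else 0) ≤ n₀)
    (h₁4 : ∀ C : Finset α, ∑ F ∈ facesLink Δ a,
      (if C ⊆ F then Real.exp (∑ v ∈ C, h₁ F v) else 0) ≤ n₁)
    (C : Finset α) :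
    ∑ F ∈ Δ, (if C ⊆ F then Real.exp (∑ v ∈ C, glueWeight a t h₀ h₁ F v) else 0) ≤ n₀ + n₁ := by
  rw [sum_faces_split Δ a]
  have hnot₁ : ∀ F ∈ facesLink Δ a, a ∉ F := fun F hF => not_mem_of_mem_facesLink hdown hF
  by_cases haC : a ∈ C
  · have h1 : ∑ F ∈ facesOff Δ a,
        (if C ⊆ F then Real.exp (∑ v ∈ C, glueWeight a t h₀ h₁ F v) else 0) = 0 := by
      apply Finset.sum_eq_zero
      intro F hF
      have : ¬ C ⊆ F := fun hCF => (Finset.mem_filter.mp hF).2 (hCF haC)
      simp [this]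
    have h2 : ∀ F ∈ facesLink Δ a, (if C ⊆ insert a F then
          Real.exp (∑ v ∈ C, glueWeight a t h₀ h₁ (insert a F) v) else 0) =
        Real.exp t * (if C.erase a ⊆ F then
          Real.exp (∑ v ∈ C.erase a, h₁ F v) else 0) := by
      intro F hF
      have haF := hnot₁ F hF
      have hiff : C ⊆ insert a F ↔ C.erase a ⊆ F := by
        rw [Finset.subset_insert_iff]
      by_cases hCF : C.erase a ⊆ F
      · rw [if_pos (hiff.mpr hCF), if_pos hCF,
          glue_sum₂ a t h₀ h₁ (Finset.mem_insert_self a F) haC, Finset.erase_insert haF,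
          Real.exp_add]
      · rw [if_neg (fun h => hCF (hiff.mp h)), if_neg hCF, mul_zero]
    rw [h1, Finset.sum_congr rfl h2, ← Finset.mul_sum, zero_add, ← ht]
    exact mul_le_mul_of_nonneg_left (h₁4 (C.erase a)) (Real.exp_pos t).le
  · have h1 : ∑ F ∈ facesOff Δ a,
        (if C ⊆ F then Real.exp (∑ v ∈ C, glueWeight a t h₀ h₁ F v) else 0) =
        ∑ F ∈ facesOff Δ a, (if C ⊆ F then Real.exp (∑ v ∈ C, h₀ F v) else 0) := by
      apply Finset.sum_congr rfl
      intro F hF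
      rw [glue_sum₀ a t h₀ h₁ (Finset.mem_filter.mp hF).2 C]
    have h2 : ∀ F ∈ facesLink Δ a, (if C ⊆ insert a F then
          Real.exp (∑ v ∈ C, glueWeight a t h₀ h₁ (insert a F) v) else 0) =
        (if C ⊆ F then Real.exp (∑ v ∈ C, h₁ F v) else 0) := by
      intro F hF
      have haF := hnot₁ F hF
      have hiff : C ⊆ insert a F ↔ C ⊆ F := by
        constructor
        · intro hCF v hv
          rcases Finset.mem_insert.mp (hCF hv) with rfl | h'
          · exact absurd hv haC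
          · exact h'
        · exact fun hCF => hCF.trans (Finset.subset_insert _ _)
      by_cases hCF : C ⊆ F
      · rw [if_pos (hiff.mpr hCF), if_pos hCF,
          glue_sum₁ a t h₀ h₁ (Finset.mem_insert_self a F) haC, Finset.erase_insert haF]
      · rw [if_neg (fun h => hCF (hiff.mp h)), if_neg hCF]
    rw [h1, Finset.sum_congr rfl h2]
    exact add_le_add (h₀4 C) (h₁4 C)

/-- Weights on a down-closed family. -/
theorem exists_surprisal_weights (S : Finset α) :
    ∀ Δ : Finset (Finset α), (∀ F ∈ Δ, F ⊆ S) → Δ.Nonempty → (∀ F ∈ Δ, ∀ G, G ⊆ F → G ∈ Δ) →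
    ∃ h : Finset α → α → ℝ,
      (∀ F ∈ Δ, ∀ v ∈ F, Real.log 2 ≤ h F v) ∧
      ((2/5 : ℝ) * Δ.card * Real.log Δ.card ≤ ∑ F ∈ Δ, ∑ v ∈ F, h F v) ∧
      (∀ F ∈ Δ, ∑ v ∈ F, h F v ≤ Real.log Δ.card) ∧
      (∀ C : Finset α, ∑ F ∈ Δ, (if C ⊆ F then Real.exp (∑ v ∈ C, h F v) else 0) ≤ Δ.card) := by
  induction S using Finset.induction_on with
  | empty =>
    intro Δ hS hne hdown
    have hΔ : Δ = {∅} := by
      obtain ⟨F, hF⟩ := hne
      have hF0 : F = ∅ := Finset.subset_empty.mp (hS F hF)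
      ext G
      simp only [Finset.mem_singleton]
      constructor
      · intro hG
        exact Finset.subset_empty.mp (hS G hG)
      · rintro rfl
        exact hF0 ▸ hF
    subst hΔ
    refine ⟨fun _ _ => 0, ?_, ?_, ?_, ?_⟩
    · simp
    · simp
    · simp
    · intro C
      by_cases hC : C = ∅
      · subst hC; simp
      · have : ¬ C ⊆ ∅ := fun h => hC (Finset.subset_empty.mp h)
        rw [Finset.sum_singleton, if_neg this]
        simp
  | insert a S ha ih =>
    intro Δ hS hne hdown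
    by_cases hex : ∃ F ∈ Δ, a ∈ F
    swap
    · push Not at hex
      apply ih Δ _ hne hdown
      intro F hF v hv
      have := hS F hF hv
      rcases Finset.mem_insert.mp this with rfl | h
      · exact absurd hv (hex F hF)
      · exact h
    obtain ⟨Fa, hFa, haFa⟩ := hex
    have hemp : (∅ : Finset α) ∈ facesOff Δ a := by
      refine Finset.mem_filter.mpr ⟨?_, by simp⟩
      obtain ⟨F, hF⟩ := hne
      exact hdown F hF ∅ (Finset.empty_subset _)
    have hne₁ : (facesLink Δ a).Nonempty := ⟨_, mem_facesLink_erase hFa haFa⟩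
    obtain ⟨h₀, h₀1, h₀2, h₀3, h₀4⟩ :=
      ih (facesOff Δ a) (facesOff_subset hS) ⟨∅, hemp⟩ (facesOff_down hdown)
    obtain ⟨h₁, h₁1, h₁2, h₁3, h₁4⟩ :=
      ih (facesLink Δ a) (facesLink_subset hS) hne₁ (facesLink_down hdown)
    have hn₁ : (1 : ℝ) ≤ (facesLink Δ a).card := by
      exact_mod_cast Finset.card_pos.mpr hne₁
    have hn01 : ((facesLink Δ a).card : ℝ) ≤ (facesOff Δ a).card := by
      exact_mod_cast Finset.card_le_card (facesLink_subset_facesOff hdown)
    have hn : (Δ.card : ℝ) = (facesOff Δ a).card + (facesLink Δ a).card := by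
      rw [← card_facesOff_add Δ a]; push_cast; ring
    generalize ((facesOff Δ a).card : ℝ) = n₀ at *
    generalize hn₁def : ((facesLink Δ a).card : ℝ) = n₁ at *
    have hn₁pos : 0 < n₁ := by linarith
    have hn₀pos : 0 < n₀ := by linarith
    have hlog2 : Real.log 2 ≤ Real.log ((n₀ + n₁) / n₁) := by
      apply Real.log_le_log (by norm_num)
      rw [le_div_iff₀ hn₁pos]
      linarith
    have hlogsum : Real.log ((n₀ + n₁) / n₁) + Real.log n₁ = Real.log (n₀ + n₁) := by
      rw [Real.log_div (by positivity) hn₁pos.ne']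
      ring
    have hnot₁ : ∀ F ∈ facesLink Δ a, a ∉ F := fun F hF => not_mem_of_mem_facesLink hdown hF
    refine ⟨glueWeight a (Real.log ((n₀ + n₁) / n₁)) h₀ h₁, ?_, ?_, ?_, ?_⟩
    · -- (P1)
      intro F hF v hv
      by_cases haF : a ∈ F
      · by_cases hva : v = a
        · simp only [glueWeight, haF, hva, if_true]
          exact hlog2
        · simp only [glueWeight, haF, hva, if_true, if_false]
          exact h₁1 _ (mem_facesLink_erase hF haF) v (Finset.mem_erase.mpr ⟨hva, hv⟩)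
      · simp only [glueWeight, haF, if_false]
        exact h₀1 F (Finset.mem_filter.mpr ⟨hF, haF⟩) v hv
    · -- (P2)
      rw [sum_faces_split Δ a, hn]
      have h1 : ∑ F ∈ facesOff Δ a, ∑ v ∈ F, glueWeight a (Real.log ((n₀ + n₁) / n₁)) h₀ h₁ F v =
          ∑ F ∈ facesOff Δ a, ∑ v ∈ F, h₀ F v := by
        apply Finset.sum_congr rfl
        intro F hF
        exact glue_sum₀ _ _ _ _ (Finset.mem_filter.mp hF).2 F
      have h2 : ∑ F ∈ facesLink Δ a, ∑ v ∈ insert a F,
            glueWeight a (Real.log ((n₀ + n₁) / n₁)) h₀ h₁ (insert a F) v =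
          n₁ * Real.log ((n₀ + n₁) / n₁) + ∑ F ∈ facesLink Δ a, ∑ v ∈ F, h₁ F v := by
        have : ∀ F ∈ facesLink Δ a, ∑ v ∈ insert a F,
              glueWeight a (Real.log ((n₀ + n₁) / n₁)) h₀ h₁ (insert a F) v =
            Real.log ((n₀ + n₁) / n₁) + ∑ v ∈ F, h₁ F v := by
          intro F hF
          have haF := hnot₁ F hF
          rw [glue_sum₂ _ _ _ _ (Finset.mem_insert_self a F) (Finset.mem_insert_self a F),
            Finset.erase_insert haF]
        rw [Finset.sum_congr rfl this, Finset.sum_add_distrib, Finset.sum_const, nsmul_eq_mul,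
          hn₁def]
      rw [h1, h2]
      have := weights_avg_step hn₁ hn01
      linarith
    · -- (P3)
      intro F hF
      rw [hn]
      by_cases haF : a ∈ F
      · rw [glue_sum₂ _ _ _ _ haF haF, ← hlogsum]
        have := h₁3 _ (mem_facesLink_erase hF haF)
        linarith
      · rw [glue_sum₀ _ _ _ _ haF F]
        have h1 := h₀3 F (Finset.mem_filter.mpr ⟨hF, haF⟩)
        have h2 : Real.log n₀ ≤ Real.log (n₀ + n₁) :=
          Real.log_le_log hn₀pos (by linarith)
        linarith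
    · -- (P4)
      intro C
      rw [hn]
      apply glue_moment hdown _ h₀4 h₁4 C
      rw [Real.exp_log (by positivity)]
      field_simp

end Vale.Agent.P126
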